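import Vale.Agent.Lib.P335.Cond

/-!
A counting criterion for two conditional expectations to commute, and the algebra of a commuting
square of conditional expectations.
-/

set_option linter.unusedSectionVars false

namespace Vale.Agent.Lib.P335

open Finset

variable {X K K' K'' : Type*} [DecidableEq X] [DecidableEq K] [DecidableEq K'] [DecidableEq K'']

/-- The double sum along two keys, in terms of cell counts. -/
theorem sum_fib_fib {s : Finset X} {κ₁ : X → K} {κ₂ : X → K'} {β : X → K''}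
    (h₁ : ∀ x ∈ s, ∀ y ∈ s, κ₁ x = κ₁ y → β x = β y)
    (h₂ : ∀ x ∈ s, ∀ y ∈ s, κ₂ x = κ₂ y → β x = β y)
    (v : X → ℕ)
    (hc : ∀ x ∈ s, ∀ y ∈ s, β x = β y →
      (s.filter (fun z => κ₁ z = κ₁ x ∧ κ₂ z = κ₂ y)).card = v x)
    (F : X → ℝ) {x : X} (hx : x ∈ s) :
    ∑ z ∈ fib s κ₁ x, ∑ y ∈ fib s κ₂ z, F y = (v x : ℝ) * ∑ y ∈ fib s β x, F y := by
  have h1 : ∑ z ∈ fib s κ₁ x, ∑ y ∈ fib s κ₂ z, F y =
      ∑ y ∈ s, (((s.filter (fun z => κ₁ z = κ₁ x ∧ κ₂ z = κ₂ y)).card : ℝ) * F y) := by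
    have : ∀ z ∈ fib s κ₁ x, ∑ y ∈ fib s κ₂ z, F y =
        ∑ y ∈ s, (if κ₂ z = κ₂ y then F y else 0) := by
      intro z _
      rw [fib, Finset.sum_filter]
      exact Finset.sum_congr rfl (fun y _ => by simp only [eq_comm])
    rw [Finset.sum_congr rfl this, Finset.sum_comm]
    refine Finset.sum_congr rfl (fun y _ => ?_)
    have : ∑ z ∈ fib s κ₁ x, (if κ₂ z = κ₂ y then F y else 0) =
        ∑ z ∈ (fib s κ₁ x).filter (fun z => κ₂ z = κ₂ y), F y := by
      rw [Finset.sum_filter]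
    have hf : (fib s κ₁ x).filter (fun z => κ₂ z = κ₂ y) =
        s.filter (fun z => κ₁ z = κ₁ x ∧ κ₂ z = κ₂ y) := by
      ext z
      simp [fib, and_assoc]
    rw [this, sum_const, nsmul_eq_mul, hf]
  rw [h1, fib, Finset.sum_filter, Finset.mul_sum]
  refine Finset.sum_congr rfl (fun y hy => ?_)
  by_cases hb : β y = β x
  · rw [if_pos hb, hc x hx y hy hb.symm]
  · rw [if_neg hb]
    have : s.filter (fun z => κ₁ z = κ₁ x ∧ κ₂ z = κ₂ y) = ∅ := by
      apply Finset.filter_eq_empty_iff.2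
      rintro z hz ⟨hz1, hz2⟩
      exact hb ((h₂ y hy z hz hz2.symm).trans (h₁ z hz x hx hz1))
    rw [this]
    simp

/-- Both keys refine the block key, and the cell counts depend only on the first argument:
the composition of the two averages is the block average. -/
theorem avg_comp_eq_block {s : Finset X} {κ₁ : X → K} {κ₂ : X → K'} {β : X → K''}
    (h₁ : ∀ x ∈ s, ∀ y ∈ s, κ₁ x = κ₁ y → β x = β y)
    (h₂ : ∀ x ∈ s, ∀ y ∈ s, κ₂ x = κ₂ y → β x = β y)
    (v : X → ℕ) (hv : ∀ x ∈ s, 0 < v x)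
    (hc : ∀ x ∈ s, ∀ y ∈ s, β x = β y →
      (s.filter (fun z => κ₁ z = κ₁ x ∧ κ₂ z = κ₂ y)).card = v x)
    (f : X → ℝ) {x : X} (hx : x ∈ s) :
    avg s κ₁ (avg s κ₂ f) x = avg s β f x := by
  -- sizes of the second fibres are constant on a block
  have hN2 : ∀ y ∈ s, ((fib s κ₂ y).card : ℝ) =
      ∑ x' ∈ fib s β y, (v x' : ℝ) / ((fib s κ₁ x').card : ℝ) := by
    intro y hy
    -- count the second fibre of y
    have h3 : ∑ x' ∈ fib s β y, (v x' : ℝ) / ((fib s κ₁ x').card : ℝ) =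
        ∑ x' ∈ s, ∑ z ∈ s, (if κ₂ z = κ₂ y ∧ κ₁ z = κ₁ x' then
          1 / ((fib s κ₁ x').card : ℝ) else 0) := by
      rw [fib, Finset.sum_filter]
      refine Finset.sum_congr rfl (fun x' hx' => ?_)
      by_cases hb : β x' = β y
      · rw [if_pos hb]
        have hcard := hc x' hx' y hy hb
        have : ∑ z ∈ s, (if κ₂ z = κ₂ y ∧ κ₁ z = κ₁ x' then
            1 / ((fib s κ₁ x').card : ℝ) else 0) =
            ((s.filter (fun z => κ₁ z = κ₁ x' ∧ κ₂ z = κ₂ y)).card : ℝ) *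
              (1 / ((fib s κ₁ x').card : ℝ)) := by
          rw [← nsmul_eq_mul, ← Finset.sum_const, Finset.sum_filter]
          refine Finset.sum_congr rfl (fun z _ => ?_)
          simp only [and_comm]
        rw [this, hcard]; ring
      · rw [if_neg hb]
        symm
        refine Finset.sum_eq_zero (fun z hz => if_neg ?_)
        rintro ⟨hz1, hz2⟩
        exact hb ((h₁ x' hx' z hz hz2.symm).trans (h₂ z hz y hy hz1))
    rw [h3, Finset.sum_comm]
    have h4 : ∀ z ∈ s, ∑ x' ∈ s, (if κ₂ z = κ₂ y ∧ κ₁ z = κ₁ x' then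
        1 / ((fib s κ₁ x').card : ℝ) else 0) = if κ₂ z = κ₂ y then 1 else 0 := by
      intro z hz
      by_cases h2 : κ₂ z = κ₂ y
      · simp only [h2, true_and, if_true]
        have : ∀ x' ∈ s, (if κ₁ z = κ₁ x' then 1 / ((fib s κ₁ x').card : ℝ) else 0) =
            (if κ₁ x' = κ₁ z then 1 / ((fib s κ₁ z).card : ℝ) else 0) := by
          intro x' _
          by_cases h : κ₁ z = κ₁ x'
          · rw [if_pos h, if_pos h.symm, fib_congr h]
          · rw [if_neg h, if_neg (fun h' => h h'.symm)]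
        rw [Finset.sum_congr rfl this, ← Finset.sum_filter, sum_const, nsmul_eq_mul]
        have hpos := fib_card_pos (κ := κ₁) hz
        change ((fib s κ₁ z).card : ℝ) * (1 / ((fib s κ₁ z).card : ℝ)) = 1
        field_simp
      · simp [h2]
    rw [Finset.sum_congr rfl h4, ← Finset.sum_filter, sum_const, nsmul_eq_mul, mul_one]
    rfl
  -- on the block of x the size is the constant c
  set c : ℝ := ((fib s κ₂ x).card : ℝ) with hc_def
  have hcpos : 0 < c := fib_card_pos hx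
  have hconst : ∀ y ∈ fib s β x, ((fib s κ₂ y).card : ℝ) = c := by
    intro y hy
    rw [mem_fib] at hy
    rw [hN2 y hy.1, hc_def, hN2 x hx, fib_congr hy.2]
  -- formula for the composition
  have hform : ∀ g : X → ℝ, ((fib s κ₁ x).card : ℝ) * avg s κ₁ (avg s κ₂ g) x =
      (v x : ℝ) * (∑ y ∈ fib s β x, g y) / c := by
    intro g
    have hpos := fib_card_pos (κ := κ₁) hx
    have h5 : ((fib s κ₁ x).card : ℝ) * avg s κ₁ (avg s κ₂ g) x =
        ∑ z ∈ fib s κ₁ x, avg s κ₂ g z := by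
      simp only [avg]
      field_simp
    rw [h5]
    have h6 : ∀ z ∈ fib s κ₁ x, avg s κ₂ g z =
        ∑ y ∈ fib s κ₂ z, g y / ((fib s κ₂ y).card : ℝ) := by
      intro z _
      simp only [avg]
      rw [Finset.sum_div]
      refine Finset.sum_congr rfl (fun y hy => ?_)
      rw [fib_congr (mem_fib.1 hy).2]
    rw [Finset.sum_congr rfl h6, sum_fib_fib h₁ h₂ v hc _ hx]
    have h7 : ∑ y ∈ fib s β x, g y / ((fib s κ₂ y).card : ℝ) =
        ∑ y ∈ fib s β x, g y / c :=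
      Finset.sum_congr rfl (fun y hy => by rw [hconst y hy])
    rw [h7, ← Finset.sum_div, mul_div_assoc]
  -- the constant function fixes the ratio
  have hone : avg s κ₁ (avg s κ₂ (fun _ => (1 : ℝ))) x = 1 := by
    have : avg s κ₁ (avg s κ₂ (fun _ => (1 : ℝ))) x = avg s κ₁ (fun _ => (1 : ℝ)) x :=
      avg_congr_fun (fun y hy => avg_const s κ₂ 1 hy) x
    rw [this, avg_const s κ₁ 1 hx]
  have h8 := hform (fun _ => (1 : ℝ))
  rw [hone] at h8
  simp only [sum_const, nsmul_eq_mul, mul_one] at h8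
  have h9 := hform f
  have hpos1 := fib_card_pos (κ := κ₁) hx
  have hpos2 := fib_card_pos (κ := β) hx
  have hvpos : (0 : ℝ) < v x := by exact_mod_cast hv x hx
  simp only [avg] at h9 h8 ⊢
  -- clear denominators
  set N₁ : ℝ := ((fib s κ₁ x).card : ℝ)
  set N : ℝ := ((fib s β x).card : ℝ)
  set A : ℝ := ∑ y ∈ fib s β x, f y
  set V : ℝ := (v x : ℝ)
  set T : ℝ := (∑ z ∈ fib s κ₁ x, (∑ y ∈ fib s κ₂ z, f y) / ((fib s κ₂ z).card : ℝ)) / N₁
  have h10 : N₁ = V * N / c := h8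
  have h11 : N₁ * T = V * A / c := h9
  have : T * N = A := by
    have e1 : (V * N / c) * T = V * A / c := by rw [← h10]; exact h11
    field_simp at e1
    nlinarith [e1]
  rw [eq_div_iff (ne_of_gt hpos2)]
  exact this

/-- Commutation from the cell count. -/
theorem avg_comm_of_block {s : Finset X} {κ₁ : X → K} {κ₂ : X → K'} {β : X → K''}
    (h₁ : ∀ x ∈ s, ∀ y ∈ s, κ₁ x = κ₁ y → β x = β y)
    (h₂ : ∀ x ∈ s, ∀ y ∈ s, κ₂ x = κ₂ y → β x = β y)
    (v : X → ℕ) (hv : ∀ x ∈ s, 0 < v x)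
    (hc : ∀ x ∈ s, ∀ y ∈ s, β x = β y →
      (s.filter (fun z => κ₁ z = κ₁ x ∧ κ₂ z = κ₂ y)).card = v x)
    (f : X → ℝ) {x : X} (hx : x ∈ s) :
    avg s κ₁ (avg s κ₂ f) x = avg s κ₂ (avg s κ₁ f) x := by
  rw [avg_comp_eq_block h₁ h₂ v hv hc f hx]
  refine eq_of_dot_eq (s := s) (f := avg s β f) (g := avg s κ₂ (avg s κ₁ f)) (fun a => ?_) x hx
  rw [dot_avg_comm, dot_avg_comm s κ₂, dot_avg_comm s κ₁]
  refine dot_congr (fun _ _ => rfl) (fun y hy => ?_)
  rw [avg_comp_eq_block h₁ h₂ v hv hc a hy]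

end Vale.Agent.Lib.P335
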