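import Vale.Agent.Lib.P335.Cond

/-!
Three-row Boolean matrices with prescribed margins.
-/

namespace Vale.Agent.Lib.P335

open Finset

/-- Matrices with three rows, indexed by columns `C`. -/
abbrev Mat3 (C : Type*) := C → Fin 3 → Bool

variable {C : Type*}

/-- The sum of a column. -/
def colSum (y : Mat3 C) (c : C) : ℕ := (univ.filter fun i => y c i = true).card

/-- The sum of a row. -/
def rowSum [Fintype C] (y : Mat3 C) (i : Fin 3) : ℕ := (univ.filter fun c => y c i = true).card

/-- The matrices with prescribed margins. -/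
def marginSet [Fintype C] [DecidableEq C] (e : C → ℕ) (r : Fin 3 → ℕ) : Finset (Mat3 C) :=
  univ.filter fun y => (∀ c, colSum y c = e c) ∧ ∀ i, rowSum y i = r i

/-- The key given by one row. -/
def rowKey (i : Fin 3) (y : Mat3 C) : C → Bool := fun c => y c i

/-- The statement of the three-row lemma for the column type `C`. -/
def ThreeRowStmt (C : Type*) [Fintype C] [DecidableEq C] : Prop :=
  ∀ (e : C → ℕ) (r : Fin 3 → ℕ) (f : Mat3 C → ℝ),
    0 ≤ dot (marginSet e r) (fun y => f y - avg (marginSet e r) (rowKey 0) f y)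
          (fun y => f y - avg (marginSet e r) (rowKey 1) f y) +
        dot (marginSet e r) (fun y => f y - avg (marginSet e r) (rowKey 0) f y)
          (fun y => f y - avg (marginSet e r) (rowKey 2) f y) +
        dot (marginSet e r) (fun y => f y - avg (marginSet e r) (rowKey 1) f y)
          (fun y => f y - avg (marginSet e r) (rowKey 2) f y)

/-- Transport of averages along a bijection of finite sets. -/
theorem avg_transport {X X' K K' : Type*} [DecidableEq X] [DecidableEq X'] [DecidableEq K]
    [DecidableEq K'] {s : Finset X} {m : Finset X'} {Y : X → X'} (hinj : Set.InjOn Y s)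
    (himg : s.image Y = m) {κ : X → K} {κ' : X' → K'}
    (hκ : ∀ x ∈ s, ∀ x' ∈ s, κ x = κ x' ↔ κ' (Y x) = κ' (Y x'))
    {f : X → ℝ} {g : X' → ℝ} (hf : ∀ x ∈ s, g (Y x) = f x) {x : X} (hx : x ∈ s) :
    avg m κ' g (Y x) = avg s κ f x := by
  have hfib : fib m κ' (Y x) = (fib s κ x).image Y := by
    ext z
    simp only [mem_fib, Finset.mem_image]
    constructor
    · rintro ⟨hz, hk⟩
      rw [← himg, Finset.mem_image] at hz
      obtain ⟨a, ha, rfl⟩ := hz
      exact ⟨a, ⟨ha, (hκ a ha x hx).2 hk⟩, rfl⟩
    · rintro ⟨a, ⟨ha, hk⟩, rfl⟩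
      refine ⟨?_, (hκ a ha x hx).1 hk⟩
      rw [← himg]
      exact Finset.mem_image_of_mem Y ha
  have hinj' : Set.InjOn Y (fib s κ x) := fun a ha b hb h =>
    hinj (mem_fib.1 ha).1 (mem_fib.1 hb).1 h
  unfold avg
  rw [hfib, Finset.sum_image hinj', Finset.card_image_of_injOn hinj']
  congr 1
  exact Finset.sum_congr rfl fun a ha => hf a (mem_fib.1 ha).1

/-- Transport of the form along a bijection of finite sets. -/
theorem dot_transport {X X' : Type*} [DecidableEq X] [DecidableEq X'] {s : Finset X} {m : Finset X'}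
    {Y : X → X'} (hinj : Set.InjOn Y s) (himg : s.image Y = m) {g h : X' → ℝ} {a b : X → ℝ}
    (ha : ∀ x ∈ s, g (Y x) = a x) (hb : ∀ x ∈ s, h (Y x) = b x) : dot m g h = dot s a b := by
  unfold dot
  rw [← himg, Finset.sum_image hinj]
  exact Finset.sum_congr rfl fun x hx => by rw [ha x hx, hb x hx]

end Vale.Agent.Lib.P335
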