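import Vale.Agent.Lib.P335.Cond

/-!
Spectral decomposition for symmetric linear operators on functions on a finite set, in the language
of the form `dot s`.
-/

set_option linter.unusedSectionVars false

namespace Vale.Agent.Lib.P335

open Finset

variable {X : Type*} [DecidableEq X]

/-- Extension by zero of a function on the subtype. -/
noncomputable def extZeroEu (s : Finset X) (g : {x // x ∈ s} → ℝ) : X → ℝ :=
  fun x => if h : x ∈ s then g ⟨x, h⟩ else 0

theorem extZeroEu_coe (s : Finset X) (g : {x // x ∈ s} → ℝ) (y : {x // x ∈ s}) :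
    extZeroEu s g y.1 = g y := by
  simp [extZeroEu]

theorem dot_eq_attach (s : Finset X) (f g : X → ℝ) :
    dot s f g = ∑ y : {x // x ∈ s}, f y.1 * g y.1 := by
  unfold dot
  rw [← Finset.sum_coe_sort s (fun x => f x * g x)]

/-- The Euclidean space of functions on `s`. -/
abbrev Eu (s : Finset X) := EuclideanSpace ℝ {x // x ∈ s}

/-- Extension by zero of a vector. -/
noncomputable def extE (s : Finset X) (g : Eu s) : X → ℝ := extZeroEu s (fun y => g y)

/-- Restriction of a function to a vector. -/
noncomputable def resE (s : Finset X) (f : X → ℝ) : Eu s :=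
  WithLp.toLp 2 (fun y : {x // x ∈ s} => f y.1)

theorem extE_apply (s : Finset X) (g : Eu s) {x : X} (hx : x ∈ s) : extE s g x = g ⟨x, hx⟩ :=
  extZeroEu_coe s _ ⟨x, hx⟩

theorem resE_apply (s : Finset X) (f : X → ℝ) (y : {x // x ∈ s}) : resE s f y = f y.1 := rfl

theorem inner_eq_dot_eu (s : Finset X) (g g' : Eu s) : inner ℝ g g' = dot s (extE s g) (extE s g') := by
  rw [dot_eq_attach, PiLp.inner_apply]
  refine Finset.sum_congr rfl (fun y _ => ?_)
  rw [extE_apply s g y.2, extE_apply s g' y.2]
  simp [mul_comm]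

/-- An orthonormal eigenbasis of a symmetric operator. -/
theorem exists_eigenbasis (s : Finset X) (T : (X → ℝ) → (X → ℝ))
    (hadd : ∀ f g, ∀ x ∈ s, T (fun y => f y + g y) x = T f x + T g x)
    (hsmul : ∀ (c : ℝ) f, ∀ x ∈ s, T (fun y => c * f y) x = c * T f x)
    (hcongr : ∀ f g, (∀ x ∈ s, f x = g x) → ∀ x ∈ s, T f x = T g x)
    (hsym : ∀ f g, dot s (T f) g = dot s f (T g)) :
    ∃ (m : ℕ) (e : Fin m → X → ℝ) (lam : Fin m → ℝ),
      (∀ i j, dot s (e i) (e j) = if i = j then 1 else 0) ∧
      (∀ i, ∀ x ∈ s, T (e i) x = lam i * e i x) ∧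
      (∀ f, ∀ x ∈ s, f x = ∑ i, dot s f (e i) * e i x) := by
  classical
  have ext_add : ∀ (g g' : Eu s), ∀ x ∈ s, extE s (g + g') x = extE s g x + extE s g' x := by
    intro g g' x hx
    rw [extE_apply s _ hx, extE_apply s _ hx, extE_apply s _ hx]
    rfl
  have ext_smul : ∀ (c : ℝ) (g : Eu s), ∀ x ∈ s, extE s (c • g) x = c * extE s g x := by
    intro c g x hx
    rw [extE_apply s _ hx, extE_apply s _ hx]
    rfl
  let T' : Eu s →ₗ[ℝ] Eu s :=
    { toFun := fun g => resE s (T (extE s g))
      map_add' := by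
        intro g g'
        ext y
        change T (extE s (g + g')) y.1 = T (extE s g) y.1 + T (extE s g') y.1
        rw [← hadd _ _ y.1 y.2]
        exact hcongr _ _ (fun x hx => ext_add g g' x hx) y.1 y.2
      map_smul' := by
        intro c g
        ext y
        change T (extE s (c • g)) y.1 = c * T (extE s g) y.1
        rw [← hsmul _ _ y.1 y.2]
        exact hcongr _ _ (fun x hx => ext_smul c g x hx) y.1 y.2 }
  have T'_apply : ∀ (g : Eu s) (y : {x // x ∈ s}), T' g y = T (extE s g) y.1 := fun g y => rfl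
  have hT' : T'.IsSymmetric := by
    intro g g'
    rw [inner_eq_dot_eu, inner_eq_dot_eu]
    have h1 : dot s (extE s (T' g)) (extE s g') = dot s (T (extE s g)) (extE s g') := by
      refine dot_congr (fun x hx => ?_) (fun _ _ => rfl)
      rw [extE_apply s _ hx, T'_apply]
    have h2 : dot s (extE s g) (extE s (T' g')) = dot s (extE s g) (T (extE s g')) := by
      refine dot_congr (fun _ _ => rfl) (fun x hx => ?_)
      rw [extE_apply s _ hx, T'_apply]
    rw [h1, h2, hsym]
  let m := Module.finrank ℝ (Eu s)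
  have hm : Module.finrank ℝ (Eu s) = m := rfl
  let b := hT'.eigenvectorBasis hm
  refine ⟨m, fun i => extE s (b i), fun i => hT'.eigenvalues hm i, ?_, ?_, ?_⟩
  · intro i j
    rw [← inner_eq_dot_eu]
    exact (orthonormal_iff_ite.1 b.orthonormal) i j
  · intro i x hx
    have h := hT'.apply_eigenvectorBasis hm i
    have h2 : (T' (b i)) ⟨x, hx⟩ = (((hT'.eigenvalues hm i : ℝ) : ℝ) • b i) ⟨x, hx⟩ := by
      rw [h]
      rfl
    rw [T'_apply] at h2
    change T (extE s (b i)) x = hT'.eigenvalues hm i * extE s (b i) x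
    rw [h2, extE_apply s _ hx]
    rfl
  · intro f x hx
    have h := b.sum_repr' (resE s f)
    have h2 : (∑ i, inner ℝ (b i) (resE s f) • b i) ⟨x, hx⟩ = f x := by
      rw [h]
      rfl
    rw [← h2, WithLp.ofLp_sum, Finset.sum_apply]
    refine Finset.sum_congr rfl (fun i _ => ?_)
    rw [inner_eq_dot_eu, PiLp.smul_apply, smul_eq_mul, dot_comm]
    change _ = dot s f (extE s (b i)) * extE s (b i) x
    rw [extE_apply s _ hx]
    congr 1
    refine dot_congr (fun y hy => ?_) (fun _ _ => rfl)
    rw [extE_apply s _ hy]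
    rfl

/-- Parseval. -/
theorem parseval_of_expansion {s : Finset X} {m : ℕ} {e : Fin m → X → ℝ}
    (hexp : ∀ f, ∀ x ∈ s, f x = ∑ i, dot s f (e i) * e i x) (f g : X → ℝ) :
    dot s f g = ∑ i, dot s f (e i) * dot s g (e i) := by
  have : ∀ x ∈ s, f x * g x = ∑ i, dot s g (e i) * (f x * e i x) := by
    intro x hx
    rw [hexp g x hx, Finset.mul_sum]
    refine Finset.sum_congr rfl (fun i _ => ?_)
    ring
  have h2 : dot s f g = ∑ x ∈ s, f x * g x := rfl
  rw [h2, Finset.sum_congr rfl this, Finset.sum_comm]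
  refine Finset.sum_congr rfl (fun i _ => ?_)
  rw [← Finset.mul_sum, mul_comm]
  rfl

/-- If a symmetric positive operator `T` killing the constants satisfies `T² ≥ c T` and its kernel
consists of the functions which are constant on `s`, then it has spectral gap at least `c`. -/
theorem gap_of_bochner (s : Finset X) (T : (X → ℝ) → (X → ℝ))
    (hadd : ∀ f g, ∀ x ∈ s, T (fun y => f y + g y) x = T f x + T g x)
    (hsmul : ∀ (c : ℝ) f, ∀ x ∈ s, T (fun y => c * f y) x = c * T f x)
    (hcongr : ∀ f g, (∀ x ∈ s, f x = g x) → ∀ x ∈ s, T f x = T g x)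
    (hsym : ∀ f g, dot s (T f) g = dot s f (T g))
    (hconst : ∀ x ∈ s, T (fun _ => 1) x = 0)
    (hpsd : ∀ f, 0 ≤ dot s f (T f))
    (hker : ∀ f, (∀ x ∈ s, T f x = 0) → ∀ x ∈ s, ∀ y ∈ s, f x = f y)
    {c : ℝ} (hc : 0 < c)
    (hB : ∀ f, c * dot s f (T f) ≤ dot s (T f) (T f)) (f : X → ℝ) :
    c * dot s (fun x => f x - mean s f) (fun x => f x - mean s f) ≤ dot s f (T f) := by
  obtain ⟨m, e, lam, hon, heig, hexp⟩ := exists_eigenbasis s T hadd hsmul hcongr hsym
  have hpar := parseval_of_expansion hexp
  -- eigenvalues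
  have hTe : ∀ i g, dot s g (T (e i)) = lam i * dot s g (e i) := by
    intro i g
    have : dot s g (T (e i)) = dot s g (fun x => lam i * e i x) :=
      dot_congr (fun _ _ => rfl) (fun x hx => heig i x hx)
    rw [this, dot_smul_right]
  have hlam : ∀ i, dot s (e i) (T (e i)) = lam i := by
    intro i
    rw [hTe, hon]
    simp
  have hlam2 : ∀ i, dot s (T (e i)) (T (e i)) = lam i ^ 2 := by
    intro i
    rw [hTe, hsym, hTe, hon]
    simp
    ring
  have hdich : ∀ i, lam i = 0 ∨ c ≤ lam i := by
    intro i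
    by_cases h0 : lam i = 0
    · exact Or.inl h0
    · right
      have h1 := hB (e i)
      rw [hlam, hlam2] at h1
      have h2 := hpsd (e i)
      rw [hlam] at h2
      have h3 : 0 < lam i := lt_of_le_of_ne h2 (Ne.symm h0)
      have : c * lam i ≤ lam i * lam i := by nlinarith
      exact le_of_mul_le_mul_right this h3
  -- the zero modes are constant
  have hmean : dot s (fun x => f x - mean s f) (fun _ => 1) = 0 := by
    unfold dot mean
    simp only [mul_one]
    rw [Finset.sum_sub_distrib, Finset.sum_const, nsmul_eq_mul]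
    by_cases hs : s = ∅
    · simp [hs]
    · have : (s.card : ℝ) ≠ 0 := by
        simp [hs]
      field_simp
      ring
  have hzero : ∀ i, lam i = 0 → dot s (fun x => f x - mean s f) (e i) = 0 := by
    intro i h0
    have hk := hker (e i) (fun x hx => by rw [heig i x hx, h0]; simp)
    by_cases hs : s.Nonempty
    · obtain ⟨x₀, hx₀⟩ := hs
      have : dot s (fun x => f x - mean s f) (e i) =
          dot s (fun x => f x - mean s f) (fun _ => e i x₀ * 1) :=
        dot_congr (fun _ _ => rfl) (fun x hx => by rw [hk x hx x₀ hx₀]; ring)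
      rw [this, dot_smul_right, hmean]
      simp
    · rw [Finset.not_nonempty_iff_eq_empty] at hs
      simp [dot, hs]
  -- the non-zero modes are orthogonal to constants
  have hone : ∀ i, lam i ≠ 0 → dot s (fun _ => 1) (e i) = 0 := by
    intro i h0
    have h1 := hsym (fun _ => 1) (e i)
    have h2 : dot s (T (fun _ => 1)) (e i) = 0 := by
      unfold dot
      exact Finset.sum_eq_zero (fun x hx => by rw [hconst x hx]; simp)
    rw [h2, hTe] at h1
    rcases mul_eq_zero.1 h1.symm with h | h
    · exact absurd h h0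
    · exact h
  have hcoef : ∀ i, lam i ≠ 0 → dot s (fun x => f x - mean s f) (e i) = dot s f (e i) := by
    intro i h0
    rw [dot_sub_left]
    have : dot s (fun _ => mean s f) (e i) = mean s f * dot s (fun _ => 1) (e i) := by
      have h := dot_smul_left s (mean s f) (fun _ => 1) (e i)
      simpa using h
    rw [this, hone i h0]
    simp
  have hLHS : dot s (fun x => f x - mean s f) (fun x => f x - mean s f) =
      ∑ i, dot s (fun x => f x - mean s f) (e i) ^ 2 := by
    rw [hpar]
    exact Finset.sum_congr rfl (fun i _ => by ring)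
  have hRHS : dot s f (T f) = ∑ i, lam i * dot s f (e i) ^ 2 := by
    rw [hpar]
    refine Finset.sum_congr rfl (fun i _ => ?_)
    have : dot s (T f) (e i) = lam i * dot s f (e i) := by
      rw [hsym, hTe]
    rw [this]
    ring
  rw [hLHS, hRHS, Finset.mul_sum]
  refine Finset.sum_le_sum (fun i _ => ?_)
  rcases hdich i with h | h
  · rw [hzero i h, h]
    simp
  · have h0 : lam i ≠ 0 := by
      intro h'
      rw [h'] at h
      linarith
    rw [hcoef i h0]
    exact mul_le_mul_of_nonneg_right h (sq_nonneg _)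

end Vale.Agent.Lib.P335
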