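import Vale.Agent.Lib.P335.Cond

/-!
An abstract spectral bound on functions on a finite set: if every eigenfunction of a symmetric
operator with eigenvalue above `k` is constant, then the quadratic form is at most `k` on the
functions of mean zero.  Also the algebra which turns this bound with `k = 2` for the sum of three
conditional expectations into nonnegativity of the off-diagonal form.
-/

set_option linter.unusedSectionVars false

namespace Vale.Agent.Lib.P335

open Finset

variable {X : Type*} [DecidableEq X]

/-- Extension by zero of a function on the subtype of `s`. -/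
noncomputable def extZero (s : Finset X) (u : EuclideanSpace ℝ {x // x ∈ s}) : X → ℝ :=
  fun x => if h : x ∈ s then u ⟨x, h⟩ else 0

theorem extZero_coe (s : Finset X) (u : EuclideanSpace ℝ {x // x ∈ s}) (x : {x // x ∈ s}) :
    extZero s u x.1 = u x := by
  simp [extZero, x.2]

theorem inner_eq_dot (s : Finset X) (u v : EuclideanSpace ℝ {x // x ∈ s}) :
    inner ℝ u v = dot s (extZero s u) (extZero s v) := by
  rw [PiLp.inner_apply]
  unfold dot
  rw [← Finset.sum_coe_sort s]
  refine Finset.sum_congr rfl (fun x _ => ?_)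
  rw [extZero_coe, extZero_coe]
  simp [mul_comm]

theorem spectral_bound (s : Finset X) (T : (X → ℝ) → (X → ℝ))
    (hadd : ∀ f g, ∀ x ∈ s, T (fun y => f y + g y) x = T f x + T g x)
    (hsmul : ∀ (c : ℝ) f, ∀ x ∈ s, T (fun y => c * f y) x = c * T f x)
    (hcongr : ∀ f g, (∀ x ∈ s, f x = g x) → ∀ x ∈ s, T f x = T g x)
    (hsymm : ∀ f g, dot s (T f) g = dot s f (T g))
    (k : ℝ)
    (heig : ∀ (h : X → ℝ) (l : ℝ), k < l → (∀ x ∈ s, T h x = l * h x) →
      ∀ x ∈ s, ∀ y ∈ s, h x = h y)
    (f : X → ℝ) (hf : ∑ x ∈ s, f x = 0) : dot s f (T f) ≤ k * dot s f f := by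
  classical
  -- the operator on the Euclidean space
  let T' : EuclideanSpace ℝ {x // x ∈ s} →ₗ[ℝ] EuclideanSpace ℝ {x // x ∈ s} :=
    { toFun := fun u => WithLp.toLp 2 (fun x : {x // x ∈ s} => T (extZero s u) x.1)
      map_add' := by
        intro u v
        ext x
        have : extZero s (u + v) = fun y => extZero s u y + extZero s v y := by
          funext y
          by_cases hy : y ∈ s <;> simp [extZero, hy]
        simp only [this, PiLp.add_apply]
        exact hadd _ _ x.1 x.2
      map_smul' := by
        intro c u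
        ext x
        have : extZero s (c • u) = fun y => c * extZero s u y := by
          funext y
          by_cases hy : y ∈ s <;> simp [extZero, hy]
        simp only [this, PiLp.smul_apply, RingHom.id_apply, smul_eq_mul]
        exact hsmul _ _ x.1 x.2 }
  have hT'apply : ∀ u (x : {x // x ∈ s}), T' u x = T (extZero s u) x.1 := fun u x => rfl
  have hextT' : ∀ u, ∀ x ∈ s, extZero s (T' u) x = T (extZero s u) x := by
    intro u x hx
    simp [extZero, hx, hT'apply]
  have hdotT' : ∀ u v, dot s (extZero s (T' u)) (extZero s v) =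
      dot s (T (extZero s u)) (extZero s v) := fun u v =>
    dot_congr (hextT' u) (fun _ _ => rfl)
  have hsym : T'.IsSymmetric := by
    intro u v
    rw [inner_eq_dot, inner_eq_dot, hdotT', hsymm]
    exact dot_congr (fun _ _ => rfl) (fun x hx => (hextT' v x hx).symm)
  -- the eigenbasis
  let b := hsym.eigenvectorBasis (n := Module.finrank ℝ (EuclideanSpace ℝ {x // x ∈ s})) rfl
  let μ := hsym.eigenvalues (n := Module.finrank ℝ (EuclideanSpace ℝ {x // x ∈ s})) rfl
  have hb : ∀ i, T' (b i) = (μ i : ℝ) • b i := fun i => by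
    have h := hsym.apply_eigenvectorBasis (n := Module.finrank ℝ (EuclideanSpace ℝ {x // x ∈ s})) rfl i
    simpa only [RCLike.ofReal_real_eq_id, id] using h
  -- the vector of f
  let u : EuclideanSpace ℝ {x // x ∈ s} := WithLp.toLp 2 (fun x : {x // x ∈ s} => f x.1)
  have hextu : ∀ x ∈ s, extZero s u x = f x := by
    intro x hx
    simp [extZero, hx, u]
  have h1 : dot s f (T f) = inner ℝ u (T' u) := by
    rw [inner_eq_dot]
    refine dot_congr (fun x hx => (hextu x hx).symm) (fun x hx => ?_)
    rw [hextT' u x hx]
    exact hcongr _ _ (fun y hy => (hextu y hy).symm) x hx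
  have h2 : dot s f f = inner ℝ u u := by
    rw [inner_eq_dot]
    exact dot_congr (fun x hx => (hextu x hx).symm) (fun x hx => (hextu x hx).symm)
  rw [h1, h2, ← b.sum_inner_mul_inner u (T' u), ← b.sum_inner_mul_inner u u, Finset.mul_sum]
  refine Finset.sum_le_sum (fun i _ => ?_)
  have h3 : inner ℝ (b i) (T' u) = μ i * inner ℝ (b i) u := by
    rw [← hsym, hb i, inner_smul_left]
    simp
  rw [h3]
  by_cases hμ : μ i ≤ k
  · have : 0 ≤ inner ℝ u (b i) * inner ℝ (b i) u := by
      rw [real_inner_comm]
      exact mul_self_nonneg _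
    nlinarith
  · push Not at hμ
    -- the eigenvector is constant on s
    have hc := heig (extZero s (b i)) (μ i) hμ (fun x hx => by
      have : T' (b i) ⟨x, hx⟩ = μ i * b i ⟨x, hx⟩ := by
        rw [hb i]; simp
      rw [hT'apply] at this
      simpa [extZero, hx] using this)
    have hzero : inner ℝ (b i) u = 0 := by
      rw [inner_eq_dot]
      unfold dot
      rcases s.eq_empty_or_nonempty with hs | ⟨x₀, hx₀⟩
      · simp [hs]
      · have : ∀ x ∈ s, extZero s (b i) x * extZero s u x = extZero s (b i) x₀ * f x := by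
          intro x hx
          rw [hc x hx x₀ hx₀, hextu x hx]
        rw [Finset.sum_congr rfl this, ← Finset.mul_sum, hf, mul_zero]
    have hzero' : inner ℝ u (b i) = 0 := by rw [real_inner_comm]; exact hzero
    simp [hzero, hzero']

/-- The algebra: from the bound on the sum of three conditional expectations to nonnegativity of
the off-diagonal form, for functions of mean zero. -/
theorem offdiag_of_bound {K : Type*} [DecidableEq K] (s : Finset X) (κ : Fin 3 → X → K) (f : X → ℝ)
    (hb : dot s f (fun y => avg s (κ 0) f y + avg s (κ 1) f y + avg s (κ 2) f y) ≤ 2 * dot s f f) :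
    0 ≤ dot s (fun y => f y - avg s (κ 0) f y) (fun y => f y - avg s (κ 1) f y) +
        dot s (fun y => f y - avg s (κ 0) f y) (fun y => f y - avg s (κ 2) f y) +
        dot s (fun y => f y - avg s (κ 1) f y) (fun y => f y - avg s (κ 2) f y) := by
  set g0 := avg s (κ 0) f with hg0
  set g1 := avg s (κ 1) f with hg1
  set g2 := avg s (κ 2) f with hg2
  -- the squares of the projections
  have hsq : ∀ a : Fin 3, dot s (avg s (κ a) f) (avg s (κ a) f) = dot s f (avg s (κ a) f) := by
    intro a
    rw [dot_avg_comm]
    exact dot_congr (fun _ _ => rfl) (fun x hx => avg_avg f hx)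
  have h0 : dot s g0 g0 = dot s f g0 := hsq 0
  have h1 : dot s g1 g1 = dot s f g1 := hsq 1
  have h2 : dot s g2 g2 = dot s f g2 := hsq 2
  have hW : 0 ≤ dot s (fun y => 2 * f y - (g0 y + g1 y + g2 y))
      (fun y => 2 * f y - (g0 y + g1 y + g2 y)) := dot_self_nonneg _ _
  have e1 : dot s (fun y => 2 * f y - (g0 y + g1 y + g2 y))
      (fun y => 2 * f y - (g0 y + g1 y + g2 y)) =
      4 * dot s f f - 4 * (dot s f g0 + dot s f g1 + dot s f g2) +
        (dot s g0 g0 + dot s g1 g1 + dot s g2 g2) +
        2 * (dot s g0 g1 + dot s g0 g2 + dot s g1 g2) := by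
    simp only [dot, Finset.mul_sum, ← Finset.sum_add_distrib, ← Finset.sum_sub_distrib]
    exact Finset.sum_congr rfl (fun _ _ => by ring)
  have e2 : dot s f (fun y => g0 y + g1 y + g2 y) = dot s f g0 + dot s f g1 + dot s f g2 := by
    simp only [dot, ← Finset.sum_add_distrib]
    exact Finset.sum_congr rfl (fun _ _ => by ring)
  have e3 : ∀ a b : X → ℝ, dot s (fun y => f y - a y) (fun y => f y - b y) =
      dot s f f - dot s f a - dot s f b + dot s a b := by
    intro a b
    simp only [dot, ← Finset.sum_add_distrib, ← Finset.sum_sub_distrib]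
    exact Finset.sum_congr rfl (fun _ _ => by ring)
  rw [e3, e3, e3]
  rw [e2] at hb
  rw [e1, h0, h1, h2] at hW
  nlinarith

end Vale.Agent.Lib.P335
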