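import Mathlib

/-!
Conditional expectations on a finite set of states, as averages over the fibres of a key.
All statements are relative to a finite set `s`; the quadratic form `dot s` only sees `s`.
-/

set_option linter.unusedSectionVars false

namespace Vale.Agent.Lib.P335

open Finset

variable {X K K' : Type*} [DecidableEq X] [DecidableEq K] [DecidableEq K']

/-- The fibre of `x` in `s` under the key `κ`. -/
def fib (s : Finset X) (κ : X → K) (x : X) : Finset X := s.filter (fun y => κ y = κ x)

/-- The average of `f` over the fibre of `x`. -/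
noncomputable def avg (s : Finset X) (κ : X → K) (f : X → ℝ) (x : X) : ℝ :=
  (∑ y ∈ fib s κ x, f y) / ((fib s κ x).card : ℝ)

/-- The sum of products over `s`. -/
def dot (s : Finset X) (f g : X → ℝ) : ℝ := ∑ x ∈ s, f x * g x

theorem mem_fib {s : Finset X} {κ : X → K} {x y : X} :
    y ∈ fib s κ x ↔ y ∈ s ∧ κ y = κ x := by
  simp [fib]

theorem self_mem_fib {s : Finset X} {κ : X → K} {x : X} (hx : x ∈ s) : x ∈ fib s κ x :=
  mem_fib.2 ⟨hx, rfl⟩

theorem fib_congr {s : Finset X} {κ : X → K} {x y : X} (h : κ x = κ y) :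
    fib s κ x = fib s κ y := by
  simp [fib, h]

theorem avg_congr {s : Finset X} {κ : X → K} (f : X → ℝ) {x y : X} (h : κ x = κ y) :
    avg s κ f x = avg s κ f y := by
  simp [avg, fib_congr h]

theorem fib_card_pos {s : Finset X} {κ : X → K} {x : X} (hx : x ∈ s) :
    0 < ((fib s κ x).card : ℝ) := by
  exact_mod_cast Finset.card_pos.2 ⟨x, self_mem_fib hx⟩

/-- The average only depends on the values on the fibre. -/
theorem avg_congr_fun {s : Finset X} {κ : X → K} {f g : X → ℝ} (h : ∀ x ∈ s, f x = g x) (x : X) :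
    avg s κ f x = avg s κ g x := by
  unfold avg
  congr 1
  exact Finset.sum_congr rfl (fun y hy => h y (mem_fib.1 hy).1)

theorem avg_const (s : Finset X) (κ : X → K) (c : ℝ) {x : X} (hx : x ∈ s) :
    avg s κ (fun _ => c) x = c := by
  have := fib_card_pos (κ := κ) hx
  simp only [avg, sum_const, nsmul_eq_mul]
  field_simp

/-- The sum of the average over a fibre equals the sum of the function. -/
theorem sum_fib_avg {s : Finset X} {κ : X → K} (f : X → ℝ) {x : X} (hx : x ∈ s) :
    ∑ y ∈ fib s κ x, avg s κ f y = ∑ y ∈ fib s κ x, f y := by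
  have h : ∀ y ∈ fib s κ x, avg s κ f y = avg s κ f x := fun y hy =>
    avg_congr f (mem_fib.1 hy).2
  rw [Finset.sum_congr rfl h, sum_const, nsmul_eq_mul]
  have := fib_card_pos (κ := κ) hx
  simp only [avg]
  field_simp

/-- A function constant on fibres is its own average. -/
theorem avg_eq_self {s : Finset X} {κ : X → K} {g : X → ℝ}
    (hg : ∀ x ∈ s, ∀ y ∈ s, κ x = κ y → g x = g y) {x : X} (hx : x ∈ s) :
    avg s κ g x = g x := by
  have h : ∀ y ∈ fib s κ x, g y = g x := fun y hy =>
    hg y (mem_fib.1 hy).1 x hx (mem_fib.1 hy).2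
  have := fib_card_pos (κ := κ) hx
  simp only [avg]
  rw [Finset.sum_congr rfl h, sum_const, nsmul_eq_mul]
  field_simp

/-- Idempotence of the average. -/
theorem avg_avg {s : Finset X} {κ : X → K} (f : X → ℝ) {x : X} (hx : x ∈ s) :
    avg s κ (avg s κ f) x = avg s κ f x :=
  avg_eq_self (fun _ _ _ _ h => avg_congr f h) hx

/-- Pull a fibre-constant factor through the average. -/
theorem avg_mul_left {s : Finset X} {κ : X → K} {g : X → ℝ}
    (hg : ∀ x ∈ s, ∀ y ∈ s, κ x = κ y → g x = g y) (f : X → ℝ) {x : X} (hx : x ∈ s) :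
    avg s κ (fun y => g y * f y) x = g x * avg s κ f x := by
  have h : ∀ y ∈ fib s κ x, g y * f y = g x * f y := fun y hy => by
    rw [hg y (mem_fib.1 hy).1 x hx (mem_fib.1 hy).2]
  simp only [avg]
  rw [Finset.sum_congr rfl h, ← Finset.mul_sum, mul_div_assoc]

theorem dot_comm (s : Finset X) (f g : X → ℝ) : dot s f g = dot s g f := by
  simp [dot, mul_comm]

theorem dot_add_left (s : Finset X) (f g h : X → ℝ) :
    dot s (fun x => f x + g x) h = dot s f h + dot s g h := by
  simp [dot, add_mul, sum_add_distrib]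

theorem dot_sub_left (s : Finset X) (f g h : X → ℝ) :
    dot s (fun x => f x - g x) h = dot s f h - dot s g h := by
  simp [dot, sub_mul, sum_sub_distrib]

theorem dot_add_right (s : Finset X) (f g h : X → ℝ) :
    dot s h (fun x => f x + g x) = dot s h f + dot s h g := by
  simp [dot, mul_add, sum_add_distrib]

theorem dot_sub_right (s : Finset X) (f g h : X → ℝ) :
    dot s h (fun x => f x - g x) = dot s h f - dot s h g := by
  simp [dot, mul_sub, sum_sub_distrib]

theorem dot_smul_left (s : Finset X) (c : ℝ) (f h : X → ℝ) :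
    dot s (fun x => c * f x) h = c * dot s f h := by
  simp [dot, mul_sum, mul_assoc]

theorem dot_smul_right (s : Finset X) (c : ℝ) (f h : X → ℝ) :
    dot s h (fun x => c * f x) = c * dot s h f := by
  simp only [dot, mul_sum]
  exact Finset.sum_congr rfl (fun _ _ => by ring)

theorem dot_self_nonneg (s : Finset X) (f : X → ℝ) : 0 ≤ dot s f f :=
  Finset.sum_nonneg (fun _ _ => mul_self_nonneg _)

theorem dot_congr {s : Finset X} {f f' g g' : X → ℝ} (hf : ∀ x ∈ s, f x = f' x)
    (hg : ∀ x ∈ s, g x = g' x) : dot s f g = dot s f' g' :=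
  Finset.sum_congr rfl (fun x hx => by rw [hf x hx, hg x hx])

/-- The fibrewise expression of the form against an average. -/
theorem dot_avg_eq (s : Finset X) (κ : X → K) (f g : X → ℝ) :
    dot s (avg s κ f) g = ∑ x ∈ s, ∑ y ∈ s,
      (if κ x = κ y then f y * g x / ((fib s κ x).card : ℝ) else 0) := by
  unfold dot avg
  refine Finset.sum_congr rfl (fun x _ => ?_)
  have : fib s κ x = s.filter (fun y => κ x = κ y) := by
    ext y; simp [fib, eq_comm]
  rw [this, Finset.sum_filter, div_mul_eq_mul_div, Finset.sum_mul, Finset.sum_div]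
  refine Finset.sum_congr rfl (fun y _ => ?_)
  split_ifs <;> simp

/-- Symmetry of the conditional expectation. -/
theorem dot_avg_comm (s : Finset X) (κ : X → K) (f g : X → ℝ) :
    dot s (avg s κ f) g = dot s f (avg s κ g) := by
  rw [dot_comm s f, dot_avg_eq, dot_avg_eq, Finset.sum_comm]
  refine Finset.sum_congr rfl (fun x hx => Finset.sum_congr rfl (fun y hy => ?_))
  by_cases h : κ x = κ y
  · rw [if_pos h, if_pos h.symm, fib_congr h]; ring
  · rw [if_neg h, if_neg (fun h' => h h'.symm)]

/-- Refinement: a coarser average of a finer average. -/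
theorem avg_avg_of_refines {s : Finset X} {κ₁ : X → K} {κ₂ : X → K'}
    (h : ∀ x ∈ s, ∀ y ∈ s, κ₁ x = κ₁ y → κ₂ x = κ₂ y) (f : X → ℝ) {x : X} (hx : x ∈ s) :
    avg s κ₂ (avg s κ₁ f) x = avg s κ₂ f x := by
  unfold avg at *
  congr 1
  -- split the coarse fibre into fine fibres
  have hsub : ∀ y ∈ fib s κ₂ x, fib s κ₁ y ⊆ fib s κ₂ x := by
    intro y hy z hz
    rw [mem_fib] at *
    exact ⟨hz.1, (h z hz.1 y hy.1 hz.2).trans hy.2⟩
  -- sum over the coarse fibre of fine averages equals the sum of f
  have key : ∀ (t : Finset X), t ⊆ fib s κ₂ x →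
      (∀ y ∈ t, ∀ z ∈ fib s κ₁ y, z ∈ t) →
      ∑ y ∈ t, avg s κ₁ f y = ∑ y ∈ t, f y := by
    intro t ht hcl
    classical
    have himg : ∀ y ∈ t, κ₁ y ∈ t.image κ₁ := fun y hy => mem_image_of_mem _ hy
    rw [← Finset.sum_fiberwise_of_maps_to himg, ← Finset.sum_fiberwise_of_maps_to himg (f := f)]
    refine Finset.sum_congr rfl (fun k hk => ?_)
    obtain ⟨y₀, hy₀, rfl⟩ := mem_image.1 hk
    have hy₀s : y₀ ∈ s := (mem_fib.1 (ht hy₀)).1
    have hEq : t.filter (fun y => κ₁ y = κ₁ y₀) = fib s κ₁ y₀ := by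
      ext z
      simp only [mem_filter, mem_fib]
      constructor
      · rintro ⟨hz, hk⟩
        exact ⟨(mem_fib.1 (ht hz)).1, hk⟩
      · rintro ⟨hz, hk⟩
        exact ⟨hcl y₀ hy₀ z (mem_fib.2 ⟨hz, hk⟩), hk⟩
    rw [hEq]
    exact sum_fib_avg f hy₀s
  have := key (fib s κ₂ x) (Finset.Subset.refl _) (fun y hy z hz => hsub y hy hz)
  simpa [avg] using this

/-- Refinement: a finer average of a coarser average. -/
theorem avg_avg_of_refines' {s : Finset X} {κ₁ : X → K} {κ₂ : X → K'}
    (h : ∀ x ∈ s, ∀ y ∈ s, κ₁ x = κ₁ y → κ₂ x = κ₂ y) (f : X → ℝ) {x : X} (hx : x ∈ s) :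
    avg s κ₁ (avg s κ₂ f) x = avg s κ₂ f x :=
  avg_eq_self (κ := κ₁) (fun a ha b hb hab => avg_congr f (h a ha b hb hab)) hx

/-- Restriction of an average to a block which contains the fibre. -/
theorem avg_filter_block {s : Finset X} {κ : X → K} {β : X → K'}
    (h : ∀ x ∈ s, ∀ y ∈ s, κ x = κ y → β x = β y) (f : X → ℝ) {x : X} (hx : x ∈ s) :
    avg (s.filter (fun y => β y = β x)) κ f x = avg s κ f x := by
  have : fib (s.filter (fun y => β y = β x)) κ x = fib s κ x := by
    ext z
    simp only [mem_fib, mem_filter]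
    constructor
    · rintro ⟨⟨hz, _⟩, hk⟩
      exact ⟨hz, hk⟩
    · rintro ⟨hz, hk⟩
      exact ⟨⟨hz, h z hz x hx hk⟩, hk⟩
  simp [avg, this]

/-- Splitting the form along a block decomposition. -/
theorem dot_fiberwise (s : Finset X) (β : X → K') (f g : X → ℝ) :
    dot s f g = ∑ b ∈ s.image β, dot (s.filter (fun y => β y = b)) f g := by
  unfold dot
  rw [Finset.sum_fiberwise_of_maps_to (fun y hy => mem_image_of_mem β hy)]

/-- The average with respect to the trivial key is the mean. -/
noncomputable def mean (s : Finset X) (f : X → ℝ) : ℝ := (∑ x ∈ s, f x) / (s.card : ℝ)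

theorem avg_unit (s : Finset X) (f : X → ℝ) (x : X) : avg s (fun _ => ()) f x = mean s f := by
  simp [avg, mean, fib]

/-- Nondegeneracy of the form on `s`. -/
theorem eq_of_dot_eq {s : Finset X} {f g : X → ℝ} (h : ∀ a : X → ℝ, dot s f a = dot s g a) :
    ∀ x ∈ s, f x = g x := by
  intro x hx
  have := h (fun y => if y = x then 1 else 0)
  simp only [dot, mul_ite, mul_one, mul_zero, Finset.sum_ite_eq', hx, if_true] at this
  exact this

end Vale.Agent.Lib.P335
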