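import Vale.Agent.Lib.P335.Defs
import Vale.Agent.Lib.P335.Cond

/-!
Objects used inside the proof: rectangles, their switches and their energies.
-/

namespace Vale.Agent.Lib.P335

open Finset

/-- The switchable test for the rectangle with rows `u, v` and columns `w, z`: the four cross pairs
carry one of the two alternating patterns. -/
def switchable {n : ℕ} (u v w z : Fin n) (x : Gr n) : Bool :=
  (x s(u, w) && x s(v, z) && !x s(u, z) && !x s(v, w)) ||
  (!x s(u, w) && !x s(v, z) && x s(u, z) && x s(v, w))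

/-- The switch on the rectangle: flip the four cross pairs if switchable, otherwise stay. -/
def flip4 {n : ℕ} (u v w z : Fin n) (x : Gr n) : Gr n :=
  if switchable u v w z x = true then
    fun e => if e = s(u, w) ∨ e = s(u, z) ∨ e = s(v, w) ∨ e = s(v, z) then !x e else x e
  else x

/-- The energy of `f` on the switches of one rectangle. -/
noncomputable def rectEnergy {n : ℕ} (d : Fin n → ℕ) (f : Gr n → ℝ) (u v w z : Fin n) : ℝ :=
  ∑ x ∈ Om d, (f x - f (flip4 u v w z x)) ^ 2

/-- Quadruples of distinct vertices. -/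
def quads (n : ℕ) : Finset (Fin n × Fin n × Fin n × Fin n) :=
  univ.filter fun q => q.1 ≠ q.2.1 ∧ q.1 ≠ q.2.2.1 ∧ q.1 ≠ q.2.2.2 ∧
    q.2.1 ≠ q.2.2.1 ∧ q.2.1 ≠ q.2.2.2 ∧ q.2.2.1 ≠ q.2.2.2

end Vale.Agent.Lib.P335
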