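import Vale.Agent.Lib.P335.Mixing

/-!
Connectivity of the switch graph: any function invariant under all rectangle switches is constant
on the state space.
-/

set_option linter.unusedSimpArgs false

namespace Vale.Agent.Lib.P335

open Finset

variable {n : ℕ} {d : Fin n → ℕ}

/-- Two graphs agree on all pairs touching `A`. -/
def Agree (A : Finset (Fin n)) (x y : Gr n) : Prop := ∀ a ∈ A, ∀ t, x s(a, t) = y s(a, t)

theorem Agree.symm {A : Finset (Fin n)} {x y : Gr n} (h : Agree A x y) : Agree A y x :=
  fun a ha t => (h a ha t).symm

/-- The positions in row `u` where the two graphs differ. -/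
def rowDiff (x y : Gr n) (u : Fin n) : Finset (Fin n) :=
  univ.filter fun t => x s(u, t) ≠ y s(u, t)

theorem rowDiff_comm (x y : Gr n) (u : Fin n) : rowDiff x y u = rowDiff y x u := by
  ext t
  simp [rowDiff, ne_comm]

/-- The degree outside `A`. -/
def outDeg (A : Finset (Fin n)) (x : Gr n) (p : Fin n) : ℕ :=
  (univ.filter fun t => t ∉ A ∧ t ≠ p ∧ x s(p, t) = true).card

theorem outDeg_eq {A : Finset (Fin n)} {x y : Gr n} (hx : x ∈ Om d) (hy : y ∈ Om d)
    (h : Agree A x y) (p : Fin n) : outDeg A x p = outDeg A y p := by
  have hxd := ((Finset.mem_filter.1 hx).2.2 p)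
  have hyd := ((Finset.mem_filter.1 hy).2.2 p)
  have split : ∀ z : Gr n, deg z p =
      outDeg A z p + (univ.filter fun t => t ∈ A ∧ t ≠ p ∧ z s(p, t) = true).card := by
    intro z
    unfold deg outDeg
    rw [← Finset.card_union_of_disjoint]
    · congr 1
      ext t
      simp only [Finset.mem_filter, Finset.mem_univ, true_and, Finset.mem_union]
      by_cases hA : t ∈ A <;> simp [hA]
    · rw [Finset.disjoint_left]
      intro t h1 h2
      exact (Finset.mem_filter.1 h1).2.1 (Finset.mem_filter.1 h2).2.1
  have hA : (univ.filter fun t => t ∈ A ∧ t ≠ p ∧ x s(p, t) = true) =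
      (univ.filter fun t => t ∈ A ∧ t ≠ p ∧ y s(p, t) = true) := by
    ext t
    simp only [Finset.mem_filter, Finset.mem_univ, true_and]
    constructor
    · rintro ⟨h1, h2, h3⟩
      refine ⟨h1, h2, ?_⟩
      rw [Sym2.eq_swap, ← h t h1 p, Sym2.eq_swap]
      exact h3
    · rintro ⟨h1, h2, h3⟩
      refine ⟨h1, h2, ?_⟩
      rw [Sym2.eq_swap, h t h1 p, Sym2.eq_swap]
      exact h3
  have h1 := split x
  have h2 := split y
  rw [hA] at h1
  omega

/-- Existence of the fourth vertex of the switch. -/
theorem exists_fourth {A : Finset (Fin n)} {x : Gr n} {u v w : Fin n} (hu : u ∉ A) (hv : v ∉ A)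
    (hw : w ∉ A) (huv : u ≠ v) (huw : u ≠ w) (hvw : v ≠ w) (h1 : x s(u, v) = true)
    (h2 : x s(u, w) = false) (hD : outDeg A x v ≤ outDeg A x w) :
    ∃ t, t ∉ A ∧ t ≠ u ∧ t ≠ v ∧ t ≠ w ∧ x s(t, w) = true ∧ x s(t, v) = false := by
  by_contra hno
  push Not at hno
  have hlt : outDeg A x w < outDeg A x v := by
    unfold outDeg
    have hmem : u ∈ (univ.filter fun t => t ∉ A ∧ t ≠ v ∧ x s(v, t) = true) := by
      simp only [Finset.mem_filter, Finset.mem_univ, true_and]
      refine ⟨hu, huv, ?_⟩
      rw [Sym2.eq_swap]
      exact h1
    have hle : (univ.filter fun t => t ∉ A ∧ t ≠ w ∧ x s(w, t) = true).card ≤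
        ((univ.filter fun t => t ∉ A ∧ t ≠ v ∧ x s(v, t) = true).erase u).card := by
      refine Finset.card_le_card_of_injOn (fun t => if t = v then w else t) ?_ ?_
      · intro t ht
        have ht' := Finset.mem_filter.1 (Finset.mem_coe.1 ht)
        obtain ⟨-, h3, h4, h5⟩ := ht'
        have htu : t ≠ u := by
          rintro rfl
          rw [Sym2.eq_swap, h2] at h5
          exact absurd h5 (by simp)
        by_cases htv : t = v
        · subst htv
          simp only [if_true, Finset.coe_erase, Set.mem_sdiff, Finset.mem_coe, Finset.mem_filter,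
            Finset.mem_univ, true_and, Set.mem_singleton_iff]
          refine ⟨⟨hw, hvw.symm, ?_⟩, huw.symm⟩
          rw [Sym2.eq_swap]
          exact h5
        · simp only [htv, if_false, Finset.coe_erase, Set.mem_sdiff, Finset.mem_coe, Finset.mem_filter,
            Finset.mem_univ, true_and, Set.mem_singleton_iff]
          refine ⟨⟨h3, htv, ?_⟩, htu⟩
          have := hno t h3 htu htv h4 (by rw [Sym2.eq_swap]; exact h5)
          rw [Sym2.eq_swap]
          simpa using this
      · intro a ha b hb hab
        have ha' := (Finset.mem_filter.1 (Finset.mem_coe.1 ha)).2.2.1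
        have hb' := (Finset.mem_filter.1 (Finset.mem_coe.1 hb)).2.2.1
        simp only at hab
        by_cases h3 : a = v <;> by_cases h4 : b = v
        · rw [h3, h4]
        · simp only [h3, h4, if_true, if_false] at hab
          exact absurd hab.symm hb'
        · simp only [h3, h4, if_true, if_false] at hab
          exact absurd hab ha'
        · simpa [h3, h4] using hab
    rw [Finset.card_erase_of_mem hmem] at hle
    have : 0 < (univ.filter fun t => t ∉ A ∧ t ≠ v ∧ x s(v, t) = true).card :=
      Finset.card_pos.2 ⟨u, hmem⟩
    omega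
  omega

/-- The flip on a switchable rectangle is a proposal of the chain. -/
theorem flip4_eq_step {u t v w : Fin n} {x : Gr n} (huv : u ≠ v) (huw : u ≠ w)
    (htv : t ≠ v) (htw : t ≠ w) (hut : u ≠ t) (hvw : v ≠ w)
    (a1 : x s(u, v) = true) (a2 : x s(t, w) = true) (a3 : x s(u, w) = false)
    (a4 : x s(t, v) = false) :
    flip4 u t v w x = step {s(u, v), s(t, w)} {s(u, w), s(t, v)} x := by
  have hsw : switchable u t v w x = true := by simp [switchable, a1, a2, a3, a4]
  have hc1 : (∀ e ∈ ({s(u, v), s(t, w)} : Finset (Sym2 (Fin n))), x e = true) ∧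
      (∀ e ∈ ({s(u, w), s(t, v)} : Finset (Sym2 (Fin n))), x e = false) := by
    simp [a1, a2, a3, a4]
  unfold flip4 step
  rw [if_pos hsw, if_pos hc1]
  funext e
  by_cases he1 : e = s(u, v)
  · subst he1; simp [a1]
  by_cases he2 : e = s(t, w)
  · subst he2; simp [a2]
  by_cases he3 : e = s(u, w)
  · subst he3; simp [a3, Sym2.eq_iff, huv, hvw, hut, huw, htw, htv, huv.symm, huw.symm, hut.symm,
      hvw.symm, htv.symm, htw.symm]
  by_cases he4 : e = s(t, v)
  · subst he4; simp [a4, Sym2.eq_iff, huv, hvw, hut, huw, htw, htv, huv.symm, huw.symm, hut.symm,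
      hvw.symm, htv.symm, htw.symm]
  · simp [he1, he2, he3, he4]

/-- One switch brings the rows closer. -/
theorem reduce_step {A : Finset (Fin n)} {x y : Gr n} {u v w : Fin n} (f : Gr n → ℝ)
    (hf : ∀ q ∈ quads n, ∀ x ∈ Om d, f (flip4 q.1 q.2.1 q.2.2.1 q.2.2.2 x) = f x)
    (hx : x ∈ Om d) (hu : u ∉ A) (h : Agree A x y)
    (huv : u ≠ v) (huw : u ≠ w) (hvw : v ≠ w)
    (h1 : x s(u, v) = true) (h2 : y s(u, v) = false) (h3 : y s(u, w) = true)
    (h4 : x s(u, w) = false) (hD : outDeg A x v ≤ outDeg A x w) :
    ∃ x' ∈ Om d, f x' = f x ∧ Agree A x' y ∧ (rowDiff x' y u).card < (rowDiff x y u).card := by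
  have hv : v ∉ A := by
    intro hv
    have := h v hv u
    have e1 : s(v, u) = s(u, v) := Sym2.eq_swap
    rw [e1, h1, h2] at this
    exact absurd this (by simp)
  have hw : w ∉ A := by
    intro hw
    have := h w hw u
    have e1 : s(w, u) = s(u, w) := Sym2.eq_swap
    rw [e1, h4, h3] at this
    exact absurd this (by simp)
  obtain ⟨t, htA, htu, htv, htw, a2, a4⟩ := exists_fourth hu hv hw huv huw hvw h1 h4 hD
  have hq : (u, t, v, w) ∈ quads n := by
    rw [mem_quads]
    exact ⟨htu.symm, huv, huw, htv, htw, hvw⟩
  have hstep := flip4_eq_step huv huw htv htw htu.symm hvw h1 a2 h4 a4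
  have hfacts := quad_facts hq
  have hmem : flip4 u t v w x ∈ Om d := by
    rw [hstep]
    exact step_mem_Om (card_of_mem_powerset hfacts.1) hfacts.2.1 hfacts.2.2.1 hfacts.2.2.2 hx
  have hsw : switchable u t v w x = true := by simp [switchable, h1, a2, h4, a4]
  have hval : ∀ e, e ≠ s(u, v) → e ≠ s(u, w) → e ≠ s(t, v) → e ≠ s(t, w) →
      flip4 u t v w x e = x e := by
    intro e e1 e2 e3 e4
    unfold flip4
    rw [if_pos hsw]
    simp [e1, e2, e3, e4]
  refine ⟨flip4 u t v w x, hmem, hf _ hq x hx, ?_, ?_⟩
  · intro a ha c
    rw [hval]
    · exact h a ha c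
    all_goals
      intro he
      simp only [Sym2.eq_iff] at he
      rcases he with ⟨rfl, _⟩ | ⟨rfl, _⟩ <;> simp_all
  · apply Finset.card_lt_card
    rw [Finset.ssubset_iff_of_subset]
    · refine ⟨v, ?_, ?_⟩
      · simp [rowDiff, h1, h2]
      · simp only [rowDiff, Finset.mem_filter, Finset.mem_univ, true_and, not_not]
        rw [h2]
        unfold flip4
        rw [if_pos hsw]
        simp [h1]
    · intro c hc
      simp only [rowDiff, Finset.mem_filter, Finset.mem_univ, true_and] at hc ⊢
      by_cases hcv : c = v
      · subst hcv
        simp [h1, h2]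
      by_cases hcw : c = w
      · subst hcw
        simp [h3, h4]
      rw [hval] at hc
      · exact hc
      all_goals
        intro he
        simp only [Sym2.eq_iff] at he
        rcases he with ⟨h5, h6⟩ | ⟨h5, h6⟩ <;> simp_all

/-- Any function invariant under the rectangle switches is constant on the state space. -/
theorem switch_connected (d : Fin n → ℕ) (f : Gr n → ℝ)
    (hf : ∀ q ∈ quads n, ∀ x ∈ Om d, f (flip4 q.1 q.2.1 q.2.2.1 q.2.2.2 x) = f x) :
    ∀ x ∈ Om d, ∀ y ∈ Om d, f x = f y := by
  have main : ∀ k : ℕ, ∀ A : Finset (Fin n), (univ \ A).card = k → ∀ x ∈ Om d, ∀ y ∈ Om d,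
      Agree A x y → f x = f y := by
    intro k
    induction k with
    | zero =>
      intro A hA x _ y _ h
      have hA' : A = univ := by
        have : univ \ A = ∅ := Finset.card_eq_zero.1 hA
        exact Finset.sdiff_eq_empty_iff_subset.1 this |> fun hs =>
          Finset.eq_univ_of_forall fun a => hs (Finset.mem_univ a)
      have : x = y := by
        funext e
        induction e using Sym2.ind with
        | _ a b => exact h a (by simp [hA']) b
      rw [this]
    | succ k ih =>
      intro A hA
      have hne : (univ \ A).Nonempty := by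
        rw [← Finset.card_pos, hA]
        omega
      obtain ⟨u, hu⟩ := hne
      have huA : u ∉ A := (Finset.mem_sdiff.1 hu).2
      have hcard : (univ \ insert u A).card = k := by
        have : univ \ insert u A = (univ \ A).erase u := by
          ext t
          simp only [Finset.mem_sdiff, Finset.mem_univ, true_and, Finset.mem_insert, not_or,
            Finset.mem_erase]
        rw [this, Finset.card_erase_of_mem hu, hA]
        omega
      have inner : ∀ m : ℕ, ∀ x ∈ Om d, ∀ y ∈ Om d, Agree A x y → (rowDiff x y u).card = m →
          f x = f y := by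
        intro m
        induction m using Nat.strong_induction_on with
        | _ m IH =>
          intro x hx y hy h hm
          by_cases hm0 : (rowDiff x y u).card = 0
          · -- the row agrees
            apply ih (insert u A) hcard x hx y hy
            intro a ha c
            rw [Finset.mem_insert] at ha
            rcases ha with rfl | ha
            · by_contra hc
              have : c ∈ rowDiff x y a := by simp [rowDiff, hc]
              rw [Finset.card_eq_zero] at hm0
              rw [hm0] at this
              simp at this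
            · exact h a ha c
          · -- find a switch
            have hxO := Finset.mem_filter.1 hx
            have hyO := Finset.mem_filter.1 hy
            have hN : (univ.filter fun b => b ≠ u ∧ x s(u, b) = true).card =
                (univ.filter fun b => b ≠ u ∧ y s(u, b) = true).card := by
              have e1 := hxO.2.2 u
              have e2 := hyO.2.2 u
              unfold deg at e1 e2
              rw [e1, e2]
            have hneq : (univ.filter fun b => b ≠ u ∧ x s(u, b) = true) ≠
                (univ.filter fun b => b ≠ u ∧ y s(u, b) = true) := by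
              intro heq
              apply hm0
              rw [Finset.card_eq_zero, Finset.eq_empty_iff_forall_notMem]
              intro c hc
              simp only [rowDiff, Finset.mem_filter, Finset.mem_univ, true_and] at hc
              apply hc
              by_cases hcu : c = u
              · subst hcu
                rw [hxO.2.1 c, hyO.2.1 c]
              · have := Finset.ext_iff.1 heq c
                simp only [Finset.mem_filter, Finset.mem_univ, true_and, hcu, ne_eq, not_false_eq_true,
                  true_and] at this
                cases hx1 : x s(u, c) <;> cases hy1 : y s(u, c) <;> simp_all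
            have hnotsub1 : ¬ (univ.filter fun b => b ≠ u ∧ x s(u, b) = true) ⊆
                (univ.filter fun b => b ≠ u ∧ y s(u, b) = true) := fun hs =>
              hneq (Finset.eq_of_subset_of_card_le hs hN.ge)
            have hnotsub2 : ¬ (univ.filter fun b => b ≠ u ∧ y s(u, b) = true) ⊆
                (univ.filter fun b => b ≠ u ∧ x s(u, b) = true) := fun hs =>
              hneq (Finset.eq_of_subset_of_card_le hs hN.le).symm
            obtain ⟨v, hv1, hv2⟩ := Finset.not_subset.1 hnotsub1
            obtain ⟨w, hw1, hw2⟩ := Finset.not_subset.1 hnotsub2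
            simp only [Finset.mem_filter, Finset.mem_univ, true_and, not_and] at hv1 hv2 hw1 hw2
            have hvy : y s(u, v) = false := by simpa using hv2 hv1.1
            have hwx : x s(u, w) = false := by simpa using hw2 hw1.1
            have hvw : v ≠ w := by
              rintro rfl
              rw [hv1.2] at hwx
              exact absurd hwx (by simp)
            by_cases hD : outDeg A x v ≤ outDeg A x w
            · obtain ⟨x', hx', hfx, hag, hlt⟩ := reduce_step (d := d) f hf hx huA h hv1.1.symm hw1.1.symm
                hvw hv1.2 hvy hw1.2 hwx hD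
              rw [← hfx]
              exact IH _ (by omega) x' hx' y hy hag rfl
            · have hD' : outDeg A y w ≤ outDeg A y v := by
                rw [← outDeg_eq hx hy h, ← outDeg_eq hx hy h]
                omega
              obtain ⟨y', hy', hfy, hag, hlt⟩ := reduce_step (d := d) f hf hy huA h.symm hw1.1.symm hv1.1.symm
                hvw.symm hw1.2 hwx hv1.2 hvy hD'
              rw [← hfy]
              refine IH _ ?_ x hx y' hy' hag.symm rfl
              rw [rowDiff_comm x y', ← hm, rowDiff_comm x y]
              exact hlt
      intro x hx y hy h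
      exact inner _ x hx y hy h rfl
  intro x hx y hy
  refine main _ ∅ rfl x hx y hy ?_
  intro a ha
  simp at ha

end Vale.Agent.Lib.P335
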