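import Mathlib

/-!
The switch chain on labeled simple graphs with a given degree sequence.
A labeled graph on `Fin n` is encoded by the Boolean indicator of its edge set on unordered pairs.
-/

namespace Vale.Agent.Lib.P335

open Finset

/-- A graph on `Fin n` as the indicator of its edges, a function on unordered pairs. -/
abbrev Gr (n : ℕ) := Sym2 (Fin n) → Bool

/-- The degree of the vertex `a`: the number of `b ≠ a` with `{a, b}` an edge. -/
def deg {n : ℕ} (x : Gr n) (a : Fin n) : ℕ :=
  (univ.filter fun b => b ≠ a ∧ x s(a, b) = true).card

/-- The set of labeled simple graphs (no loops) with degree `d i` at each vertex `i`. -/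
def Om {n : ℕ} (d : Fin n → ℕ) : Finset (Gr n) :=
  univ.filter fun x => (∀ a, x s(a, a) = false) ∧ ∀ a, deg x a = d a

/-- The perfect matchings of the complete graph on a set `S` of four vertices:
two pairs of distinct elements of `S` covering `S`. -/
def matchings {n : ℕ} (S : Finset (Fin n)) : Finset (Finset (Sym2 (Fin n))) :=
  ((S.sym2.filter fun e => ¬ e.IsDiag).powersetCard 2).filter fun F => ∀ a ∈ S, ∃ e ∈ F, a ∈ e

/-- The effect of the proposal `(F, F')`: if all edges of `F` are present and all edges of `F'` are
absent, replace `F` by `F'`; otherwise stay put. -/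
def step {n : ℕ} (F F' : Finset (Sym2 (Fin n))) (x : Gr n) : Gr n :=
  if (∀ e ∈ F, x e = true) ∧ (∀ e ∈ F', x e = false) then
    fun e => if e ∈ F then false else if e ∈ F' then true else x e
  else x

/-- The transition matrix of the switch chain: with probability `1/2` stay put; otherwise choose a
four-element set `S` uniformly, then uniformly one of the six ordered pairs of distinct perfect
matchings of `S`, and apply `step`. -/
noncomputable def switchKernel (n : ℕ) : Matrix (Gr n) (Gr n) ℝ := fun x y =>
  (1 / 2) * (if x = y then 1 else 0) +
    (1 / 2) * ∑ S ∈ powersetCard 4 (univ : Finset (Fin n)), (1 / (n.choose 4 : ℝ)) *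
      ∑ p ∈ (matchings S).offDiag, (1 / 6) * (if step p.1 p.2 x = y then 1 else 0)

/-- Total variation distance between `μ` and the uniform distribution on `Om d`. -/
noncomputable def tvToUniform {n : ℕ} (d : Fin n → ℕ) (μ : Gr n → ℝ) : ℝ :=
  (1 / 2) * ∑ y ∈ Om d, |μ y - 1 / ((Om d).card : ℝ)|

/-- The mixing time: the least `t` such that from every start the law at time `t` is within `1/4`
of uniform in total variation. -/
noncomputable def tmix {n : ℕ} (d : Fin n → ℕ) : ℕ :=
  sInf {t : ℕ | ∀ x ∈ Om d, tvToUniform d ((switchKernel n ^ t) x) ≤ 1 / 4}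

end Vale.Agent.Lib.P335
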