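import Vale.Agent.Lib.P335.RectBound

/-!
The fibres of a pair of rows are Johnson schemes: transport of the Johnson inequalities.
-/

set_option linter.unusedSectionVars false

namespace Vale.Agent.Lib.P335

open Finset

variable {n : ℕ}

section General

variable {X Y K K' : Type*} [DecidableEq X] [DecidableEq Y] [DecidableEq K] [DecidableEq K']

/-- Transport of an average along an injective parametrisation. -/
theorem avg_image (t : Finset Y) (g : Y → X) (hg : Set.InjOn g t) (κ : X → K) (f : X → ℝ) {y : Y}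
    (hy : y ∈ t) : avg (t.image g) κ f (g y) = avg t (κ ∘ g) (f ∘ g) y := by
  have hfib : fib (t.image g) κ (g y) = (fib t (κ ∘ g) y).image g := by
    ext a
    simp only [mem_fib, mem_image, Function.comp]
    constructor
    · rintro ⟨⟨y', hy', rfl⟩, hk⟩
      exact ⟨y', ⟨hy', hk⟩, rfl⟩
    · rintro ⟨y', ⟨hy', hk⟩, rfl⟩
      exact ⟨⟨y', hy', rfl⟩, hk⟩
  have hinj : Set.InjOn g (fib t (κ ∘ g) y) := fun a ha b hb h =>
    hg (mem_fib.1 ha).1 (mem_fib.1 hb).1 h
  simp only [avg]
  rw [hfib, Finset.sum_image hinj, Finset.card_image_of_injOn hinj]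
  rfl

/-- Two keys with the same fibres have the same average. -/
theorem avg_key_congr {s : Finset X} {κ₁ : X → K} {κ₂ : X → K'}
    (h : ∀ a ∈ s, ∀ b ∈ s, κ₁ a = κ₁ b ↔ κ₂ a = κ₂ b) (f : X → ℝ) {x : X} (hx : x ∈ s) :
    avg s κ₁ f x = avg s κ₂ f x := by
  have : fib s κ₁ x = fib s κ₂ x := by
    ext a
    simp only [mem_fib]
    constructor
    · rintro ⟨ha, hk⟩
      exact ⟨ha, (h a ha x hx).1 hk⟩
    · rintro ⟨ha, hk⟩
      exact ⟨ha, (h a ha x hx).2 hk⟩
  simp [avg, this]

end General

/-- The free columns of the pair `u, v` in `x`. -/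
def freeSet (u v : Fin n) (x : Gr n) : Finset (Fin n) :=
  univ.filter fun c => c ≠ u ∧ c ≠ v ∧ x s(u, c) ≠ x s(v, c)

/-- The row of `u` within the set `F`. -/
def rowOf (u : Fin n) (F : Finset (Fin n)) (x : Gr n) : Finset (Fin n) :=
  F.filter fun c => x s(u, c) = true

/-- The graph which agrees with `x₀` except that on `F` the row of `u` is `R` and that of `v` is
the complement of `R`. -/
def asm (u v : Fin n) (x₀ : Gr n) (F R : Finset (Fin n)) : Gr n := fun e =>
  if e ∈ F.image (fun c => s(u, c)) then decide (e ∈ R.image (fun c => s(u, c)))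
  else if e ∈ F.image (fun c => s(v, c)) then !decide (e ∈ R.image (fun c => s(v, c)))
  else x₀ e

theorem sym2_left_inj {a c c' : Fin n} (h : s(a, c) = s(a, c')) : c = c' := by
  rw [Sym2.eq_iff] at h
  rcases h with ⟨_, h⟩ | ⟨h1, h2⟩
  · exact h
  · rw [← h1, h2]

section Fibre

variable {u v : Fin n} (huv : u ≠ v) {x₀ : Gr n} {F : Finset (Fin n)}
  (hFu : u ∉ F) (hFv : v ∉ F)

include huv hFu hFv

theorem asm_u {R : Finset (Fin n)} {c : Fin n} (hc : c ∈ F) :
    asm u v x₀ F R s(u, c) = decide (c ∈ R) := by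
  have h1 : s(u, c) ∈ F.image (fun c => s(u, c)) := mem_image_of_mem _ hc
  have h2 : s(u, c) ∈ R.image (fun c => s(u, c)) ↔ c ∈ R := by
    simp only [mem_image]
    constructor
    · rintro ⟨c', hc', h⟩
      rwa [← sym2_left_inj h]
    · intro h
      exact ⟨c, h, rfl⟩
  simp [asm, h1, h2]

theorem asm_v {R : Finset (Fin n)} {c : Fin n} (hc : c ∈ F) :
    asm u v x₀ F R s(v, c) = !decide (c ∈ R) := by
  have h0 : s(v, c) ∉ F.image (fun c => s(u, c)) := by
    simp only [mem_image, not_exists, not_and]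
    intro c' hc' h
    rw [Sym2.eq_iff] at h
    rcases h with ⟨h, _⟩ | ⟨h, h'⟩
    · exact huv h
    · exact hFu (h ▸ hc)
  have h1 : s(v, c) ∈ F.image (fun c => s(v, c)) := mem_image_of_mem _ hc
  have h2 : s(v, c) ∈ R.image (fun c => s(v, c)) ↔ c ∈ R := by
    simp only [mem_image]
    constructor
    · rintro ⟨c', hc', h⟩
      rwa [← sym2_left_inj h]
    · intro h
      exact ⟨c, h, rfl⟩
  simp [asm, h0, h1, h2]

theorem asm_other {R : Finset (Fin n)} {e : Sym2 (Fin n)}
    (h1 : e ∉ F.image (fun c => s(u, c))) (h2 : e ∉ F.image (fun c => s(v, c))) :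
    asm u v x₀ F R e = x₀ e := by
  simp [asm, h1, h2]

theorem not_mem_image_of_not_moved {e : Sym2 (Fin n)} (he : ¬ moved u v e) :
    e ∉ F.image (fun c => s(u, c)) ∧ e ∉ F.image (fun c => s(v, c)) := by
  constructor
  · simp only [mem_image, not_exists, not_and]
    rintro c hc rfl
    apply he
    rw [moved_pair]
    refine ⟨?_, Or.inl rfl⟩
    intro h
    rw [Sym2.eq_iff] at h
    rcases h with ⟨_, h⟩ | ⟨h, _⟩
    · exact hFv (h ▸ hc)
    · exact huv h
  · simp only [mem_image, not_exists, not_and]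
    rintro c hc rfl
    apply he
    rw [moved_pair]
    refine ⟨?_, Or.inr (Or.inr (Or.inl rfl))⟩
    intro h
    rw [Sym2.eq_iff] at h
    rcases h with ⟨h, _⟩ | ⟨_, h⟩
    · exact huv h.symm
    · exact hFu (h ▸ hc)

theorem keyP_asm {R : Finset (Fin n)} : keyP u v (asm u v x₀ F R) = keyP u v x₀ := by
  rw [keyP_eq_iff]
  intro e he
  obtain ⟨h1, h2⟩ := not_mem_image_of_not_moved huv hFu hFv (F := F) he
  exact asm_other huv hFu hFv h1 h2

theorem asm_outer {R : Finset (Fin n)} {a b : Fin n} (ha : a ≠ u) (ha' : a ≠ v)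
    (hb : b ≠ u) (hb' : b ≠ v) : asm u v x₀ F R s(a, b) = x₀ s(a, b) := by
  apply asm_other huv hFu hFv
  · simp only [mem_image, not_exists, not_and]
    intro c _ h
    rw [Sym2.eq_iff] at h
    rcases h with ⟨h, _⟩ | ⟨h, _⟩
    · exact ha h.symm
    · exact hb h.symm
  · simp only [mem_image, not_exists, not_and]
    intro c _ h
    rw [Sym2.eq_iff] at h
    rcases h with ⟨h, _⟩ | ⟨h, _⟩
    · exact ha' h.symm
    · exact hb' h.symm

theorem asm_u_off {R : Finset (Fin n)} {b : Fin n} (hb : b ∉ F) :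
    asm u v x₀ F R s(u, b) = x₀ s(u, b) := by
  apply asm_other huv hFu hFv
  · simp only [mem_image, not_exists, not_and]
    intro c hc h
    rw [sym2_left_inj h] at hc
    exact hb hc
  · simp only [mem_image, not_exists, not_and]
    intro c hc h
    rw [Sym2.eq_iff] at h
    rcases h with ⟨h, _⟩ | ⟨h, h'⟩
    · exact huv h.symm
    · exact hFu (h'.symm ▸ hc)

theorem asm_v_off {R : Finset (Fin n)} {b : Fin n} (hb : b ∉ F) :
    asm u v x₀ F R s(v, b) = x₀ s(v, b) := by
  apply asm_other huv hFu hFv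
  · simp only [mem_image, not_exists, not_and]
    intro c hc h
    rw [Sym2.eq_iff] at h
    rcases h with ⟨h, _⟩ | ⟨h, h'⟩
    · exact huv h
    · exact hFv (h'.symm ▸ hc)
  · simp only [mem_image, not_exists, not_and]
    intro c hc h
    rw [sym2_left_inj h] at hc
    exact hb hc

theorem asm_c_u {R : Finset (Fin n)} {c : Fin n} : asm u v x₀ F R s(c, u) = asm u v x₀ F R s(u, c) := by
  rw [Sym2.eq_swap]



theorem asm_loop {R : Finset (Fin n)} (a : Fin n) : asm u v x₀ F R s(a, a) = x₀ s(a, a) := by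
  apply asm_other huv hFu hFv
  · simp only [mem_image, not_exists, not_and]
    intro c hc h
    rw [Sym2.eq_iff] at h
    rcases h with ⟨h, h'⟩ | ⟨h, h'⟩
    · exact hFu (by rw [h, ← h']; exact hc)
    · exact hFu (by rw [h, ← h']; exact hc)
  · simp only [mem_image, not_exists, not_and]
    intro c hc h
    rw [Sym2.eq_iff] at h
    rcases h with ⟨h, h'⟩ | ⟨h, h'⟩
    · exact hFv (by rw [h, ← h']; exact hc)
    · exact hFv (by rw [h, ← h']; exact hc)

end Fibre

section Free

variable {d : Fin n → ℕ} {u v : Fin n}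

/-- Membership in the free set. -/
theorem mem_freeSet {x : Gr n} {c : Fin n} :
    c ∈ freeSet u v x ↔ c ≠ u ∧ c ≠ v ∧ x s(u, c) ≠ x s(v, c) := by
  simp [freeSet]

theorem u_not_mem_freeSet (x : Gr n) : u ∉ freeSet u v x := by
  simp [freeSet]

theorem v_not_mem_freeSet (x : Gr n) : v ∉ freeSet u v x := by
  simp [freeSet]

theorem mem_rowOf {F : Finset (Fin n)} {x : Gr n} {c : Fin n} :
    c ∈ rowOf u F x ↔ c ∈ F ∧ x s(u, c) = true := by
  simp [rowOf]

/-- The column sums are preserved along a fibre. -/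
theorem col_sum_eq (huv : u ≠ v) {x y : Gr n} (hx : x ∈ Om d) (hy : y ∈ Om d)
    (hk : keyP u v x = keyP u v y) {c : Fin n} (hcu : c ≠ u) (hcv : c ≠ v) :
    (x s(u, c)).toNat + (x s(v, c)).toNat = (y s(u, c)).toNat + (y s(v, c)).toNat := by
  rw [keyP_eq_iff] at hk
  have hB : c ∉ ({u, v} : Finset (Fin n)) := by simp [hcu, hcv]
  have := deg_add_eq (x := x) (y := y) hB (fun b hbc hbB => by
    simp only [mem_insert, mem_singleton, not_or] at hbB
    exact hk _ (not_moved_of_not_mem hcu hcv hbB.1 hbB.2))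
  rw [sum_pair huv, sum_pair huv, (om_props hx).2, (om_props hy).2,
    Sym2.eq_swap (a := c) (b := u), Sym2.eq_swap (a := c) (b := v)] at this
  omega

theorem not_free_eq (huv : u ≠ v) {x y : Gr n} (hx : x ∈ Om d) (hy : y ∈ Om d)
    (hk : keyP u v x = keyP u v y) {c : Fin n} (hcu : c ≠ u) (hcv : c ≠ v)
    (hc : c ∉ freeSet u v y) : x s(u, c) = y s(u, c) ∧ x s(v, c) = y s(v, c) := by
  have h1 := col_sum_eq huv hx hy hk hcu hcv
  have h2 : y s(u, c) = y s(v, c) := by
    by_contra h
    exact hc (mem_freeSet.2 ⟨hcu, hcv, h⟩)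
  revert h1 h2
  cases x s(u, c) <;> cases x s(v, c) <;> cases y s(u, c) <;> cases y s(v, c) <;> simp

theorem free_ne (huv : u ≠ v) {x y : Gr n} (hx : x ∈ Om d) (hy : y ∈ Om d)
    (hk : keyP u v x = keyP u v y) {c : Fin n} (hc : c ∈ freeSet u v y) :
    x s(v, c) = !x s(u, c) := by
  obtain ⟨hcu, hcv, hne⟩ := mem_freeSet.1 hc
  have h1 := col_sum_eq huv hx hy hk hcu hcv
  revert h1 hne
  cases x s(u, c) <;> cases x s(v, c) <;> cases y s(u, c) <;> cases y s(v, c) <;> simp

theorem sum_toNat_rowOf (F : Finset (Fin n)) (x : Gr n) :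
    ∑ b ∈ F, (x s(u, b)).toNat = (rowOf u F x).card := by
  unfold rowOf
  rw [Finset.card_filter]
  refine Finset.sum_congr rfl (fun b _ => ?_)
  cases x s(u, b) <;> simp

/-- The size of the row is constant along the fibre. -/
theorem card_rowOf_eq (huv : u ≠ v) {x y : Gr n} (hx : x ∈ Om d) (hy : y ∈ Om d)
    (hk : keyP u v x = keyP u v y) :
    (rowOf u (freeSet u v y) x).card = (rowOf u (freeSet u v y) y).card := by
  have hk' := keyP_eq_iff.1 hk
  have := deg_add_eq (a := u) (B := freeSet u v y) (x := x) (y := y) (u_not_mem_freeSet y)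
    (fun b hbu hbF => by
      by_cases hbv : b = v
      · subst hbv
        apply hk'
        simp [moved]
      · exact (not_free_eq huv hx hy hk hbu hbv hbF).1)
  rw [(om_props hx).2, (om_props hy).2, sum_toNat_rowOf, sum_toNat_rowOf] at this
  omega

/-- Every graph of the fibre is assembled from its row. -/
theorem asm_rowOf (huv : u ≠ v) {x y : Gr n} (hx : x ∈ Om d) (hy : y ∈ Om d)
    (hk : keyP u v x = keyP u v y) :
    asm u v y (freeSet u v y) (rowOf u (freeSet u v y) x) = x := by
  have hFu := u_not_mem_freeSet (u := u) (v := v) y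
  have hFv := v_not_mem_freeSet (u := u) (v := v) y
  have hk' := keyP_eq_iff.1 hk
  funext e
  by_cases h1 : e ∈ (freeSet u v y).image (fun c => s(u, c))
  · obtain ⟨c, hc, rfl⟩ := mem_image.1 h1
    rw [asm_u huv hFu hFv hc]
    simp only [mem_rowOf, hc, true_and]
    cases x s(u, c) <;> simp
  by_cases h2 : e ∈ (freeSet u v y).image (fun c => s(v, c))
  · obtain ⟨c, hc, rfl⟩ := mem_image.1 h2
    rw [asm_v huv hFu hFv hc, free_ne huv hx hy hk hc]
    simp only [mem_rowOf, hc, true_and]
    cases x s(u, c) <;> simp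
  rw [asm_other huv hFu hFv h1 h2]
  by_cases hm : moved u v e
  · induction e using Sym2.ind with
    | _ a b =>
      rw [moved_pair] at hm
      obtain ⟨hne, hab⟩ := hm
      have hup : ∀ c, c ≠ u → s(u, c) ≠ s(u, v) → s(u, c) ∉ (freeSet u v y).image (fun c => s(u, c)) →
          y s(u, c) = x s(u, c) := by
        intro c hcu hcne hcF
        have hcv : c ≠ v := by
          rintro rfl
          exact hcne rfl
        have hcf : c ∉ freeSet u v y := fun h => hcF (mem_image_of_mem _ h)
        exact (not_free_eq huv hx hy hk hcu hcv hcf).1.symm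
      have hvp : ∀ c, c ≠ v → s(v, c) ≠ s(u, v) → s(v, c) ∉ (freeSet u v y).image (fun c => s(v, c)) →
          y s(v, c) = x s(v, c) := by
        intro c hcv hcne hcF
        have hcu : c ≠ u := by
          rintro rfl
          exact hcne Sym2.eq_swap
        have hcf : c ∉ freeSet u v y := fun h => hcF (mem_image_of_mem _ h)
        exact (not_free_eq huv hx hy hk hcu hcv hcf).2.symm
      have hux : ∀ a, y s(a, a) = x s(a, a) := fun a => by
        rw [(om_props hx).1, (om_props hy).1]
      rcases hab with rfl | rfl | rfl | rfl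
      · by_cases hb : b = a
        · subst hb; exact hux _
        · exact hup b hb hne h1
      · rw [Sym2.eq_swap] at hne h1 h2 ⊢
        by_cases ha : a = b
        · subst ha; exact hux _
        · exact hup a ha hne h1
      · by_cases hb : b = a
        · subst hb; exact hux _
        · exact hvp b hb hne h2
      · rw [Sym2.eq_swap] at hne h1 h2 ⊢
        by_cases ha : a = b
        · subst ha; exact hux _
        · exact hvp a ha hne h2
  · exact (hk' e hm).symm


theorem rowOf_asm (huv : u ≠ v) {y : Gr n} {F R : Finset (Fin n)} (hFu : u ∉ F) (hFv : v ∉ F)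
    (hR : R ⊆ F) : rowOf u F (asm u v y F R) = R := by
  ext c
  rw [mem_rowOf]
  constructor
  · rintro ⟨hc, h⟩
    rw [asm_u huv hFu hFv hc] at h
    simpa using h
  · intro hc
    refine ⟨hR hc, ?_⟩
    rw [asm_u huv hFu hFv (hR hc)]
    simpa using hc

/-- The assembled graphs are in the state space. -/
theorem asm_mem (huv : u ≠ v) {y : Gr n} (hy : y ∈ Om d) {R : Finset (Fin n)}
    (hR : R ∈ (freeSet u v y).powersetCard (rowOf u (freeSet u v y) y).card) :
    asm u v y (freeSet u v y) R ∈ Om d := by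
  set F := freeSet u v y with hF
  have hFu : u ∉ F := u_not_mem_freeSet y
  have hFv : v ∉ F := v_not_mem_freeSet y
  obtain ⟨hRF, hRc⟩ := mem_powersetCard.1 hR
  set x := asm u v y F R with hx
  have hyp := om_props hy
  have hsumu : ∑ b ∈ F, (x s(u, b)).toNat = ∑ b ∈ F, (y s(u, b)).toNat := by
    rw [sum_toNat_rowOf, sum_toNat_rowOf, rowOf_asm huv hFu hFv hRF, hRc]
  have hsumv : ∑ b ∈ F, (x s(v, b)).toNat = ∑ b ∈ F, (y s(v, b)).toNat := by
    have h1 : ∑ b ∈ F, ((x s(u, b)).toNat + (x s(v, b)).toNat) = F.card := by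
      rw [Finset.card_eq_sum_ones]
      refine Finset.sum_congr rfl (fun b hb => ?_)
      rw [hx, asm_u huv hFu hFv hb, asm_v huv hFu hFv hb]
      cases decide (b ∈ R) <;> rfl
    have h2 : ∑ b ∈ F, ((y s(u, b)).toNat + (y s(v, b)).toNat) = F.card := by
      rw [Finset.card_eq_sum_ones]
      refine Finset.sum_congr rfl (fun b hb => ?_)
      have := (mem_freeSet.1 hb).2.2
      revert this
      cases y s(u, b) <;> cases y s(v, b) <;> simp
    rw [Finset.sum_add_distrib] at h1 h2
    omega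
  have hdeg : ∀ a, deg x a = d a := by
    intro a
    by_cases hau : a = u
    · subst hau
      have := deg_add_eq (a := a) (B := F) (x := x) (y := y) hFu
        (fun b _ hbF => asm_u_off huv hFu hFv hbF)
      rw [hsumu, hyp.2] at this
      omega
    by_cases hav : a = v
    · subst hav
      have := deg_add_eq (a := a) (B := F) (x := x) (y := y) hFv
        (fun b _ hbF => asm_v_off huv hFu hFv hbF)
      rw [hsumv, hyp.2] at this
      omega
    have hB : a ∉ ({u, v} : Finset (Fin n)) := by simp [hau, hav]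
    have := deg_add_eq (x := x) (y := y) hB (fun b _ hbB => by
      simp only [mem_insert, mem_singleton, not_or] at hbB
      exact asm_outer huv hFu hFv hau hav hbB.1 hbB.2)
    rw [sum_pair huv, sum_pair huv, hyp.2, Sym2.eq_swap (a := a) (b := u),
      Sym2.eq_swap (a := a) (b := v)] at this
    have hab : (x s(u, a)).toNat + (x s(v, a)).toNat = (y s(u, a)).toNat + (y s(v, a)).toNat := by
      by_cases haF : a ∈ F
      · rw [hx, asm_u huv hFu hFv haF, asm_v huv hFu hFv haF]
        have := (mem_freeSet.1 haF).2.2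
        revert this
        cases y s(u, a) <;> cases y s(v, a) <;> cases decide (a ∈ R) <;> simp
      · rw [hx, asm_u_off huv hFu hFv haF, asm_v_off huv hFu hFv haF]
    omega
  simp only [Om, mem_filter, mem_univ, true_and]
  refine ⟨fun a => ?_, hdeg⟩
  rw [hx, asm_loop huv hFu hFv, hyp.1]

/-- The row determines the graph of the fibre. -/
theorem asm_injOn (huv : u ≠ v) (y : Gr n) :
    Set.InjOn (asm u v y (freeSet u v y))
      ((freeSet u v y).powersetCard (rowOf u (freeSet u v y) y).card) := by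
  intro R hR R' hR' h
  have hFu : u ∉ freeSet u v y := u_not_mem_freeSet y
  have hFv : v ∉ freeSet u v y := v_not_mem_freeSet y
  rw [← rowOf_asm huv hFu hFv (mem_powersetCard.1 hR).1,
    ← rowOf_asm huv hFu hFv (mem_powersetCard.1 hR').1, h]

/-- The fibre of the key is the image of a Johnson scheme. -/
theorem fibre_eq_image (huv : u ≠ v) {y : Gr n} (hy : y ∈ Om d) :
    (Om d).filter (fun t => keyP u v t = keyP u v y) =
      ((freeSet u v y).powersetCard (rowOf u (freeSet u v y) y).card).image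
        (asm u v y (freeSet u v y)) := by
  have hFu : u ∉ freeSet u v y := u_not_mem_freeSet y
  have hFv : v ∉ freeSet u v y := v_not_mem_freeSet y
  ext x
  simp only [mem_filter, mem_image]
  constructor
  · rintro ⟨hx, hk⟩
    refine ⟨rowOf u (freeSet u v y) x, ?_, asm_rowOf huv hx hy hk⟩
    rw [mem_powersetCard]
    exact ⟨filter_subset _ _, card_rowOf_eq huv hx hy hk⟩
  · rintro ⟨R, hR, rfl⟩
    exact ⟨asm_mem huv hy hR, keyP_asm huv hFu hFv⟩

end Free

/-- Exactly one of `w, z` belongs to `R`. -/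
def oneOfJ {V : Type*} [DecidableEq V] (w z : V) (R : Finset V) : Bool :=
  decide ((w ∈ R ∧ z ∉ R) ∨ (z ∈ R ∧ w ∉ R))

theorem flip4_comm (u v w z : Fin n) : flip4 u v w z = flip4 u v z w := by
  funext x
  have h : switchable u v w z x = switchable u v z w x := by
    simp only [switchable]
    cases x s(u, w) <;> cases x s(u, z) <;> cases x s(v, w) <;> cases x s(v, z) <;> rfl
  unfold flip4
  rw [h]
  by_cases hs : switchable u v z w x = true
  · simp only [hs, if_true]
    funext e
    have : (e = s(u, w) ∨ e = s(u, z) ∨ e = s(v, w) ∨ e = s(v, z)) ↔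
        (e = s(u, z) ∨ e = s(u, w) ∨ e = s(v, z) ∨ e = s(v, w)) := by tauto
    simp only [this]
  · rw [if_neg hs, if_neg hs]

section Flip

variable {u v w z : Fin n} (huv : u ≠ v) (huw : u ≠ w) (huz : u ≠ z) (hvw : v ≠ w) (hvz : v ≠ z)
  (hwz : w ≠ z) {x₀ : Gr n} {F : Finset (Fin n)} (hFu : u ∉ F) (hFv : v ∉ F)
  (hw : w ∈ F) (hz : z ∈ F)

include huv hFu hFv hw hz

theorem switchable_asm (R : Finset (Fin n)) :
    switchable u v w z (asm u v x₀ F R) = oneOfJ w z R := by
  simp only [switchable, asm_u huv hFu hFv hw, asm_u huv hFu hFv hz, asm_v huv hFu hFv hw,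
    asm_v huv hFu hFv hz, oneOfJ]
  by_cases h1 : w ∈ R <;> by_cases h2 : z ∈ R <;> simp [h1, h2]

include huw huz hvw hvz hwz in
/-- The effect of the switch on an assembled graph. -/
theorem flip4_asm {R : Finset (Fin n)} (hwR : w ∈ R) (hzR : z ∉ R) :
    flip4 u v w z (asm u v x₀ F R) = asm u v x₀ F (insert z (R.erase w)) := by
  have hs : switchable u v w z (asm u v x₀ F R) = true := by
    rw [switchable_asm huv hFu hFv hw hz]
    simp [oneOfJ, hwR, hzR]
  funext e
  by_cases hc : e = s(u, w) ∨ e = s(u, z) ∨ e = s(v, w) ∨ e = s(v, z)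
  · simp only [flip4, hs, if_true, hc, if_true]
    rcases hc with rfl | rfl | rfl | rfl
    · rw [asm_u huv hFu hFv hw, asm_u huv hFu hFv hw]
      simp [hwR, hwz]
    · rw [asm_u huv hFu hFv hz, asm_u huv hFu hFv hz]
      simp [hzR]
    · rw [asm_v huv hFu hFv hw, asm_v huv hFu hFv hw]
      simp [hwR, hwz]
    · rw [asm_v huv hFu hFv hz, asm_v huv hFu hFv hz]
      simp [hzR]
  · rw [flip4_apply_of_not_cross huv huw huz hvw hvz hwz hc]
    simp only [not_or] at hc
    obtain ⟨h1, h2, h3, h4⟩ := hc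
    by_cases hU : e ∈ F.image (fun c => s(u, c))
    · obtain ⟨c, hc, rfl⟩ := mem_image.1 hU
      rw [asm_u huv hFu hFv hc, asm_u huv hFu hFv hc]
      have hcw : c ≠ w := by rintro rfl; exact h1 rfl
      have hcz : c ≠ z := by rintro rfl; exact h2 rfl
      simp [hcw, hcz]
    by_cases hV : e ∈ F.image (fun c => s(v, c))
    · obtain ⟨c, hc, rfl⟩ := mem_image.1 hV
      rw [asm_v huv hFu hFv hc, asm_v huv hFu hFv hc]
      have hcw : c ≠ w := by rintro rfl; exact h3 rfl
      have hcz : c ≠ z := by rintro rfl; exact h4 rfl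
      simp [hcw, hcz]
    rw [asm_other huv hFu hFv hU hV, asm_other huv hFu hFv hU hV]

end Flip

section Blocks

variable {d : Fin n → ℕ} {u v w z : Fin n}

/-- The block of a graph. -/
noncomputable def blockOf (d : Fin n → ℕ) (u v : Fin n) (y : Gr n) : Finset (Gr n) :=
  (Om d).filter (fun t => keyP u v t = keyP u v y)

theorem mem_blockOf {y x : Gr n} : x ∈ blockOf d u v y ↔ x ∈ Om d ∧ keyP u v x = keyP u v y := by
  simp [blockOf]

theorem avg_pair_block {σ : Gr n → Bool} (f : Gr n → ℝ) {x y : Gr n} (hx : x ∈ blockOf d u v y) :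
    avg (Om d) (fun t => (keyP u v t, σ t)) f x = avg (blockOf d u v y) σ f x := by
  have : fib (Om d) (fun t => (keyP u v t, σ t)) x = fib (blockOf d u v y) σ x := by
    ext a
    simp only [mem_fib, mem_blockOf, Prod.mk.injEq, (mem_blockOf.1 hx).2]
    tauto
  simp [avg, this]

theorem avg_plain_block (f : Gr n → ℝ) {x y : Gr n} (hx : x ∈ blockOf d u v y) :
    avg (Om d) (keyP u v) f x = mean (blockOf d u v y) f := by
  have : fib (Om d) (keyP u v) x = blockOf d u v y := by
    ext a
    simp only [mem_fib, mem_blockOf, (mem_blockOf.1 hx).2]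
  simp [avg, mean, this]

/-- The Johnson scheme of the block of `y`. -/
noncomputable def schemeOf (u v : Fin n) (y : Gr n) : Finset (Finset (Fin n)) :=
  (freeSet u v y).powersetCard (rowOf u (freeSet u v y) y).card

/-- The parametrisation of the block of `y`. -/
noncomputable def paramOf (u v : Fin n) (y : Gr n) : Finset (Fin n) → Gr n :=
  asm u v y (freeSet u v y)

theorem block_eq_image (huv : u ≠ v) {y : Gr n} (hy : y ∈ Om d) :
    blockOf d u v y = (schemeOf u v y).image (paramOf u v y) :=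
  fibre_eq_image huv hy

theorem param_injOn (huv : u ≠ v) (y : Gr n) : Set.InjOn (paramOf u v y) (schemeOf u v y) :=
  asm_injOn huv y

theorem sum_block (huv : u ≠ v) {y : Gr n} (hy : y ∈ Om d) (h : Gr n → ℝ) :
    ∑ x ∈ blockOf d u v y, h x = ∑ R ∈ schemeOf u v y, h (paramOf u v y R) := by
  rw [block_eq_image huv hy, Finset.sum_image (param_injOn huv y)]

theorem mean_block (huv : u ≠ v) {y : Gr n} (hy : y ∈ Om d) (f : Gr n → ℝ) :
    mean (blockOf d u v y) f = mean (schemeOf u v y) (f ∘ paramOf u v y) := by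
  unfold mean
  rw [sum_block huv hy, block_eq_image huv hy, Finset.card_image_of_injOn (param_injOn huv y)]
  rfl

/-- The average on the block for a key which only depends on the Johnson statistic. -/
theorem avg_block_param (huv : u ≠ v) {y : Gr n} (hy : y ∈ Om d) {σ : Gr n → Bool}
    {τ : Finset (Fin n) → Bool} (hσ : ∀ R ∈ schemeOf u v y, σ (paramOf u v y R) = τ R)
    (f : Gr n → ℝ) {R : Finset (Fin n)} (hR : R ∈ schemeOf u v y) :
    avg (blockOf d u v y) σ f (paramOf u v y R) = avg (schemeOf u v y) τ (f ∘ paramOf u v y) R := by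
  rw [block_eq_image huv hy, avg_image _ _ (param_injOn huv y) σ f hR]
  refine avg_key_congr (fun a ha b hb => ?_) _ hR
  simp only [Function.comp, hσ a ha, hσ b hb]

end Blocks

section Transport

variable {d : Fin n → ℕ} {u v : Fin n}

/-- The columns other than `u, v`. -/
def otherCols (u v : Fin n) : Finset (Fin n) := univ.filter fun c => c ≠ u ∧ c ≠ v

theorem freeSet_subset (u v : Fin n) (y : Gr n) : freeSet u v y ⊆ otherCols u v := by
  intro c hc
  obtain ⟨h1, h2, _⟩ := mem_freeSet.1 hc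
  simp [otherCols, h1, h2]

/-- Restricting a double sum to `F`. -/
theorem sum_restrict {F W : Finset (Fin n)} (hFW : F ⊆ W) (G : Fin n → Fin n → ℝ)
    (hG : ∀ w ∈ W, ∀ z ∈ W.erase w, (w ∉ F ∨ z ∉ F) → G w z = 0) :
    ∑ w ∈ W, ∑ z ∈ W.erase w, G w z = ∑ w ∈ F, ∑ z ∈ F.erase w, G w z := by
  symm
  calc ∑ w ∈ F, ∑ z ∈ F.erase w, G w z = ∑ w ∈ F, ∑ z ∈ W.erase w, G w z := by
        refine Finset.sum_congr rfl (fun w hw => ?_)
        refine Finset.sum_subset (Finset.erase_subset_erase _ hFW) (fun z hz hz' => ?_)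
        refine hG w (hFW hw) z hz (Or.inr ?_)
        intro hzF
        apply hz'
        exact mem_erase.2 ⟨(mem_erase.1 hz).1, hzF⟩
    _ = ∑ w ∈ W, ∑ z ∈ W.erase w, G w z := by
        refine Finset.sum_subset hFW (fun w hw hw' => ?_)
        exact Finset.sum_eq_zero (fun z hz => hG w hw z hz (Or.inl hw'))

/-- Symmetrisation of a double sum over ordered pairs. -/
theorem sum_swap_erase (F : Finset (Fin n)) (G : Fin n → Fin n → ℝ) :
    ∑ w ∈ F, ∑ z ∈ F.erase w, G z w = ∑ w ∈ F, ∑ z ∈ F.erase w, G w z := by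
  refine Finset.sum_comm' (fun a b => ?_)
  simp only [mem_erase]
  constructor
  · rintro ⟨h1, h2, h3⟩
    exact ⟨⟨h2.symm, h1⟩, h3⟩ 
  · rintro ⟨⟨h1, h2⟩, h3⟩
    exact ⟨h2, h1.symm, h3⟩

/-- The Johnson energy of a pair of columns. -/
noncomputable def jEnergy (F : Finset (Fin n)) (p : ℕ) (φ : Finset (Fin n) → ℝ) (w z : Fin n) : ℝ :=
  ∑ R ∈ (F.powersetCard p).filter (fun R => w ∈ R ∧ z ∉ R),
    (φ R - φ (insert z (R.erase w))) ^ 2

/-- Nothing is switchable on a block if a column is not free. -/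
theorem switchable_false_of_not_free (huv : u ≠ v) {x y : Gr n} (hx : x ∈ blockOf d u v y)
    (hy : y ∈ Om d) {w z : Fin n} (hwu : w ≠ u) (hwv : w ≠ v) (hzu : z ≠ u) (hzv : z ≠ v)
    (h : w ∉ freeSet u v y ∨ z ∉ freeSet u v y) : switchable u v w z x = false := by
  obtain ⟨hxm, hk⟩ := mem_blockOf.1 hx
  rcases h with h | h
  · obtain ⟨h1, h2⟩ := not_free_eq huv hxm hy hk hwu hwv h
    have h3 : y s(u, w) = y s(v, w) := by
      by_contra h'
      exact h (mem_freeSet.2 ⟨hwu, hwv, h'⟩)
    have h4 : x s(u, w) = x s(v, w) := by rw [h1, h2, h3]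
    simp only [switchable]
    revert h4
    cases x s(u, w) <;> cases x s(u, z) <;> cases x s(v, w) <;> cases x s(v, z) <;> simp
  · obtain ⟨h1, h2⟩ := not_free_eq huv hxm hy hk hzu hzv h
    have h3 : y s(u, z) = y s(v, z) := by
      by_contra h'
      exact h (mem_freeSet.2 ⟨hzu, hzv, h'⟩)
    have h4 : x s(u, z) = x s(v, z) := by rw [h1, h2, h3]
    simp only [switchable]
    revert h4
    cases x s(u, w) <;> cases x s(u, z) <;> cases x s(v, w) <;> cases x s(v, z) <;> simp

/-- On a block with a non-free column the defect vanishes. -/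
theorem defect_of_not_free (huv : u ≠ v) {y : Gr n} (hy : y ∈ Om d) (f : Gr n → ℝ) {w z : Fin n}
    (hwu : w ≠ u) (hwv : w ≠ v) (hzu : z ≠ u) (hzv : z ≠ v)
    (h : w ∉ freeSet u v y ∨ z ∉ freeSet u v y) :
    ∑ x ∈ blockOf d u v y, (avg (Om d) (fun t => (keyP u v t, switchable u v w z t)) f x
      - avg (Om d) (keyP u v) f x) ^ 2 = 0 := by
  refine Finset.sum_eq_zero (fun x hx => ?_)
  rw [avg_pair_block f hx, avg_plain_block f hx, ← avg_unit _ f x]
  have : avg (blockOf d u v y) (switchable u v w z) f x =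
      avg (blockOf d u v y) (fun _ => ()) f x := by
    refine avg_key_congr (fun a ha b hb => ?_) f hx
    rw [switchable_false_of_not_free huv ha hy hwu hwv hzu hzv h,
      switchable_false_of_not_free huv hb hy hwu hwv hzu hzv h]
    simp
  rw [this]
  simp

/-- On a block with a non-free column the energy vanishes. -/
theorem energy_of_not_free (huv : u ≠ v) {y : Gr n} (hy : y ∈ Om d) (f : Gr n → ℝ) {w z : Fin n}
    (hwu : w ≠ u) (hwv : w ≠ v) (hzu : z ≠ u) (hzv : z ≠ v) (hwz : w ≠ z)
    (h : w ∉ freeSet u v y ∨ z ∉ freeSet u v y) :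
    ∑ x ∈ blockOf d u v y, (f x - f (flip4 u v w z x)) ^ 2 = 0 := by
  refine Finset.sum_eq_zero (fun x hx => ?_)
  have hs := switchable_false_of_not_free huv hx hy hwu hwv hzu hzv h
  rw [flip4_of_not huv hwu.symm hzu.symm hwv.symm hzv.symm hwz (by simp [hs])]
  simp

/-- On a block with free columns the defect is the Johnson defect. -/
theorem defect_of_free (huv : u ≠ v) {y : Gr n} (hy : y ∈ Om d) (f : Gr n → ℝ) {w z : Fin n}
    (hw : w ∈ freeSet u v y) (hz : z ∈ freeSet u v y) :
    ∑ x ∈ blockOf d u v y, (avg (Om d) (fun t => (keyP u v t, switchable u v w z t)) f x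
      - avg (Om d) (keyP u v) f x) ^ 2 =
    ∑ R ∈ schemeOf u v y, (avg (schemeOf u v y) (oneOfJ w z) (f ∘ paramOf u v y) R
      - mean (schemeOf u v y) (f ∘ paramOf u v y)) ^ 2 := by
  rw [sum_block huv hy]
  refine Finset.sum_congr rfl (fun R hR => ?_)
  have hx : paramOf u v y R ∈ blockOf d u v y := by
    rw [block_eq_image huv hy]
    exact mem_image_of_mem _ hR
  rw [avg_pair_block f hx, avg_plain_block f hx, mean_block huv hy,
    avg_block_param huv hy (τ := oneOfJ w z) (fun R' _ => switchable_asm huv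
      (u_not_mem_freeSet y) (v_not_mem_freeSet y) hw hz R') f hR]

/-- On a block with free columns the variance is the Johnson variance. -/
theorem variance_block (huv : u ≠ v) {y : Gr n} (hy : y ∈ Om d) (f : Gr n → ℝ) :
    ∑ x ∈ blockOf d u v y, (f x - avg (Om d) (keyP u v) f x) ^ 2 =
    ∑ R ∈ schemeOf u v y, ((f ∘ paramOf u v y) R - mean (schemeOf u v y) (f ∘ paramOf u v y)) ^ 2 := by
  rw [sum_block huv hy]
  refine Finset.sum_congr rfl (fun R hR => ?_)
  have hx : paramOf u v y R ∈ blockOf d u v y := by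
    rw [block_eq_image huv hy]
    exact mem_image_of_mem _ hR
  rw [avg_plain_block f hx, mean_block huv hy]
  rfl

/-- On a block with free columns the energy is the sum of the two Johnson energies. -/
theorem energy_of_free (huv : u ≠ v) {y : Gr n} (hy : y ∈ Om d) (f : Gr n → ℝ) {w z : Fin n}
    (hw : w ∈ freeSet u v y) (hz : z ∈ freeSet u v y) (hwz : w ≠ z) :
    ∑ x ∈ blockOf d u v y, (f x - f (flip4 u v w z x)) ^ 2 =
      jEnergy (freeSet u v y) (rowOf u (freeSet u v y) y).card (f ∘ paramOf u v y) w z +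
      jEnergy (freeSet u v y) (rowOf u (freeSet u v y) y).card (f ∘ paramOf u v y) z w := by
  have hFu : u ∉ freeSet u v y := u_not_mem_freeSet y
  have hFv : v ∉ freeSet u v y := v_not_mem_freeSet y
  have huw : u ≠ w := fun h => hFu (h ▸ hw)
  have huz : u ≠ z := fun h => hFu (h ▸ hz)
  have hvw : v ≠ w := fun h => hFv (h ▸ hw)
  have hvz : v ≠ z := fun h => hFv (h ▸ hz)
  rw [sum_block huv hy]
  unfold jEnergy
  change _ = ∑ R ∈ (schemeOf u v y).filter _, _ + ∑ R ∈ (schemeOf u v y).filter _, _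
  rw [Finset.sum_filter, Finset.sum_filter, ← Finset.sum_add_distrib]
  refine Finset.sum_congr rfl (fun R _ => ?_)
  by_cases h1 : w ∈ R
  · by_cases h2 : z ∈ R
    · have hs : ¬ switchable u v w z (paramOf u v y R) = true := by
        unfold paramOf
        rw [switchable_asm huv hFu hFv hw hz]
        simp [oneOfJ, h1, h2]
      rw [flip4_of_not huv huw huz hvw hvz hwz hs]
      simp [h1, h2]
    · have hf : flip4 u v w z (paramOf u v y R) = paramOf u v y (insert z (R.erase w)) :=
        flip4_asm huv huw huz hvw hvz hwz hFu hFv hw hz h1 h2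
      rw [hf]
      simp [h1, h2, Function.comp]
  · by_cases h2 : z ∈ R
    · have hf : flip4 u v w z (paramOf u v y R) = paramOf u v y (insert w (R.erase z)) := by
        rw [flip4_comm]
        exact flip4_asm huv huz huw hvz hvw hwz.symm hFu hFv hz hw h2 h1
      rw [hf]
      simp [h1, h2, Function.comp]
    · have hs : ¬ switchable u v w z (paramOf u v y R) = true := by
        unfold paramOf
        rw [switchable_asm huv hFu hFv hw hz]
        simp [oneOfJ, h1, h2]
      rw [flip4_of_not huv huw huz hvw hvz hwz hs]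
      simp [h1, h2]

/-- The double sum of the block energies. -/
theorem energy_block_sum (huv : u ≠ v) {y : Gr n} (hy : y ∈ Om d) (f : Gr n → ℝ) :
    ∑ w ∈ otherCols u v, ∑ z ∈ (otherCols u v).erase w,
      ∑ x ∈ blockOf d u v y, (f x - f (flip4 u v w z x)) ^ 2 =
    2 * ∑ w ∈ freeSet u v y, ∑ z ∈ (freeSet u v y).erase w,
      jEnergy (freeSet u v y) (rowOf u (freeSet u v y) y).card (f ∘ paramOf u v y) w z := by
  rw [sum_restrict (freeSet_subset u v y)]
  · have : ∀ w ∈ freeSet u v y, ∀ z ∈ (freeSet u v y).erase w,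
        ∑ x ∈ blockOf d u v y, (f x - f (flip4 u v w z x)) ^ 2 =
        jEnergy (freeSet u v y) (rowOf u (freeSet u v y) y).card (f ∘ paramOf u v y) w z +
        jEnergy (freeSet u v y) (rowOf u (freeSet u v y) y).card (f ∘ paramOf u v y) z w := by
      intro w hw z hz
      obtain ⟨hzw, hzF⟩ := mem_erase.1 hz
      exact energy_of_free huv hy f hw hzF hzw.symm
    rw [Finset.sum_congr rfl (fun w hw => Finset.sum_congr rfl (this w hw))]
    simp only [Finset.sum_add_distrib]
    rw [sum_swap_erase (freeSet u v y)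
      (jEnergy (freeSet u v y) (rowOf u (freeSet u v y) y).card (f ∘ paramOf u v y))]
    ring
  · intro w hw z hz h
    obtain ⟨hzw, hzW⟩ := mem_erase.1 hz
    simp only [otherCols, mem_filter, mem_univ, true_and] at hw hzW
    exact energy_of_not_free huv hy f hw.1 hw.2 hzW.1 hzW.2 hzw.symm h

/-- The double sum of the block defects. -/
theorem defect_block_sum (huv : u ≠ v) {y : Gr n} (hy : y ∈ Om d) (f : Gr n → ℝ) :
    ∑ w ∈ otherCols u v, ∑ z ∈ (otherCols u v).erase w,
      ∑ x ∈ blockOf d u v y, (avg (Om d) (fun t => (keyP u v t, switchable u v w z t)) f x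
      - avg (Om d) (keyP u v) f x) ^ 2 =
    ∑ w ∈ freeSet u v y, ∑ z ∈ (freeSet u v y).erase w,
      ∑ R ∈ schemeOf u v y, (avg (schemeOf u v y) (oneOfJ w z) (f ∘ paramOf u v y) R
      - mean (schemeOf u v y) (f ∘ paramOf u v y)) ^ 2 := by
  rw [sum_restrict (freeSet_subset u v y)]
  · refine Finset.sum_congr rfl (fun w hw => Finset.sum_congr rfl (fun z hz => ?_))
    exact defect_of_free huv hy f hw (mem_erase.1 hz).2
  · intro w hw z hz h
    obtain ⟨hzw, hzW⟩ := mem_erase.1 hz
    simp only [otherCols, mem_filter, mem_univ, true_and] at hw hzW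
    exact defect_of_not_free huv hy f hw.1 hw.2 hzW.1 hzW.2 h

/-- A triple sum over the state space, split along the blocks. -/
theorem triple_sum_blocks (d : Fin n → ℕ) (u v : Fin n) (h : Fin n → Fin n → Gr n → ℝ) :
    ∑ w ∈ otherCols u v, ∑ z ∈ (otherCols u v).erase w, ∑ x ∈ Om d, h w z x =
    ∑ k ∈ (Om d).image (keyP u v), ∑ w ∈ otherCols u v, ∑ z ∈ (otherCols u v).erase w,
      ∑ x ∈ (Om d).filter (fun t => keyP u v t = k), h w z x := by
  symm
  rw [Finset.sum_comm]
  refine Finset.sum_congr rfl (fun w _ => ?_)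
  rw [Finset.sum_comm]
  refine Finset.sum_congr rfl (fun z _ => ?_)
  rw [Finset.sum_fiberwise_of_maps_to (fun y hy => mem_image_of_mem _ hy)]

/-- The Johnson inequality, as a statement. -/
def JohnsonIneqStmt (n : ℕ) : Prop :=
  ∀ (F : Finset (Fin n)) (p : ℕ) (φ : Finset (Fin n) → ℝ),
    ∑ w ∈ F, ∑ z ∈ F.erase w, ∑ R ∈ F.powersetCard p,
      (avg (F.powersetCard p) (oneOfJ w z) φ R - mean (F.powersetCard p) φ) ^ 2 ≤
    (1 / 2) * ∑ w ∈ F, ∑ z ∈ F.erase w, ∑ R ∈ (F.powersetCard p).filter (fun R => w ∈ R ∧ z ∉ R),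
      (φ R - φ (insert z (R.erase w))) ^ 2

/-- The Johnson gap, as a statement. -/
def JohnsonGapStmt (n : ℕ) : Prop :=
  ∀ (F : Finset (Fin n)) (p : ℕ) (φ : Finset (Fin n) → ℝ),
    ∑ R ∈ F.powersetCard p, (φ R - mean (F.powersetCard p) φ) ^ 2 ≤
    (1 / 4) * ∑ w ∈ F, ∑ z ∈ F.erase w, ∑ R ∈ (F.powersetCard p).filter (fun R => w ∈ R ∧ z ∉ R),
      (φ R - φ (insert z (R.erase w))) ^ 2

/-- Transport of the Johnson inequality to the defects of a pair of rows. -/
theorem defect_transport (hJ : JohnsonIneqStmt n) (d : Fin n → ℕ) (f : Gr n → ℝ) (huv : u ≠ v) :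
    ∑ w ∈ otherCols u v, ∑ z ∈ (otherCols u v).erase w, ∑ x ∈ Om d,
      (avg (Om d) (fun t => (keyP u v t, switchable u v w z t)) f x
        - avg (Om d) (keyP u v) f x) ^ 2 ≤
    (1 / 4) * ∑ w ∈ otherCols u v, ∑ z ∈ (otherCols u v).erase w, rectEnergy d f u v w z := by
  unfold rectEnergy
  rw [triple_sum_blocks, triple_sum_blocks, Finset.mul_sum]
  refine Finset.sum_le_sum (fun k hk => ?_)
  obtain ⟨y, hy, rfl⟩ := mem_image.1 hk
  change ∑ w ∈ otherCols u v, ∑ z ∈ (otherCols u v).erase w, ∑ x ∈ blockOf d u v y, _ ≤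
    (1 / 4) * ∑ w ∈ otherCols u v, ∑ z ∈ (otherCols u v).erase w, ∑ x ∈ blockOf d u v y, _
  rw [defect_block_sum huv hy, energy_block_sum huv hy]
  have := hJ (freeSet u v y) (rowOf u (freeSet u v y) y).card (f ∘ paramOf u v y)
  unfold jEnergy
  unfold schemeOf
  linarith

/-- Transport of the Johnson gap to a pair of rows. -/
theorem variance_transport (hJ : JohnsonGapStmt n) (d : Fin n → ℕ) (f : Gr n → ℝ) (huv : u ≠ v) :
    ∑ x ∈ Om d, (f x - avg (Om d) (keyP u v) f x) ^ 2 ≤
    (1 / 8) * ∑ w ∈ otherCols u v, ∑ z ∈ (otherCols u v).erase w, rectEnergy d f u v w z := by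
  unfold rectEnergy
  rw [triple_sum_blocks, Finset.mul_sum,
    ← Finset.sum_fiberwise_of_maps_to (g := keyP u v) (t := (Om d).image (keyP u v))
      (fun y hy => mem_image_of_mem _ hy)]
  refine Finset.sum_le_sum (fun k hk => ?_)
  obtain ⟨y, hy, rfl⟩ := mem_image.1 hk
  change ∑ x ∈ blockOf d u v y, _ ≤
    (1 / 8) * ∑ w ∈ otherCols u v, ∑ z ∈ (otherCols u v).erase w, ∑ x ∈ blockOf d u v y, _
  rw [variance_block huv hy, energy_block_sum huv hy]
  have := hJ (freeSet u v y) (rowOf u (freeSet u v y) y).card (f ∘ paramOf u v y)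
  unfold jEnergy
  unfold schemeOf
  linarith

end Transport

end Vale.Agent.Lib.P335
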