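import Vale.Agent.Lib.P335.Cond

/-!
# Two inequalities on the Johnson scheme

`johnson_ineq`: the projections on the fibres of `oneOf w z` are paid by the swap Dirichlet form.
`johnson_gap`: the spectral gap of the Johnson graph with the constant `1/4`.
-/

set_option linter.unusedSectionVars false

namespace Vale.Agent.Lib.P335

open Finset

variable {V : Type*} [DecidableEq V]

/-- Exactly one of `w, z` lies in `R`. -/
def oneOf (w z : V) (R : Finset V) : Bool := decide ((w ∈ R ∧ z ∉ R) ∨ (z ∈ R ∧ w ∉ R))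

/-- The swap of `w` by `z` in `R`. -/
def swp (w z : V) (R : Finset V) : Finset V := insert z (R.erase w)

lemma swp_swp {w z : V} {R : Finset V} (hw : w ∈ R) (hz : z ∉ R) : swp z w (swp w z R) = R := by
  unfold swp
  rw [erase_insert (by simp [hz]), insert_erase hw]

lemma swp_mem_right (w z : V) (R : Finset V) : z ∈ swp w z R := mem_insert_self _ _

lemma swp_not_mem {w z : V} {R : Finset V} (hwz : w ≠ z) : w ∉ swp w z R := by
  unfold swp
  simp [hwz]

lemma mem_swp_iff {w z x : V} {R : Finset V} (h1 : x ≠ w) (h2 : x ≠ z) : x ∈ swp w z R ↔ x ∈ R := by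
  unfold swp
  simp [h1, h2]

lemma swp_card {w z : V} {R : Finset V} (hw : w ∈ R) (hz : z ∉ R) : (swp w z R).card = R.card := by
  unfold swp
  rw [card_insert_of_notMem (by simp [hz]), card_erase_of_mem hw]
  have := card_pos.mpr ⟨w, hw⟩
  omega

lemma swp_subset {F R : Finset V} {w z : V} (hR : R ⊆ F) (hz : z ∈ F) : swp w z R ⊆ F := by
  unfold swp
  intro x hx
  rcases mem_insert.mp hx with rfl | hx
  · exact hz
  · exact hR (mem_of_mem_erase hx)

/-- A swap is a bijection between the sets of subsets separating `w` from `z`. -/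
lemma sum_swp {F : Finset V} {p : ℕ} {w z : V} (hw : w ∈ F) (hz : z ∈ F) (hwz : w ≠ z)
    (Q : Finset V → Prop) [DecidablePred Q] (hQ : ∀ R, Q (swp w z R) ↔ Q R)
    (hQ' : ∀ R, Q (swp z w R) ↔ Q R) (G : Finset V → ℝ) :
    ∑ R ∈ (powersetCard p F).filter (fun R => (w ∈ R ∧ z ∉ R) ∧ Q R), G (swp w z R)
      = ∑ R ∈ (powersetCard p F).filter (fun R => (z ∈ R ∧ w ∉ R) ∧ Q R), G R := by
  refine sum_nbij' (swp w z) (swp z w) ?_ ?_ ?_ ?_ ?_
  · intro R hR
    rw [mem_filter, mem_powersetCard] at hR ⊢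
    obtain ⟨⟨h1, h2⟩, ⟨h3, h4⟩, h5⟩ := hR
    refine ⟨⟨swp_subset h1 hz, by rw [swp_card h3 h4, h2]⟩, ⟨swp_mem_right _ _ _, swp_not_mem hwz⟩,
      (hQ R).mpr h5⟩
  · intro R hR
    rw [mem_filter, mem_powersetCard] at hR ⊢
    obtain ⟨⟨h1, h2⟩, ⟨h3, h4⟩, h5⟩ := hR
    refine ⟨⟨swp_subset h1 hw, by rw [swp_card h3 h4, h2]⟩, ⟨swp_mem_right _ _ _, swp_not_mem hwz.symm⟩,
      (hQ' R).mpr h5⟩
  · intro R hR
    rw [mem_filter] at hR
    exact swp_swp hR.2.1.1 hR.2.1.2
  · intro R hR
    rw [mem_filter] at hR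
    exact swp_swp hR.2.1.1 hR.2.1.2
  · intro R _
    rfl

/-- The swap energy of an ordered pair. -/
noncomputable def TT (F : Finset V) (p : ℕ) (f : Finset V → ℝ) (w z : V) : ℝ :=
  ∑ R ∈ (powersetCard p F).filter (fun R => w ∈ R ∧ z ∉ R), (f R - f (swp w z R)) ^ 2

lemma TT_nonneg (F : Finset V) (p : ℕ) (f : Finset V → ℝ) (w z : V) : 0 ≤ TT F p f w z :=
  sum_nonneg fun _ _ => sq_nonneg _

lemma TT_symm {F : Finset V} {p : ℕ} {w z : V} (hw : w ∈ F) (hz : z ∈ F) (hwz : w ≠ z) (f : Finset V → ℝ) :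
    TT F p f w z = TT F p f z w := by
  unfold TT
  refine sum_nbij' (swp w z) (swp z w) ?_ ?_ ?_ ?_ ?_
  · intro R hR
    rw [mem_filter, mem_powersetCard] at hR ⊢
    obtain ⟨⟨h1, h2⟩, h3, h4⟩ := hR
    exact ⟨⟨swp_subset h1 hz, by rw [swp_card h3 h4, h2]⟩, swp_mem_right _ _ _, swp_not_mem hwz⟩
  · intro R hR
    rw [mem_filter, mem_powersetCard] at hR ⊢
    obtain ⟨⟨h1, h2⟩, h3, h4⟩ := hR
    exact ⟨⟨swp_subset h1 hw, by rw [swp_card h3 h4, h2]⟩, swp_mem_right _ _ _, swp_not_mem hwz.symm⟩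
  · intro R hR
    rw [mem_filter] at hR
    exact swp_swp hR.2.1 hR.2.2
  · intro R hR
    rw [mem_filter] at hR
    exact swp_swp hR.2.1 hR.2.2
  · intro R hR
    rw [mem_filter] at hR
    rw [swp_swp hR.2.1 hR.2.2]
    ring

/-- The whole swap energy. -/
noncomputable def DD (F : Finset V) (p : ℕ) (f : Finset V → ℝ) : ℝ :=
  ∑ w ∈ F, ∑ z ∈ F.erase w, TT F p f w z

lemma DD_nonneg (F : Finset V) (p : ℕ) (f : Finset V → ℝ) : 0 ≤ DD F p f :=
  sum_nonneg fun _ _ => sum_nonneg fun _ _ => TT_nonneg _ _ _ _ _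

/-- The part of the swap energy moving the point `x` out. -/
noncomputable def CC (F : Finset V) (p : ℕ) (f : Finset V → ℝ) (x : V) : ℝ :=
  ∑ z ∈ F.erase x, TT F p f x z

lemma sum_CC (F : Finset V) (p : ℕ) (f : Finset V → ℝ) : ∑ x ∈ F, CC F p f x = DD F p f := rfl

/-- The energy splits according to whether `x` is moved. -/
lemma DD_split {F : Finset V} {x : V} (hx : x ∈ F) (p : ℕ) (f : Finset V → ℝ) :
    DD F p f = 2 * CC F p f x
      + ∑ w ∈ F.erase x, ∑ z ∈ (F.erase x).erase w, TT F p f w z := by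
  unfold DD
  rw [← add_sum_erase _ _ hx]
  have h1 : ∀ w ∈ F.erase x, ∑ z ∈ F.erase w, TT F p f w z
      = TT F p f x w + ∑ z ∈ (F.erase x).erase w, TT F p f w z := by
    intro w hw
    have hwF := mem_of_mem_erase hw
    have hne := ne_of_mem_erase hw
    have hmem : x ∈ F.erase w := mem_erase.mpr ⟨hne.symm, hx⟩
    rw [← add_sum_erase _ _ hmem, TT_symm hwF hx hne, erase_right_comm]
  rw [sum_congr rfl h1, sum_add_distrib]
  unfold CC
  ring

/-! ### Variances -/

/-- The sum of the squared deviations. -/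
noncomputable def VV (s : Finset (Finset V)) (f : Finset V → ℝ) : ℝ := ∑ R ∈ s, (f R - mean s f) ^ 2

lemma VV_nonneg (s : Finset (Finset V)) (f : Finset V → ℝ) : 0 ≤ VV s f :=
  sum_nonneg fun _ _ => sq_nonneg _

lemma sum_sub_mean (s : Finset (Finset V)) (f : Finset V → ℝ) : ∑ R ∈ s, (f R - mean s f) = 0 := by
  rcases s.eq_empty_or_nonempty with rfl | hs
  · simp
  have hc : (s.card : ℝ) ≠ 0 := by exact_mod_cast (card_pos.mpr hs).ne'
  rw [sum_sub_distrib, sum_const, nsmul_eq_mul]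
  unfold mean
  field_simp
  ring

lemma sum_sq_about (s : Finset (Finset V)) (f : Finset V → ℝ) (c : ℝ) :
    ∑ R ∈ s, (f R - c) ^ 2 = VV s f + (s.card : ℝ) * (mean s f - c) ^ 2 := by
  have h : ∀ R ∈ s, (f R - c) ^ 2
      = (f R - mean s f) ^ 2 + 2 * (mean s f - c) * (f R - mean s f) + (mean s f - c) ^ 2 := fun R _ => by
    ring
  rw [sum_congr rfl h, sum_add_distrib, sum_add_distrib, ← mul_sum, sum_sub_mean, sum_const, nsmul_eq_mul]
  unfold VV
  ring

lemma VV_subsingleton {s : Finset (Finset V)} (hs : s.card ≤ 1) (f : Finset V → ℝ) : VV s f = 0 := by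
  rcases s.eq_empty_or_nonempty with rfl | hne
  · simp [VV]
  obtain ⟨a, rfl⟩ := card_eq_one.mp (le_antisymm hs (card_pos.mpr hne))
  simp [VV, mean]

lemma powersetCard_filter_not {F : Finset V} {x : V} (p : ℕ) :
    (powersetCard p F).filter (fun R => x ∉ R) = powersetCard p (F.erase x) := by
  ext R
  simp only [mem_filter, mem_powersetCard, subset_erase]
  tauto

/-- The sets containing `x` are parametrised by the sets of the erased ground set. -/
lemma sum_filter_mem {F : Finset V} {x : V} (hx : x ∈ F) (q : ℕ) (G : Finset V → ℝ) :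
    ∑ R ∈ (powersetCard (q + 1) F).filter (fun R => x ∈ R), G R
      = ∑ R ∈ powersetCard q (F.erase x), G (insert x R) := by
  symm
  refine sum_nbij' (insert x) (fun R => R.erase x) ?_ ?_ ?_ ?_ ?_
  · intro R hR
    rw [mem_powersetCard, subset_erase] at hR
    rw [mem_filter, mem_powersetCard]
    refine ⟨⟨insert_subset hx hR.1.1, ?_⟩, mem_insert_self _ _⟩
    rw [card_insert_of_notMem hR.1.2, hR.2]
  · intro R hR
    rw [mem_filter, mem_powersetCard] at hR
    rw [mem_powersetCard, subset_erase]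
    refine ⟨⟨(erase_subset _ _).trans hR.1.1, notMem_erase _ _⟩, ?_⟩
    rw [card_erase_of_mem hR.2, hR.1.2]
    rfl
  · intro R hR
    rw [mem_powersetCard, subset_erase] at hR
    exact erase_insert hR.1.2
  · intro R hR
    rw [mem_filter] at hR
    exact insert_erase hR.2
  · intro R _
    rfl

lemma card_filter_mem {F : Finset V} {x : V} (hx : x ∈ F) (q : ℕ) :
    (((powersetCard (q + 1) F).filter (fun R => x ∈ R)).card : ℝ)
      = ((powersetCard q (F.erase x)).card : ℝ) := by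
  have := sum_filter_mem hx q (fun _ => (1 : ℝ))
  simpa using this

lemma VV_filter_mem {F : Finset V} {x : V} (hx : x ∈ F) (q : ℕ) (f : Finset V → ℝ) :
    VV ((powersetCard (q + 1) F).filter (fun R => x ∈ R)) f
      = VV (powersetCard q (F.erase x)) (fun R => f (insert x R)) := by
  have hm : mean ((powersetCard (q + 1) F).filter (fun R => x ∈ R)) f
      = mean (powersetCard q (F.erase x)) (fun R => f (insert x R)) := by
    unfold mean
    rw [sum_filter_mem hx q f, card_filter_mem hx q]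
  unfold VV
  rw [hm, sum_filter_mem hx q (fun R => (f R - mean (powersetCard q (F.erase x)) (fun R => f (insert x R))) ^ 2)]

/-- The swap energy of a pair of points other than `x` splits according to whether `x` is in the set. -/
lemma TT_split {F : Finset V} {x w z : V} (hx : x ∈ F) (hw : w ≠ x) (hz : z ≠ x) (q : ℕ) (f : Finset V → ℝ) :
    TT F (q + 1) f w z = TT (F.erase x) (q + 1) f w z + TT (F.erase x) q (fun R => f (insert x R)) w z := by
  unfold TT
  rw [← sum_filter_add_sum_filter_not ((powersetCard (q + 1) F).filter (fun R => w ∈ R ∧ z ∉ R))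
    (fun R => x ∉ R)]
  congr 1
  · have e : ((powersetCard (q + 1) F).filter (fun R => w ∈ R ∧ z ∉ R)).filter (fun R => x ∉ R)
        = ((powersetCard (q + 1) F).filter (fun R => x ∉ R)).filter (fun R => w ∈ R ∧ z ∉ R) := by
      rw [filter_filter, filter_filter]
      refine filter_congr fun R _ => ?_
      tauto
    rw [e, powersetCard_filter_not]
  · simp only [not_not]
    have e : ((powersetCard (q + 1) F).filter (fun R => w ∈ R ∧ z ∉ R)).filter (fun R => x ∈ R)
        = ((powersetCard (q + 1) F).filter (fun R => x ∈ R)).filter (fun R => w ∈ R ∧ z ∉ R) := by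
      rw [filter_filter, filter_filter]
      refine filter_congr fun R _ => ?_
      tauto
    rw [e, sum_filter, sum_filter_mem hx q, sum_filter]
    refine sum_congr rfl fun R _ => ?_
    have e1 : w ∈ insert x R ↔ w ∈ R := by simp [hw]
    have e2 : z ∈ insert x R ↔ z ∈ R := by simp [hz]
    simp only [e1, e2]
    have e3 : swp w z (insert x R) = insert x (swp w z R) := by
      unfold swp
      rw [erase_insert_of_ne hw.symm, insert_comm]
    rw [e3]

/-- The energy of the ground set without `x` in terms of the sums of the swap energies. -/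
lemma DD_erase_sum {F : Finset V} {x : V} (hx : x ∈ F) (q : ℕ) (f : Finset V → ℝ) :
    DD (F.erase x) (q + 1) f + DD (F.erase x) q (fun R => f (insert x R))
      = ∑ w ∈ F.erase x, ∑ z ∈ (F.erase x).erase w, TT F (q + 1) f w z := by
  unfold DD
  rw [← sum_add_distrib]
  refine sum_congr rfl fun w hw => ?_
  rw [← sum_add_distrib]
  refine sum_congr rfl fun z hz => ?_
  rw [TT_split hx (ne_of_mem_erase hw) (ne_of_mem_erase (mem_of_mem_erase hz))]


/-! ### The cross term -/

lemma sq_double_sum_le {α β : Type*} (A : Finset α) (I : α → Finset β) (h : α → β → ℝ) :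
    (∑ a ∈ A, ∑ b ∈ I a, h a b) ^ 2
      ≤ ((∑ a ∈ A, (I a).card : ℕ) : ℝ) * ∑ a ∈ A, ∑ b ∈ I a, (h a b) ^ 2 := by
  have h1 := sq_sum_le_card_mul_sum_sq (s := A.sigma I) (f := fun p => h p.1 p.2)
  rw [sum_sigma, sum_sigma, card_sigma] at h1
  exact h1

lemma sum_I1 {F : Finset V} {x : V} (hx : x ∈ F) (p : ℕ) (G : Finset V → ℝ) :
    ∑ z ∈ F.erase x, ∑ R ∈ (powersetCard p F).filter (fun R => x ∈ R ∧ z ∉ R), G R
      = ((F.card : ℝ) - p) * ∑ R ∈ (powersetCard p F).filter (fun R => x ∈ R), G R := by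
  have e : ∀ z ∈ F.erase x, ∑ R ∈ (powersetCard p F).filter (fun R => x ∈ R ∧ z ∉ R), G R
      = ∑ R ∈ (powersetCard p F).filter (fun R => x ∈ R), if z ∉ R then G R else 0 := by
    intro z _
    rw [← sum_filter, filter_filter]
  rw [sum_congr rfl e, sum_comm, mul_sum]
  refine sum_congr rfl fun R hR => ?_
  rw [mem_filter, mem_powersetCard] at hR
  obtain ⟨⟨h1, h2⟩, h3⟩ := hR
  rw [← sum_filter, sum_const, nsmul_eq_mul]
  congr 1
  have e2 : (F.erase x).filter (fun z => z ∉ R) = F \ R := by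
    ext z
    simp only [mem_filter, mem_erase, mem_sdiff]
    constructor
    · rintro ⟨⟨_, h5⟩, h6⟩
      exact ⟨h5, h6⟩
    · rintro ⟨h5, h6⟩
      exact ⟨⟨fun e => h6 (e ▸ h3), h5⟩, h6⟩
  rw [e2, card_sdiff_of_subset h1, h2, Nat.cast_sub (by rw [← h2]; exact card_le_card h1)]

lemma sum_I0 {F : Finset V} {x : V} (p : ℕ) (G : Finset V → ℝ) :
    ∑ z ∈ F.erase x, ∑ R ∈ (powersetCard p F).filter (fun R => z ∈ R ∧ x ∉ R), G R
      = (p : ℝ) * ∑ R ∈ (powersetCard p F).filter (fun R => x ∉ R), G R := by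
  have e : ∀ z ∈ F.erase x, ∑ R ∈ (powersetCard p F).filter (fun R => z ∈ R ∧ x ∉ R), G R
      = ∑ R ∈ (powersetCard p F).filter (fun R => x ∉ R), if z ∈ R then G R else 0 := by
    intro z _
    rw [← sum_filter, filter_filter]
    refine sum_congr (filter_congr fun R _ => ?_) fun _ _ => rfl
    tauto
  rw [sum_congr rfl e, sum_comm, mul_sum]
  refine sum_congr rfl fun R hR => ?_
  rw [mem_filter, mem_powersetCard] at hR
  obtain ⟨⟨h1, h2⟩, h3⟩ := hR
  rw [← sum_filter, sum_const, nsmul_eq_mul]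
  congr 1
  have e2 : (F.erase x).filter (fun z => z ∈ R) = R := by
    ext z
    simp only [mem_filter, mem_erase]
    constructor
    · rintro ⟨_, h6⟩
      exact h6
    · intro h6
      exact ⟨⟨fun e => h3 (e ▸ h6), h1 h6⟩, h6⟩
  rw [e2, h2]

/-- The difference of the two groups is controlled by the part of the energy moving `x`. -/
lemma cross_cs {F : Finset V} {x : V} (hx : x ∈ F) (p : ℕ) (f : Finset V → ℝ) :
    (((F.card : ℝ) - p) * ∑ R ∈ (powersetCard p F).filter (fun R => x ∈ R), f R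
        - (p : ℝ) * ∑ R ∈ (powersetCard p F).filter (fun R => x ∉ R), f R) ^ 2
      ≤ (((F.card : ℝ) - p) * (((powersetCard p F).filter (fun R => x ∈ R)).card : ℝ)) * CC F p f x := by
  have h1 := sq_double_sum_le (F.erase x) (fun z => (powersetCard p F).filter (fun R => x ∈ R ∧ z ∉ R))
    (fun z R => f R - f (swp x z R))
  have e1 : ∑ z ∈ F.erase x, ∑ R ∈ (powersetCard p F).filter (fun R => x ∈ R ∧ z ∉ R), (f R - f (swp x z R))
      = ((F.card : ℝ) - p) * ∑ R ∈ (powersetCard p F).filter (fun R => x ∈ R), f R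
        - (p : ℝ) * ∑ R ∈ (powersetCard p F).filter (fun R => x ∉ R), f R := by
    simp only [sum_sub_distrib]
    rw [sum_I1 hx p f, ← sum_I0 (x := x) p f]
    congr 1
    refine sum_congr rfl fun z hz => ?_
    have := sum_swp (p := p) hx (mem_of_mem_erase hz) (ne_of_mem_erase hz).symm (fun _ => True)
      (fun _ => Iff.rfl) (fun _ => Iff.rfl) f
    simpa using this
  have e2 : ((∑ z ∈ F.erase x, ((powersetCard p F).filter (fun R => x ∈ R ∧ z ∉ R)).card : ℕ) : ℝ)
      = ((F.card : ℝ) - p) * (((powersetCard p F).filter (fun R => x ∈ R)).card : ℝ) := by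
    have := sum_I1 hx p (fun _ => (1 : ℝ))
    simp only [sum_const, nsmul_eq_mul, mul_one] at this
    push_cast
    exact this
  rw [e1, e2] at h1
  exact h1

/-- The algebra of the cross term. -/
lemma cross_alg {m p n0 n1 A B C : ℝ} (hm : 0 < m) (hp : 0 ≤ p) (hn0 : 0 ≤ n0) (hn1 : 0 ≤ n1)
    (he : (m - p) * n1 = p * n0) (hcs : ((m - p) * A - p * B) ^ 2 ≤ ((m - p) * n1) * C) (hC : 0 ≤ C)
    (hA : n1 = 0 → A = 0) (hB : n0 = 0 → B = 0) :
    m * (n1 * (A / n1 - (A + B) / (n0 + n1)) ^ 2 + n0 * (B / n0 - (A + B) / (n0 + n1)) ^ 2) ≤ C := by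
  rcases hn0.eq_or_lt with h0 | h0
  · have hB0 := hB h0.symm
    rw [← h0, hB0]
    rcases hn1.eq_or_lt with h1 | h1
    · rw [← h1]
      simpa using hC
    · have : A / n1 - (A + 0) / (0 + n1) = 0 := by
        rw [add_zero, zero_add, sub_self]
      rw [this]
      simpa using hC
  rcases hn1.eq_or_lt with h1 | h1
  · have hA0 := hA h1.symm
    rw [← h1, hA0]
    have : B / n0 - (0 + B) / (n0 + 0) = 0 := by
      rw [add_zero, zero_add, sub_self]
    rw [this]
    simpa using hC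
  have hpos : 0 < p * n0 := by
    by_contra hc
    have hp0 : p = 0 := by
      have h3 : p * n0 ≤ 0 := not_lt.mp hc
      nlinarith
    rw [hp0] at he
    have : m * n1 = 0 := by simpa using he
    have h4 : 0 < m * n1 := mul_pos hm h1
    linarith
  set e : ℝ := p * n0 with hedef
  have hmp : m - p = e / n1 := by
    rw [eq_div_iff h1.ne']
    exact he
  have hp' : p = e / n0 := by
    rw [eq_div_iff h0.ne']
  have key : e * (A / n1 - B / n0) ^ 2 ≤ C := by
    have e1 : (m - p) * A - p * B = e * (A / n1 - B / n0) := by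
      rw [hmp, hp']
      field_simp
    rw [e1, he] at hcs
    have h5 : e * (e * (A / n1 - B / n0) ^ 2) ≤ e * C := by
      calc _ = (e * (A / n1 - B / n0)) ^ 2 := by ring
        _ ≤ _ := hcs
    exact le_of_mul_le_mul_left h5 hpos
  refine le_trans (le_of_eq ?_) key
  have hm' : m * (n0 * n1) = e * (n0 + n1) := by
    have : m * (n0 * n1) = (m - p) * n1 * n0 + p * n0 * n1 := by ring
    rw [this, he]
    ring
  have hs : 0 < n0 + n1 := by positivity
  have h6 : m = e * (n0 + n1) / (n0 * n1) := by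
    rw [eq_div_iff (by positivity)]
    exact hm'
  rw [h6]
  field_simp
  ring


lemma count_rel {F : Finset V} {x : V} (hx : x ∈ F) (p : ℕ) :
    ((F.card : ℝ) - p) * (((powersetCard p F).filter (fun R => x ∈ R)).card : ℝ)
      = (p : ℝ) * (((powersetCard p F).filter (fun R => x ∉ R)).card : ℝ) := by
  have h1 := sum_I1 hx p (fun _ => (1 : ℝ))
  have h0 := sum_I0 (F := F) (x := x) p (fun _ => (1 : ℝ))
  simp only [sum_const, nsmul_eq_mul, mul_one] at h1 h0
  rw [← h1, ← h0]
  refine sum_congr rfl fun z hz => ?_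
  have := sum_swp (p := p) hx (mem_of_mem_erase hz) (ne_of_mem_erase hz).symm (fun _ => True)
    (fun _ => Iff.rfl) (fun _ => Iff.rfl) (fun _ => (1 : ℝ))
  simpa using this

/-- The variance splits along the position of `x`. -/
lemma var_step {F : Finset V} {x : V} (hx : x ∈ F) (p : ℕ) (f : Finset V → ℝ) :
    (F.card : ℝ) * (VV (powersetCard p F) f - VV ((powersetCard p F).filter (fun R => x ∈ R)) f
        - VV ((powersetCard p F).filter (fun R => x ∉ R)) f) ≤ CC F p f x := by
  set s := powersetCard p F with hs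
  set s1 := s.filter (fun R => x ∈ R) with hs1
  set s0 := s.filter (fun R => x ∉ R) with hs0
  set A : ℝ := ∑ R ∈ s1, f R with hA
  set B : ℝ := ∑ R ∈ s0, f R with hB
  set n1 : ℝ := (s1.card : ℝ) with hn1
  set n0 : ℝ := (s0.card : ℝ) with hn0
  have hsum : ∑ R ∈ s, f R = B + A := by
    rw [hA, hB, hs1, hs0, add_comm]
    have := sum_filter_add_sum_filter_not s (fun R => x ∈ R) f
    rw [this]
  have hcard : (s.card : ℝ) = n0 + n1 := by
    have := sum_filter_add_sum_filter_not s (fun R => x ∈ R) (fun _ => (1 : ℝ))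
    simp only [sum_const, nsmul_eq_mul, mul_one] at this
    rw [hn0, hn1, ← this, hs0, hs1, add_comm]
  have hmean : mean s f = (A + B) / (n0 + n1) := by
    unfold mean
    rw [hsum, hcard, add_comm B]
  have hV : VV s f = VV s1 f + n1 * (A / n1 - (A + B) / (n0 + n1)) ^ 2
      + (VV s0 f + n0 * (B / n0 - (A + B) / (n0 + n1)) ^ 2) := by
    have h1 := sum_sq_about s1 f (mean s f)
    have h2 := sum_sq_about s0 f (mean s f)
    have h3 := sum_filter_add_sum_filter_not s (fun R => x ∈ R) (fun R => (f R - mean s f) ^ 2)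
    have h4 : VV s f = VV s1 f + n1 * (A / n1 - mean s f) ^ 2 + (VV s0 f + n0 * (B / n0 - mean s f) ^ 2) := by
      calc VV s f = ∑ R ∈ s, (f R - mean s f) ^ 2 := rfl
        _ = ∑ R ∈ s1, (f R - mean s f) ^ 2 + ∑ R ∈ s0, (f R - mean s f) ^ 2 := h3.symm
        _ = _ := by rw [h1, h2]; rfl
    rw [h4, hmean]
  have hkey := cross_alg (m := (F.card : ℝ)) (p := (p : ℝ)) (n0 := n0) (n1 := n1) (A := A) (B := B)
    (C := CC F p f x) (by exact_mod_cast card_pos.mpr ⟨x, hx⟩) (Nat.cast_nonneg _) (Nat.cast_nonneg _)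
    (Nat.cast_nonneg _) (count_rel hx p) (cross_cs hx p f)
    (sum_nonneg fun _ _ => TT_nonneg _ _ _ _ _)
    (fun h => by
      have h' : ((s1.card : ℕ) : ℝ) = 0 := h
      have : s1 = ∅ := card_eq_zero.mp (Nat.cast_eq_zero.mp h')
      rw [hA, this, sum_empty])
    (fun h => by
      have h' : ((s0.card : ℕ) : ℝ) = 0 := h
      have : s0 = ∅ := card_eq_zero.mp (Nat.cast_eq_zero.mp h')
      rw [hB, this, sum_empty])
  refine le_trans (le_of_eq ?_) hkey
  rw [hV]
  ring

/-- The gap: the induction on the ground set. -/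
theorem gap_aux : ∀ (m : ℕ) (F : Finset V), F.card = m → ∀ (p : ℕ) (f : Finset V → ℝ),
    VV (powersetCard p F) f ≤ (1 / 4) * DD F p f := by
  intro m
  induction m with
  | zero =>
    intro F hF p f
    have h0 : VV (powersetCard p F) f = 0 := by
      apply VV_subsingleton
      rw [card_powersetCard, hF]
      cases p with
      | zero => simp
      | succ k => simp
    rw [h0]
    have := DD_nonneg F p f
    linarith
  | succ k ih =>
    intro F hF p f
    by_cases hk : k = 0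
    · have h0 : VV (powersetCard p F) f = 0 := by
        apply VV_subsingleton
        rw [card_powersetCard, hF, hk]
        rcases p with _ | _ | p
        · simp
        · simp
        · have : (0 + 1).choose (p + 1 + 1) = 0 := Nat.choose_eq_zero_of_lt (by omega)
          rw [this]
          omega
      rw [h0]
      have := DD_nonneg F p f
      linarith
    rcases p with _ | q
    · have h0 : VV (powersetCard 0 F) f = 0 := by
        apply VV_subsingleton
        simp
      rw [h0]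
      have := DD_nonneg F 0 f
      linarith
    have hm : (2 : ℝ) ≤ (F.card : ℝ) := by
      rw [hF]
      have : 2 ≤ k + 1 := by omega
      exact_mod_cast this
    set M : ℝ := (F.card : ℝ) with hM
    set D : ℝ := DD F (q + 1) f with hD
    set W : ℝ := VV (powersetCard (q + 1) F) f with hW
    have hD0 : 0 ≤ D := DD_nonneg _ _ _
    have hstep : ∀ x ∈ F, M * W ≤ M * ((1 / 4) * (D - 2 * CC F (q + 1) f x)) + CC F (q + 1) f x := by
      intro x hx
      have hcard : (F.erase x).card = k := by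
        rw [card_erase_of_mem hx, hF]
        rfl
      have h1 := ih (F.erase x) hcard (q + 1) f
      have h2 := ih (F.erase x) hcard q (fun R => f (insert x R))
      have h3 := var_step hx (q + 1) f
      rw [VV_filter_mem hx q f, powersetCard_filter_not] at h3
      have h4 := DD_erase_sum hx q f
      have h5 := DD_split hx (q + 1) f
      have h6 : VV (powersetCard (q + 1) (F.erase x)) f + VV (powersetCard q (F.erase x)) (fun R => f (insert x R))
          ≤ (1 / 4) * (D - 2 * CC F (q + 1) f x) := by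
        have : D - 2 * CC F (q + 1) f x
            = DD (F.erase x) (q + 1) f + DD (F.erase x) q (fun R => f (insert x R)) := by
          rw [h4, hD, h5]
          ring
        rw [this]
        linarith
      have h7 := mul_le_mul_of_nonneg_left h6 (by positivity : (0 : ℝ) ≤ M)
      have : M * W = M * (W - VV (powersetCard q (F.erase x)) (fun R => f (insert x R))
          - VV (powersetCard (q + 1) (F.erase x)) f)
          + M * (VV (powersetCard (q + 1) (F.erase x)) f
            + VV (powersetCard q (F.erase x)) (fun R => f (insert x R))) := by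
        ring
      rw [this]
      exact add_comm (M * ((1 / 4) * (D - 2 * CC F (q + 1) f x))) _ ▸ add_le_add h3 h7
    have hsum := sum_le_sum hstep
    rw [sum_const, nsmul_eq_mul, sum_add_distrib, ← mul_sum, ← mul_sum, sum_sub_distrib, sum_const,
      nsmul_eq_mul, ← mul_sum, sum_CC, ← hM, ← hD] at hsum
    have hM0 : 0 < M := by linarith
    have hfin : M * M * W ≤ M * M * ((1 / 4) * D) := by
      have h8 : (1 - M / 2) * D ≤ 0 := by
        have : 1 - M / 2 ≤ 0 := by linarith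
        exact mul_nonpos_of_nonpos_of_nonneg this hD0
      nlinarith
    exact le_of_mul_le_mul_left hfin (by positivity)

/-- The spectral gap of the Johnson graph with the constant `1/4`. -/
theorem johnson_gap (F : Finset V) (p : ℕ) (f : Finset V → ℝ) :
    ∑ R ∈ F.powersetCard p, (f R - mean (F.powersetCard p) f) ^ 2
      ≤ (1 / 4) * ∑ w ∈ F, ∑ z ∈ F.erase w, ∑ R ∈ (F.powersetCard p).filter (fun R => w ∈ R ∧ z ∉ R),
          (f R - f (insert z (R.erase w))) ^ 2 :=
  gap_aux F.card F rfl p f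


/-! ### The statistics of a function on the Johnson scheme -/

/-- The sum of `g` over the sets containing `w`. -/
noncomputable def UU (F : Finset V) (p : ℕ) (g : Finset V → ℝ) (w : V) : ℝ :=
  ∑ R ∈ (powersetCard p F).filter (fun R => w ∈ R), g R

/-- The sum of `g` over the sets containing `w` and `z`. -/
noncomputable def WW (F : Finset V) (p : ℕ) (g : Finset V → ℝ) (w z : V) : ℝ :=
  ∑ R ∈ (powersetCard p F).filter (fun R => w ∈ R ∧ z ∈ R), g R

lemma WW_symm (F : Finset V) (p : ℕ) (g : Finset V → ℝ) (w z : V) : WW F p g w z = WW F p g z w := by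
  unfold WW
  refine sum_congr (filter_congr fun R _ => and_comm) fun _ _ => rfl

/-- The sum of the `U` over the ground set. -/
lemma sum_UU (F : Finset V) (p : ℕ) (g : Finset V → ℝ) :
    ∑ w ∈ F, UU F p g w = (p : ℝ) * ∑ R ∈ powersetCard p F, g R := by
  unfold UU
  have e : ∀ w ∈ F, ∑ R ∈ (powersetCard p F).filter (fun R => w ∈ R), g R
      = ∑ R ∈ powersetCard p F, if w ∈ R then g R else 0 := fun w _ => sum_filter _ _
  rw [sum_congr rfl e, sum_comm, mul_sum]
  refine sum_congr rfl fun R hR => ?_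
  rw [mem_powersetCard] at hR
  rw [← sum_filter, sum_const, nsmul_eq_mul]
  congr 1
  have e2 : F.filter (fun z => z ∈ R) = R := by
    ext z
    simp only [mem_filter]
    exact ⟨fun h => h.2, fun h => ⟨hR.1 h, h⟩⟩
  rw [e2, hR.2]

/-- The sum of the `W` over the second argument. -/
lemma sum_WW {F : Finset V} {w : V} (p : ℕ) (g : Finset V → ℝ) :
    ∑ z ∈ F.erase w, WW F p g w z = ((p : ℝ) - 1) * UU F p g w := by
  unfold WW UU
  have e : ∀ z ∈ F.erase w, ∑ R ∈ (powersetCard p F).filter (fun R => w ∈ R ∧ z ∈ R), g R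
      = ∑ R ∈ (powersetCard p F).filter (fun R => w ∈ R), if z ∈ R then g R else 0 := by
    intro z _
    rw [← sum_filter, filter_filter]
  rw [sum_congr rfl e, sum_comm, mul_sum]
  refine sum_congr rfl fun R hR => ?_
  rw [mem_filter, mem_powersetCard] at hR
  obtain ⟨⟨h1, h2⟩, h3⟩ := hR
  rw [← sum_filter, sum_const, nsmul_eq_mul]
  congr 1
  have e2 : (F.erase w).filter (fun z => z ∈ R) = R.erase w := by
    ext z
    simp only [mem_filter, mem_erase]
    constructor
    · rintro ⟨⟨h5, _⟩, h6⟩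
      exact ⟨h5, h6⟩
    · rintro ⟨h5, h6⟩
      exact ⟨⟨h5, h1 h6⟩, h6⟩
  have hp : 1 ≤ p := by
    rw [← h2]
    exact card_pos.mpr ⟨w, h3⟩
  rw [e2, card_erase_of_mem h3, h2, Nat.cast_sub hp]
  simp

lemma filter_sep {s : Finset (Finset V)} (g : Finset V → ℝ) (a b : Finset V → Prop) [DecidablePred a]
    [DecidablePred b] :
    ∑ R ∈ s.filter a, g R = ∑ R ∈ s.filter (fun R => a R ∧ b R), g R
      + ∑ R ∈ s.filter (fun R => a R ∧ ¬ b R), g R := by
  rw [← sum_filter_add_sum_filter_not (s.filter a) b, filter_filter, filter_filter]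

/-- The total sum of the differences along a swap. -/
lemma sum_swap_total {F : Finset V} {p : ℕ} {w y : V} (hw : w ∈ F) (hy : y ∈ F) (hwy : w ≠ y)
    (g : Finset V → ℝ) :
    ∑ R ∈ (powersetCard p F).filter (fun R => w ∈ R ∧ y ∉ R), (g R - g (swp w y R))
      = UU F p g w - UU F p g y := by
  rw [sum_sub_distrib]
  have h1 := sum_swp (p := p) hw hy hwy (fun _ => True) (fun _ => Iff.rfl) (fun _ => Iff.rfl) g
  simp only [and_true] at h1
  rw [h1]
  unfold UU
  have e1 := filter_sep (s := powersetCard p F) g (fun R => w ∈ R) (fun R => y ∈ R)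
  have e2 := filter_sep (s := powersetCard p F) g (fun R => y ∈ R) (fun R => w ∈ R)
  have e3 : (powersetCard p F).filter (fun R => y ∈ R ∧ w ∈ R) = (powersetCard p F).filter (fun R => w ∈ R ∧ y ∈ R) :=
    filter_congr fun R _ => and_comm
  rw [e3] at e2
  rw [e1, e2]
  ring

/-- The partial sum of the differences along a swap. -/
lemma sum_swap_mem {F : Finset V} {p : ℕ} {w y z : V} (hw : w ∈ F) (hy : y ∈ F) (hwy : w ≠ y)
    (hzw : z ≠ w) (hzy : z ≠ y) (g : Finset V → ℝ) :
    ∑ R ∈ (powersetCard p F).filter (fun R => (w ∈ R ∧ y ∉ R) ∧ z ∈ R), (g R - g (swp w y R))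
      = WW F p g w z - WW F p g y z := by
  rw [sum_sub_distrib]
  have h1 := sum_swp (p := p) hw hy hwy (fun R => z ∈ R) (fun _ => mem_swp_iff hzw hzy)
    (fun _ => mem_swp_iff hzy hzw) g
  rw [h1]
  unfold WW
  have e1 := filter_sep (s := powersetCard p F) g (fun R => w ∈ R ∧ z ∈ R) (fun R => y ∈ R)
  have e2 := filter_sep (s := powersetCard p F) g (fun R => y ∈ R ∧ z ∈ R) (fun R => w ∈ R)
  have e3 : (powersetCard p F).filter (fun R => (y ∈ R ∧ z ∈ R) ∧ w ∈ R)
      = (powersetCard p F).filter (fun R => (w ∈ R ∧ z ∈ R) ∧ y ∈ R) :=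
    filter_congr fun R _ => by tauto
  have e4 : (powersetCard p F).filter (fun R => (w ∈ R ∧ z ∈ R) ∧ ¬ y ∈ R)
      = (powersetCard p F).filter (fun R => (w ∈ R ∧ y ∉ R) ∧ z ∈ R) :=
    filter_congr fun R _ => by tauto
  have e5 : (powersetCard p F).filter (fun R => (y ∈ R ∧ z ∈ R) ∧ ¬ w ∈ R)
      = (powersetCard p F).filter (fun R => (y ∈ R ∧ w ∉ R) ∧ z ∈ R) :=
    filter_congr fun R _ => by tauto
  rw [e3, e5] at e2
  rw [e4] at e1
  rw [e1, e2]
  ring

lemma sum_swap_not_mem {F : Finset V} {p : ℕ} {w y z : V} (hw : w ∈ F) (hy : y ∈ F) (hwy : w ≠ y)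
    (hzw : z ≠ w) (hzy : z ≠ y) (g : Finset V → ℝ) :
    ∑ R ∈ (powersetCard p F).filter (fun R => (w ∈ R ∧ y ∉ R) ∧ ¬ z ∈ R), (g R - g (swp w y R))
      = UU F p g w - UU F p g y - (WW F p g w z - WW F p g y z) := by
  rw [← sum_swap_total hw hy hwy, ← sum_swap_mem hw hy hwy hzw hzy,
    filter_sep (s := powersetCard p F) (fun R => g R - g (swp w y R)) (fun R => w ∈ R ∧ y ∉ R)
      (fun R => z ∈ R)]
  ring


/-! ### Algebra of sums over the ground set -/

lemma sum_sq_diff {α : Type*} (A : Finset α) (x : α → ℝ) :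
    ∑ a ∈ A, ∑ b ∈ A, (x a - x b) ^ 2 = 2 * (A.card : ℝ) * ∑ a ∈ A, x a ^ 2 - 2 * (∑ a ∈ A, x a) ^ 2 := by
  have e : ∀ a ∈ A, ∑ b ∈ A, (x a - x b) ^ 2
      = (A.card : ℝ) * x a ^ 2 - 2 * x a * (∑ b ∈ A, x b) + ∑ b ∈ A, x b ^ 2 := by
    intro a _
    have : ∀ b ∈ A, (x a - x b) ^ 2 = x a ^ 2 - 2 * x a * x b + x b ^ 2 := fun b _ => by ring
    rw [sum_congr rfl this, sum_add_distrib, sum_sub_distrib, sum_const, nsmul_eq_mul, ← mul_sum]
  rw [sum_congr rfl e, sum_add_distrib, sum_sub_distrib, ← mul_sum, sum_const, nsmul_eq_mul, ← sum_mul, ← mul_sum]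
  ring

lemma sum_sq_add {α : Type*} (A : Finset α) (x : α → ℝ) :
    ∑ a ∈ A, ∑ b ∈ A, (x a + x b) ^ 2 = 2 * (A.card : ℝ) * ∑ a ∈ A, x a ^ 2 + 2 * (∑ a ∈ A, x a) ^ 2 := by
  have e : ∀ a ∈ A, ∑ b ∈ A, (x a + x b) ^ 2
      = (A.card : ℝ) * x a ^ 2 + 2 * x a * (∑ b ∈ A, x b) + ∑ b ∈ A, x b ^ 2 := by
    intro a _
    have : ∀ b ∈ A, (x a + x b) ^ 2 = x a ^ 2 + 2 * x a * x b + x b ^ 2 := fun b _ => by ring
    rw [sum_congr rfl this, sum_add_distrib, sum_add_distrib, sum_const, nsmul_eq_mul, ← mul_sum]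
  rw [sum_congr rfl e, sum_add_distrib, sum_add_distrib, ← mul_sum, sum_const, nsmul_eq_mul, ← sum_mul, ← mul_sum]
  ring

lemma sum_erase_comm (F : Finset V) (G : V → V → ℝ) :
    ∑ w ∈ F, ∑ z ∈ F.erase w, G w z = ∑ z ∈ F, ∑ w ∈ F.erase z, G w z := by
  refine sum_comm' fun x y => ?_
  simp only [mem_erase]
  constructor
  · rintro ⟨h1, h2, h3⟩
    exact ⟨⟨h2.symm, h1⟩, h3⟩
  · rintro ⟨⟨h1, h2⟩, h3⟩
    exact ⟨h2, h1.symm, h3⟩

lemma triple_exchange (F : Finset V) (W : V → V → V → ℝ) (hW : ∀ w z, W w w z = 0) :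
    ∑ w ∈ F, ∑ y ∈ F.erase w, ∑ z ∈ (F.erase w).erase y, W w y z
      = ∑ z ∈ F, ∑ w ∈ F.erase z, ∑ y ∈ F.erase z, W w y z := by
  rw [sum_erase_comm F (fun z w => ∑ y ∈ F.erase z, W w y z)]
  refine sum_congr rfl fun w hw => ?_
  have h1 : ∑ z ∈ F.erase w, ∑ y ∈ F.erase z, W w y z = ∑ y ∈ F, ∑ z ∈ (F.erase w).erase y, W w y z := by
    refine sum_comm' fun x y => ?_
    simp only [mem_erase]
    constructor
    · rintro ⟨⟨h1, h2⟩, h3, h4⟩
      exact ⟨⟨h3.symm, h1, h2⟩, h4⟩
    · rintro ⟨⟨h1, h2, h3⟩, h4⟩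
      exact ⟨⟨h2, h3⟩, h1.symm, h4⟩
  rw [h1, ← add_sum_erase F _ hw]
  have h2 : ∑ z ∈ (F.erase w).erase w, W w w z = 0 := sum_eq_zero fun z _ => hW w z
  rw [h2, zero_add]

/-- The symmetric sum over the ordered pairs in terms of the sum over all the pairs. -/
lemma sum_erase_eq (F : Finset V) (G : V → V → ℝ) :
    ∑ w ∈ F, ∑ z ∈ F.erase w, G w z = ∑ w ∈ F, ∑ z ∈ F, G w z - ∑ w ∈ F, G w w := by
  rw [← sum_sub_distrib]
  refine sum_congr rfl fun w hw => ?_
  rw [← add_sum_erase F _ hw]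
  ring

section Abstract

variable {F : Finset V} {U : V → ℝ} {W : V → V → ℝ} {β M : ℝ}

/-- The second statistics with the first statistics removed. -/
def VVab (U : V → ℝ) (W : V → V → ℝ) (β : ℝ) (w z : V) : ℝ := W w z - β * (U w + U z)

lemma VVab_symm (hW : ∀ w z, W w z = W z w) (w z : V) : VVab U W β w z = VVab U W β z w := by
  unfold VVab
  rw [hW, add_comm (U w)]

lemma VVab_sum (hM : M = F.card) (hU : ∑ w ∈ F, U w = 0)
    (hWsum : ∀ w ∈ F, ∑ z ∈ F.erase w, W w z = β * (M - 2) * U w) {w : V} (hw : w ∈ F) :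
    ∑ z ∈ F.erase w, VVab U W β w z = 0 := by
  unfold VVab
  rw [sum_sub_distrib, hWsum w hw, ← mul_sum, sum_add_distrib, sum_const, nsmul_eq_mul,
    card_erase_of_mem hw]
  have h1 : ∑ z ∈ F.erase w, U z = -U w := by
    have := add_sum_erase F U hw
    linarith
  rw [h1]
  have h2 : 1 ≤ F.card := card_pos.mpr ⟨w, hw⟩
  rw [Nat.cast_sub h2, ← hM]
  push_cast
  ring

lemma abstract_A3 (hM : M = F.card) (hU : ∑ w ∈ F, U w = 0) :
    ∑ w ∈ F, ∑ y ∈ F.erase w, (U w - U y) ^ 2 = 2 * M * ∑ w ∈ F, U w ^ 2 := by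
  rw [sum_erase_eq, sum_sq_diff, hU, ← hM]
  simp

lemma abstract_A4 (hM : M = F.card) (hU : ∑ w ∈ F, U w = 0)
    (hW : ∀ w z, W w z = W z w) (hWsum : ∀ w ∈ F, ∑ z ∈ F.erase w, W w z = β * (M - 2) * U w) :
    ∑ w ∈ F, ∑ y ∈ F.erase w, ∑ z ∈ (F.erase w).erase y, (VVab U W β w z - VVab U W β y z) ^ 2
      = 2 * (M - 1) * ∑ w ∈ F, ∑ z ∈ F.erase w, VVab U W β w z ^ 2 := by
  rw [triple_exchange F (fun w y z => (VVab U W β w z - VVab U W β y z) ^ 2)
    (fun w z => by simp)]
  rw [mul_sum]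
  refine sum_congr rfl fun z hz => ?_
  rw [sum_sq_diff]
  have e1 : ∀ w, VVab U W β w z = VVab U W β z w := fun w => VVab_symm hW w z
  simp only [e1]
  rw [VVab_sum hM hU hWsum hz, card_erase_of_mem hz]
  have h2 : 1 ≤ F.card := card_pos.mpr ⟨z, hz⟩
  rw [Nat.cast_sub h2, ← hM]
  push_cast
  ring

lemma abstract_A2 (hM : M = F.card) (hU : ∑ w ∈ F, U w = 0)
    (hW : ∀ w z, W w z = W z w) (hWsum : ∀ w ∈ F, ∑ z ∈ F.erase w, W w z = β * (M - 2) * U w) :
    ∑ w ∈ F, ∑ z ∈ F.erase w, (U w + U z - 2 * W w z) ^ 2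
      = (1 - 2 * β) ^ 2 * ((2 * M - 4) * ∑ w ∈ F, U w ^ 2)
        + 4 * ∑ w ∈ F, ∑ z ∈ F.erase w, VVab U W β w z ^ 2 := by
  have e : ∀ w z, (U w + U z - 2 * W w z) ^ 2
      = (1 - 2 * β) ^ 2 * (U w + U z) ^ 2 - 4 * (1 - 2 * β) * (U w * VVab U W β w z)
        - 4 * (1 - 2 * β) * (U z * VVab U W β w z) + 4 * VVab U W β w z ^ 2 := by
    intro w z
    unfold VVab
    ring
  simp only [e, sum_add_distrib, sum_sub_distrib, ← mul_sum]
  have h1 : ∑ w ∈ F, ∑ z ∈ F.erase w, (U w + U z) ^ 2 = (2 * M - 4) * ∑ w ∈ F, U w ^ 2 := by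
    rw [sum_erase_eq, sum_sq_add, hU, ← hM]
    have : ∑ w ∈ F, (U w + U w) ^ 2 = 4 * ∑ w ∈ F, U w ^ 2 := by
      rw [mul_sum]
      exact sum_congr rfl fun w _ => by ring
    rw [this]
    ring
  have h2 : ∑ w ∈ F, U w * ∑ z ∈ F.erase w, VVab U W β w z = 0 :=
    sum_eq_zero fun w hw => by rw [VVab_sum hM hU hWsum hw, mul_zero]
  have h3 : ∑ w ∈ F, ∑ z ∈ F.erase w, U z * VVab U W β w z = 0 := by
    rw [sum_erase_comm]
    refine sum_eq_zero fun z hz => ?_
    have : ∀ w ∈ F.erase z, U z * VVab U W β w z = U z * VVab U W β z w := fun w _ => by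
      rw [VVab_symm hW w z]
    rw [sum_congr rfl this, ← mul_sum, VVab_sum hM hU hWsum hz, mul_zero]
  rw [h1, h3]
  simp only [h2]
  ring

end Abstract


/-! ### Counting -/

lemma card_filter_sub_disj {F A B : Finset V} (hA : A ⊆ F) (hB : B ⊆ F) (hAB : Disjoint A B) (q : ℕ) :
    ((powersetCard (q + A.card) F).filter (fun R => A ⊆ R ∧ Disjoint B R)).card
      = (F.card - A.card - B.card).choose q := by
  have hc : (F \ (A ∪ B)).card = F.card - A.card - B.card := by
    rw [card_sdiff_of_subset (union_subset hA hB), card_union_of_disjoint hAB]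
    omega
  rw [← hc, ← card_powersetCard]
  refine card_nbij' (fun R => R \ A) (fun T => T ∪ A) ?_ ?_ ?_ ?_
  · intro R hR
    rw [mem_coe, mem_filter, mem_powersetCard] at hR
    obtain ⟨⟨h1, h2⟩, h3, h4⟩ := hR
    rw [mem_coe, mem_powersetCard]
    refine ⟨?_, ?_⟩
    · intro y hy
      rw [mem_sdiff] at hy ⊢
      refine ⟨h1 hy.1, ?_⟩
      rw [mem_union]
      rintro (h5 | h5)
      · exact hy.2 h5
      · exact (disjoint_left.mp h4 h5) hy.1
    · rw [card_sdiff_of_subset h3, h2]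
      omega
  · intro T hT
    rw [mem_coe, mem_powersetCard] at hT
    obtain ⟨h1, h2⟩ := hT
    have hTA : Disjoint T A := by
      rw [disjoint_left]
      intro y hy hyA
      have := (mem_sdiff.mp (h1 hy)).2
      exact this (mem_union_left _ hyA)
    have hTB : Disjoint B T := by
      rw [disjoint_left]
      intro y hy hyT
      have := (mem_sdiff.mp (h1 hyT)).2
      exact this (mem_union_right _ hy)
    rw [mem_coe, mem_filter, mem_powersetCard]
    refine ⟨⟨union_subset (h1.trans sdiff_subset) hA, ?_⟩, subset_union_right, ?_⟩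
    · rw [card_union_of_disjoint hTA, h2]
    · rw [disjoint_union_right]
      exact ⟨hTB, hAB.symm⟩
  · intro R hR
    rw [mem_coe, mem_filter] at hR
    exact sdiff_union_of_subset hR.2.1
  · intro T hT
    rw [mem_coe, mem_powersetCard] at hT
    have hTA : Disjoint T A := by
      rw [disjoint_left]
      intro y hy hyA
      have := (mem_sdiff.mp (hT.1 hy)).2
      exact this (mem_union_left _ hyA)
    exact union_sdiff_cancel_right hTA

lemma count_N1 {F : Finset V} {w y : V} (hw : w ∈ F) (hy : y ∈ F) (hwy : w ≠ y) (q : ℕ) :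
    ((powersetCard (q + 1) F).filter (fun R => w ∈ R ∧ y ∉ R)).card = (F.card - 2).choose q := by
  have h := card_filter_sub_disj (F := F) (A := {w}) (B := {y}) (by simpa using hw) (by simpa using hy)
    (by simpa using hwy) q
  simp only [card_singleton, singleton_subset_iff, disjoint_singleton_left] at h
  rw [h]
  congr 1

lemma count_N3 {F : Finset V} {w y z : V} (hw : w ∈ F) (hy : y ∈ F) (hz : z ∈ F) (hwy : w ≠ y)
    (hzw : z ≠ w) (hzy : z ≠ y) (q : ℕ) :
    ((powersetCard (q + 2) F).filter (fun R => (w ∈ R ∧ y ∉ R) ∧ z ∈ R)).card = (F.card - 3).choose q := by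
  have hcA : ({w, z} : Finset V).card = 2 := card_pair hzw.symm
  have h := card_filter_sub_disj (F := F) (A := {w, z}) (B := {y})
    (by
      intro t ht
      simp only [mem_insert, mem_singleton] at ht
      rcases ht with rfl | rfl <;> assumption)
    (by simpa using hy)
    (by simp [hwy.symm, hzy.symm]) q
  rw [hcA, card_singleton] at h
  have e : (powersetCard (q + 2) F).filter (fun R => (w ∈ R ∧ y ∉ R) ∧ z ∈ R)
      = (powersetCard (q + 2) F).filter (fun R => ({w, z} : Finset V) ⊆ R ∧ Disjoint {y} R) := by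
    refine filter_congr fun R _ => ?_
    rw [insert_subset_iff, singleton_subset_iff, disjoint_singleton_left]
    tauto
  rw [e, h]
  congr 1

lemma count_N3' {F : Finset V} {w y z : V} (hw : w ∈ F) (hy : y ∈ F) (hz : z ∈ F) (hwy : w ≠ y)
    (hzw : z ≠ w) (hzy : z ≠ y) (q : ℕ) :
    ((powersetCard (q + 1) F).filter (fun R => (w ∈ R ∧ y ∉ R) ∧ ¬ z ∈ R)).card = (F.card - 3).choose q := by
  have hcB : ({y, z} : Finset V).card = 2 := card_pair hzy.symm
  have h := card_filter_sub_disj (F := F) (A := {w}) (B := {y, z}) (by simpa using hw)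
    (by
      intro t ht
      simp only [mem_insert, mem_singleton] at ht
      rcases ht with rfl | rfl <;> assumption)
    (by simp [hwy, hzw.symm]) q
  rw [hcB, card_singleton] at h
  have e : (powersetCard (q + 1) F).filter (fun R => (w ∈ R ∧ y ∉ R) ∧ ¬ z ∈ R)
      = (powersetCard (q + 1) F).filter (fun R => ({w} : Finset V) ⊆ R ∧ Disjoint {y, z} R) := by
    refine filter_congr fun R _ => ?_
    rw [singleton_subset_iff, disjoint_insert_left, disjoint_singleton_left]
    tauto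
  rw [e, h]
  congr 1

/-- The relation between the size of the scheme and the number of separating sets. -/
lemma choose_rel (k q : ℕ) (hq : q ≤ k) :
    ((k + 2).choose (q + 1) : ℝ) * (((q : ℝ) + 1) * ((k : ℝ) + 1 - q))
      = (k.choose q : ℝ) * (((k : ℝ) + 2) * ((k : ℝ) + 1)) := by
  have h1 := Nat.add_one_mul_choose_eq (k + 1) q
  have h2 := Nat.choose_mul_succ_eq k q
  have h1' : ((k : ℝ) + 2) * ((k + 1).choose q : ℝ) = ((k + 2).choose (q + 1) : ℝ) * ((q : ℝ) + 1) := by
    exact_mod_cast h1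
  have h2' : (k.choose q : ℝ) * ((k : ℝ) + 1) = ((k + 1).choose q : ℝ) * ((k : ℝ) + 1 - q) := by
    have hc : ((k + 1 - q : ℕ) : ℝ) = (k : ℝ) + 1 - q := by
      rw [Nat.cast_sub (by omega)]
      push_cast
      ring
    have := congrArg (Nat.cast (R := ℝ)) h2
    push_cast at this
    rw [hc] at this
    linarith
  calc ((k + 2).choose (q + 1) : ℝ) * (((q : ℝ) + 1) * ((k : ℝ) + 1 - q))
      = (((k + 2).choose (q + 1) : ℝ) * ((q : ℝ) + 1)) * ((k : ℝ) + 1 - q) := by ring
    _ = ((k : ℝ) + 2) * (((k + 1).choose q : ℝ) * ((k : ℝ) + 1 - q)) := by rw [← h1']; ring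
    _ = ((k : ℝ) + 2) * ((k.choose q : ℝ) * ((k : ℝ) + 1)) := by rw [← h2']
    _ = _ := by ring


/-! ### The average over the fibres of a Boolean key -/

lemma sum_avg_key (s : Finset (Finset V)) (κ : Finset V → Bool) (f : Finset V → ℝ) (c : ℝ) :
    ∑ R ∈ s, (avg s κ f R - c) ^ 2
      = ((s.filter (fun R => κ R = true)).card : ℝ) * (mean (s.filter (fun R => κ R = true)) f - c) ^ 2
        + ((s.filter (fun R => κ R = false)).card : ℝ) * (mean (s.filter (fun R => κ R = false)) f - c) ^ 2 := by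
  have h1 := sum_filter_add_sum_filter_not s (fun R => κ R = true) (fun R => (avg s κ f R - c) ^ 2)
  rw [← h1]
  have e0 : s.filter (fun R => ¬ κ R = true) = s.filter (fun R => κ R = false) :=
    filter_congr fun R _ => by simp
  rw [e0]
  congr 1
  · have : ∀ R ∈ s.filter (fun R => κ R = true), (avg s κ f R - c) ^ 2
        = (mean (s.filter (fun R => κ R = true)) f - c) ^ 2 := by
      intro R hR
      rw [mem_filter] at hR
      have : fib s κ R = s.filter (fun R => κ R = true) := by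
        unfold fib
        rw [hR.2]
      unfold avg mean
      rw [this]
    rw [sum_congr rfl this, sum_const, nsmul_eq_mul]
  · have : ∀ R ∈ s.filter (fun R => κ R = false), (avg s κ f R - c) ^ 2
        = (mean (s.filter (fun R => κ R = false)) f - c) ^ 2 := by
      intro R hR
      rw [mem_filter] at hR
      have : fib s κ R = s.filter (fun R => κ R = false) := by
        unfold fib
        rw [hR.2]
      unfold avg mean
      rw [this]
    rw [sum_congr rfl this, sum_const, nsmul_eq_mul]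

/-- The formula for the squared defect in terms of the sum over the first fibre. -/
lemma sum_avg_formula (s : Finset (Finset V)) (κ : Finset V → Bool) (f : Finset V → ℝ) {a c : ℝ}
    (ha : ((s.filter (fun R => κ R = true)).card : ℝ) = a) (ha0 : 0 < a)
    (hc : ((s.filter (fun R => κ R = false)).card : ℝ) = c) (hc0 : 0 < c) :
    ∑ R ∈ s, (avg s κ f R - mean s f) ^ 2
      = (∑ R ∈ s.filter (fun R => κ R = true), (f R - mean s f)) ^ 2 * (1 / a + 1 / c) := by
  rw [sum_avg_key, ha, hc]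
  set μ := mean s f with hμ
  have hA : mean (s.filter (fun R => κ R = true)) f - μ
      = (∑ R ∈ s.filter (fun R => κ R = true), (f R - μ)) / a := by
    unfold mean
    rw [ha, sum_sub_distrib, sum_const, nsmul_eq_mul, ha]
    field_simp
  have hsum : ∑ R ∈ s, (f R - μ) = 0 := sum_sub_mean s f
  have hsplit := sum_filter_add_sum_filter_not s (fun R => κ R = true) (fun R => f R - μ)
  have e0 : s.filter (fun R => ¬ κ R = true) = s.filter (fun R => κ R = false) :=
    filter_congr fun R _ => by simp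
  rw [e0, hsum] at hsplit
  have hC : mean (s.filter (fun R => κ R = false)) f - μ
      = -(∑ R ∈ s.filter (fun R => κ R = true), (f R - μ)) / c := by
    have : (∑ R ∈ s.filter (fun R => κ R = false), (f R - μ)) = -(∑ R ∈ s.filter (fun R => κ R = true), (f R - μ)) := by
      linarith
    rw [← this]
    unfold mean
    rw [hc, sum_sub_distrib, sum_const, nsmul_eq_mul, hc]
    field_simp
  rw [hA, hC]
  field_simp

/-- The fibre of the key is the union of the two separating classes. -/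
lemma sum_oneOf (F : Finset V) (p : ℕ) (w z : V) (G : Finset V → ℝ) :
    ∑ R ∈ (powersetCard p F).filter (fun R => oneOf w z R = true), G R
      = ∑ R ∈ (powersetCard p F).filter (fun R => w ∈ R ∧ z ∉ R), G R
        + ∑ R ∈ (powersetCard p F).filter (fun R => z ∈ R ∧ w ∉ R), G R := by
  have e : (powersetCard p F).filter (fun R => oneOf w z R = true)
      = (powersetCard p F).filter (fun R => w ∈ R ∧ z ∉ R) ∪ (powersetCard p F).filter (fun R => z ∈ R ∧ w ∉ R) := by
    ext R
    simp only [mem_filter, mem_union, oneOf, decide_eq_true_eq]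
    tauto
  rw [e, sum_union]
  rw [disjoint_left]
  intro R h1 h2
  rw [mem_filter] at h1 h2
  exact h1.2.2 h2.2.1

lemma sum_oneOf_g (F : Finset V) (p : ℕ) (w z : V) (g : Finset V → ℝ) :
    ∑ R ∈ (powersetCard p F).filter (fun R => oneOf w z R = true), g R
      = UU F p g w + UU F p g z - 2 * WW F p g w z := by
  rw [sum_oneOf]
  unfold UU
  have e1 := filter_sep (s := powersetCard p F) g (fun R => w ∈ R) (fun R => z ∈ R)
  have e2 := filter_sep (s := powersetCard p F) g (fun R => z ∈ R) (fun R => w ∈ R)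
  have e3 : WW F p g z w = WW F p g w z := WW_symm _ _ _ _ _
  have e4 : ∑ R ∈ (powersetCard p F).filter (fun R => z ∈ R ∧ w ∈ R), g R = WW F p g w z := e3
  have e5 : ∑ R ∈ (powersetCard p F).filter (fun R => w ∈ R ∧ z ∈ R), g R = WW F p g w z := rfl
  rw [e4] at e2
  rw [e5] at e1
  rw [e1, e2]
  ring

lemma card_oneOf {F : Finset V} {w z : V} (hw : w ∈ F) (hz : z ∈ F) (hwz : w ≠ z) (q : ℕ) :
    (((powersetCard (q + 1) F).filter (fun R => oneOf w z R = true)).card : ℝ)
      = 2 * ((F.card - 2).choose q : ℝ) := by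
  have h := sum_oneOf F (q + 1) w z (fun _ => (1 : ℝ))
  simp only [sum_const, nsmul_eq_mul, mul_one] at h
  rw [h, count_N1 hw hz hwz, count_N1 hz hw hwz.symm]
  ring

lemma card_oneOf_false {F : Finset V} {w z : V} (p : ℕ) :
    (((powersetCard p F).filter (fun R => oneOf w z R = false)).card : ℝ)
      = ((powersetCard p F).card : ℝ)
        - (((powersetCard p F).filter (fun R => oneOf w z R = true)).card : ℝ) := by
  have h := sum_filter_add_sum_filter_not (powersetCard p F) (fun R => oneOf w z R = true) (fun _ => (1 : ℝ))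
  have e0 : (powersetCard p F).filter (fun R => ¬ oneOf w z R = true)
      = (powersetCard p F).filter (fun R => oneOf w z R = false) :=
    filter_congr fun R _ => by simp
  rw [e0] at h
  simp only [sum_const, nsmul_eq_mul, mul_one] at h
  linarith

/-- The energy only sees differences of the function. -/
lemma TT_shift (F : Finset V) (p : ℕ) (f : Finset V → ℝ) (c : ℝ) (w z : V) :
    TT F p f w z = TT F p (fun R => f R - c) w z := by
  unfold TT
  refine sum_congr rfl fun R _ => ?_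
  ring

/-- The Cauchy-Schwarz inequality for the whole class. -/
lemma cs_total {F : Finset V} {w y : V} (hw : w ∈ F) (hy : y ∈ F) (hwy : w ≠ y) (q : ℕ) (g : Finset V → ℝ) :
    (UU F (q + 1) g w - UU F (q + 1) g y) ^ 2 ≤ ((F.card - 2).choose q : ℝ) * TT F (q + 1) g w y := by
  rw [← sum_swap_total hw hy hwy]
  have h := sq_sum_le_card_mul_sum_sq (s := (powersetCard (q + 1) F).filter (fun R => w ∈ R ∧ y ∉ R))
    (f := fun R => g R - g (swp w y R))
  rw [count_N1 hw hy hwy] at h
  exact h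

/-- The energy of a class in the two parts according to a third point. -/
lemma TT_third (F : Finset V) (p : ℕ) (g : Finset V → ℝ) (w y z : V) :
    TT F p g w y = ∑ R ∈ (powersetCard p F).filter (fun R => (w ∈ R ∧ y ∉ R) ∧ z ∈ R), (g R - g (swp w y R)) ^ 2
      + ∑ R ∈ (powersetCard p F).filter (fun R => (w ∈ R ∧ y ∉ R) ∧ ¬ z ∈ R), (g R - g (swp w y R)) ^ 2 := by
  unfold TT
  exact filter_sep (fun R => (g R - g (swp w y R)) ^ 2) (fun R => w ∈ R ∧ y ∉ R) (fun R => z ∈ R)

/-- Algebra of the two-group Cauchy-Schwarz estimate. -/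
lemma two_group {n1 β Tz Tn e t : ℝ} (hn1 : 0 < n1) (hβ0 : 0 < β) (hβ1 : β < 1)
    (h1 : e ^ 2 ≤ (n1 * β) * Tz) (h2 : (t - e) ^ 2 ≤ (n1 * (1 - β)) * Tn) :
    t ^ 2 + (e - β * t) ^ 2 / (β * (1 - β)) ≤ n1 * (Tz + Tn) := by
  have hb : 0 < 1 - β := by linarith
  have h3 : e ^ 2 / β ≤ n1 * Tz := by
    rw [div_le_iff₀ hβ0]
    calc e ^ 2 ≤ (n1 * β) * Tz := h1
      _ = n1 * Tz * β := by ring
  have h4 : (t - e) ^ 2 / (1 - β) ≤ n1 * Tn := by
    rw [div_le_iff₀ hb]
    calc (t - e) ^ 2 ≤ (n1 * (1 - β)) * Tn := h2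
      _ = n1 * Tn * (1 - β) := by ring
  have e5 : t ^ 2 + (e - β * t) ^ 2 / (β * (1 - β)) = e ^ 2 / β + (t - e) ^ 2 / (1 - β) := by
    field_simp
    ring
  rw [e5]
  linarith

/-- The Cauchy-Schwarz inequality with a third point, in the bulk of the scheme. -/
lemma cs_third {F : Finset V} {w y z : V} (hw : w ∈ F) (hy : y ∈ F) (hz : z ∈ F) (hwy : w ≠ y)
    (hzw : z ≠ w) (hzy : z ≠ y) {k q : ℕ} (hF : F.card = k + 3) (hqk : q + 1 ≤ k) (g : Finset V → ℝ) :
    (UU F (q + 2) g w - UU F (q + 2) g y) ^ 2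
        + ((WW F (q + 2) g w z - WW F (q + 2) g y z)
            - (((q : ℝ) + 1) / ((k : ℝ) + 1)) * (UU F (q + 2) g w - UU F (q + 2) g y)) ^ 2
          / ((((q : ℝ) + 1) / ((k : ℝ) + 1)) * (1 - ((q : ℝ) + 1) / ((k : ℝ) + 1)))
      ≤ ((k + 1).choose (q + 1) : ℝ) * TT F (q + 2) g w y := by
  have hn1 : 0 < ((k + 1).choose (q + 1) : ℝ) := by
    exact_mod_cast Nat.choose_pos (by omega)
  have hk0 : (0 : ℝ) < (k : ℝ) + 1 := by positivity
  have hqk' : (q : ℝ) + 1 < (k : ℝ) + 1 := by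
    have : ((q + 1 : ℕ) : ℝ) ≤ k := by exact_mod_cast hqk
    push_cast at this
    linarith
  set β : ℝ := ((q : ℝ) + 1) / ((k : ℝ) + 1) with hβ
  have hβ0 : 0 < β := by positivity
  have hβ1 : β < 1 := by
    rw [hβ, div_lt_one hk0]
    exact hqk'
  have hn3 : ((k.choose q : ℝ)) = ((k + 1).choose (q + 1) : ℝ) * β := by
    have h := Nat.add_one_mul_choose_eq k q
    have h' : ((k : ℝ) + 1) * (k.choose q : ℝ) = ((k + 1).choose (q + 1) : ℝ) * ((q : ℝ) + 1) := by
      exact_mod_cast h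
    rw [hβ]
    field_simp
    linarith
  have hn3' : ((k.choose (q + 1) : ℝ)) = ((k + 1).choose (q + 1) : ℝ) * (1 - β) := by
    have h := Nat.choose_succ_succ k q
    have h' : ((k + 1).choose (q + 1) : ℝ) = (k.choose q : ℝ) + (k.choose (q + 1) : ℝ) := by
      exact_mod_cast h
    rw [mul_sub, mul_one, ← hn3, h']
    ring
  have hc3 : F.card - 3 = k := by omega
  have h1 := sq_sum_le_card_mul_sum_sq (s := (powersetCard (q + 2) F).filter (fun R => (w ∈ R ∧ y ∉ R) ∧ z ∈ R))
    (f := fun R => g R - g (swp w y R))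
  rw [count_N3 hw hy hz hwy hzw hzy, hc3, hn3, sum_swap_mem hw hy hwy hzw hzy] at h1
  have h2 := sq_sum_le_card_mul_sum_sq (s := (powersetCard (q + 2) F).filter (fun R => (w ∈ R ∧ y ∉ R) ∧ ¬ z ∈ R))
    (f := fun R => g R - g (swp w y R))
  rw [count_N3' (q := q + 1) hw hy hz hwy hzw hzy, hc3, hn3', sum_swap_not_mem hw hy hwy hzw hzy] at h2
  have key := two_group hn1 hβ0 hβ1 h1 h2
  rw [TT_third F (q + 2) g w y z]
  exact key


/-! ### The final algebra -/

lemma identity_X (M P : ℝ) :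
    (M * (M - 1) - 2 * (P * (M - P))) * (M - 2)
      = (M - 1) * (M - 2 * P) ^ 2 + 2 * M * ((P - 1) * (M - P - 1)) := by
  ring

lemma X_pos {M P : ℝ} (hM : 3 ≤ M) : 0 < M * (M - 1) - 2 * (P * (M - P)) := by
  nlinarith [sq_nonneg (M - 2 * P)]

lemma K0_eval_aux {Y S n n1 : ℝ} (hY : 0 < Y) (hX : 0 < Y - 2 * S) (hn1 : 0 < n1) (hn : 0 < n)
    (hrel : n * S = n1 * Y) :
    0 < n - 2 * n1 ∧ (1 / (2 * n1) + 1 / (n - 2 * n1)) * n1 = Y / (2 * (Y - 2 * S)) := by
  have e2 : (n - 2 * n1) * Y = n * (Y - 2 * S) := by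
    have : n1 * Y = n * S := hrel.symm
    nlinarith
  have h3 : 0 < n - 2 * n1 := by
    have h4 : 0 < (n - 2 * n1) * Y := by
      rw [e2]
      positivity
    exact (mul_pos_iff_of_pos_right hY).mp h4
  refine ⟨h3, ?_⟩
  have e3 : n1 / (n - 2 * n1) = S / (Y - 2 * S) := by
    rw [div_eq_div_iff h3.ne' hX.ne']
    nlinarith
  have e4 : (1 / (2 * n1) + 1 / (n - 2 * n1)) * n1 = 1 / 2 + n1 / (n - 2 * n1) := by
    field_simp
  rw [e4, e3]
  field_simp
  ring

/-- The constant of the defect formula times the number of separating sets. -/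
lemma K0_eval {M P n n1 : ℝ} (hM : 3 ≤ M) (hn1 : 0 < n1) (hn : 0 < n)
    (hrel : n * (P * (M - P)) = n1 * (M * (M - 1))) :
    0 < n - 2 * n1 ∧ (1 / (2 * n1) + 1 / (n - 2 * n1)) * n1 = M * (M - 1) / (2 * (M * (M - 1) - 2 * (P * (M - P)))) :=
  K0_eval_aux (by nlinarith) (X_pos hM) hn1 hn hrel

lemma final_edge {M P n n1 X1 D K0 β : ℝ} (hM : 3 ≤ M) (hn1 : 0 < n1) (hn : 0 < n)
    (hrel : n * (P * (M - P)) = n1 * (M * (M - 1))) (hK0 : K0 = 1 / (2 * n1) + 1 / (n - 2 * n1))
    (hβ : β = (P - 1) / (M - 2)) (hP : (P - 1) * (M - P - 1) = 0) (hX1 : 0 ≤ X1)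
    (hT : 2 * M * X1 ≤ n1 * D) :
    K0 * ((1 - 2 * β) ^ 2 * ((2 * M - 4) * X1)) ≤ (1 / 2) * D := by
  obtain ⟨_, hK⟩ := K0_eval hM hn1 hn hrel
  rw [← hK0] at hK
  set X : ℝ := M * (M - 1) - 2 * (P * (M - P)) with hXdef
  have hX : 0 < X := X_pos hM
  have hM2 : 0 < M - 2 := by linarith
  have hb : (1 - 2 * β) ^ 2 * (2 * M - 4) = 2 * (M - 2 * P) ^ 2 / (M - 2) := by
    rw [hβ]
    field_simp
    ring
  have hid := identity_X M P
  rw [hP, ← hXdef, mul_zero, add_zero] at hid
  have h1 : (K0 * n1) * ((1 - 2 * β) ^ 2 * (2 * M - 4)) = M := by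
    rw [hK, hb]
    have h3 : M * (M - 1) / (2 * X) * (2 * (M - 2 * P) ^ 2 / (M - 2))
        = M * ((M - 1) * (M - 2 * P) ^ 2) / (X * (M - 2)) := by
      field_simp
    rw [h3, ← hid]
    field_simp
  have h2 : n1 * (K0 * ((1 - 2 * β) ^ 2 * ((2 * M - 4) * X1))) ≤ n1 * ((1 / 2) * D) := by
    calc n1 * (K0 * ((1 - 2 * β) ^ 2 * ((2 * M - 4) * X1)))
        = ((K0 * n1) * ((1 - 2 * β) ^ 2 * (2 * M - 4))) * X1 := by ring
      _ = M * X1 := by rw [h1]
      _ ≤ _ := by linarith
  exact le_of_mul_le_mul_left h2 hn1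

lemma final_bulk {M P n n1 X1 X2 D K0 β : ℝ} (hM : 3 ≤ M) (hP1 : 1 < P) (hP2 : P < M - 1) (hn1 : 0 < n1)
    (hn : 0 < n) (hrel : n * (P * (M - P)) = n1 * (M * (M - 1)))
    (hK0 : K0 = 1 / (2 * n1) + 1 / (n - 2 * n1)) (hβ : β = (P - 1) / (M - 2)) (hX1 : 0 ≤ X1) (hX2 : 0 ≤ X2)
    (hT : (M - 2) * (2 * M * X1) + (1 / (β * (1 - β))) * (2 * (M - 1) * X2) ≤ (M - 2) * (n1 * D)) :
    K0 * ((1 - 2 * β) ^ 2 * ((2 * M - 4) * X1) + 4 * X2) ≤ (1 / 2) * D := by
  obtain ⟨_, hK⟩ := K0_eval hM hn1 hn hrel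
  rw [← hK0] at hK
  set X : ℝ := M * (M - 1) - 2 * (P * (M - P)) with hXdef
  have hX : 0 < X := X_pos hM
  have hM2 : 0 < M - 2 := by linarith
  have hQ1 : 0 < P - 1 := by linarith
  have hQ2 : 0 < M - P - 1 := by linarith
  have hb : (1 - 2 * β) ^ 2 * (2 * M - 4) = 2 * (M - 2 * P) ^ 2 / (M - 2) := by
    rw [hβ]
    field_simp
    ring
  have hΓ : 1 / (β * (1 - β)) = (M - 2) ^ 2 / ((P - 1) * (M - P - 1)) := by
    have h1 : 1 - β = (M - P - 1) / (M - 2) := by
      rw [hβ]
      field_simp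
      ring
    rw [h1, hβ]
    field_simp
  have hid := identity_X M P
  rw [← hXdef] at hid
  have hT' : 2 * M * X1 + ((M - 2) / ((P - 1) * (M - P - 1))) * (2 * (M - 1) * X2) ≤ n1 * D := by
    rw [hΓ] at hT
    have h2 : (M - 2) * (2 * M * X1 + ((M - 2) / ((P - 1) * (M - P - 1))) * (2 * (M - 1) * X2))
        ≤ (M - 2) * (n1 * D) := by
      refine le_trans (le_of_eq ?_) hT
      field_simp
    exact le_of_mul_le_mul_left h2 hM2
  have hC1 : (K0 * n1) * ((1 - 2 * β) ^ 2 * (2 * M - 4)) ≤ M := by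
    rw [hK, hb]
    have h3 : M * (M - 1) / (2 * X) * (2 * (M - 2 * P) ^ 2 / (M - 2))
        = M * ((M - 1) * (M - 2 * P) ^ 2) / (X * (M - 2)) := by
      field_simp
    rw [h3, div_le_iff₀ (by positivity)]
    have h4 : 0 ≤ 2 * M * ((P - 1) * (M - P - 1)) := by positivity
    nlinarith [mul_le_mul_of_nonneg_left (show (M - 1) * (M - 2 * P) ^ 2 ≤ X * (M - 2) by linarith)
      (by linarith : (0 : ℝ) ≤ M)]
  have hC2 : 4 * (K0 * n1) ≤ ((M - 2) / ((P - 1) * (M - P - 1))) * (M - 1) := by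
    rw [hK]
    have h3 : 4 * (M * (M - 1) / (2 * X)) = 2 * M * (M - 1) / X := by
      field_simp
      ring
    have h3' : ((M - 2) / ((P - 1) * (M - P - 1))) * (M - 1) = (M - 2) * (M - 1) / ((P - 1) * (M - P - 1)) := by
      ring
    rw [h3, h3', div_le_div_iff₀ hX (by positivity)]
    have h4 : 2 * M * ((P - 1) * (M - P - 1)) ≤ X * (M - 2) := by
      have : 0 ≤ (M - 1) * (M - 2 * P) ^ 2 := by
        have : 0 ≤ M - 1 := by linarith
        positivity
      linarith
    have h5 : 0 ≤ M - 1 := by linarith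
    nlinarith [mul_le_mul_of_nonneg_right h4 h5]
  have h2 : n1 * (K0 * ((1 - 2 * β) ^ 2 * ((2 * M - 4) * X1) + 4 * X2)) ≤ n1 * ((1 / 2) * D) := by
    have e : n1 * (K0 * ((1 - 2 * β) ^ 2 * ((2 * M - 4) * X1) + 4 * X2))
        = ((K0 * n1) * ((1 - 2 * β) ^ 2 * (2 * M - 4))) * X1 + (4 * (K0 * n1)) * X2 := by
      ring
    rw [e]
    have s1 := mul_le_mul_of_nonneg_right hC1 hX1
    have s2 := mul_le_mul_of_nonneg_right hC2 hX2
    have e2 : ((M - 2) / ((P - 1) * (M - P - 1))) * (2 * (M - 1) * X2)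
        = 2 * (((M - 2) / ((P - 1) * (M - P - 1))) * (M - 1) * X2) := by
      ring
    rw [e2] at hT'
    linarith
  exact le_of_mul_le_mul_left h2 hn1


/-! ### Assembly -/

section Assembly

variable {F : Finset V} {q : ℕ} {g : Finset V → ℝ}

/-- The statistics of a function with zero sum satisfy the linear relations. -/
lemma UU_sum_zero (hg : ∑ R ∈ powersetCard (q + 1) F, g R = 0) : ∑ w ∈ F, UU F (q + 1) g w = 0 := by
  rw [sum_UU, hg, mul_zero]

lemma WW_sum_beta {M β : ℝ} (hβ : β * (M - 2) = ((q + 1 : ℕ) : ℝ) - 1) (w : V) :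
    ∑ z ∈ F.erase w, WW F (q + 1) g w z = β * (M - 2) * UU F (q + 1) g w := by
  rw [sum_WW, hβ]

/-- The energy bound from the total class. -/
lemma total_bound {M : ℝ} (hM : M = F.card) (hg : ∑ R ∈ powersetCard (q + 1) F, g R = 0) :
    2 * M * ∑ w ∈ F, UU F (q + 1) g w ^ 2 ≤ ((F.card - 2).choose q : ℝ) * DD F (q + 1) g := by
  rw [← abstract_A3 hM (UU_sum_zero hg)]
  unfold DD
  rw [mul_sum]
  refine sum_le_sum fun w hw => ?_
  rw [mul_sum]
  refine sum_le_sum fun y hy => ?_
  exact cs_total hw (mem_of_mem_erase hy) (ne_of_mem_erase hy).symm q g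

/-- The energy bound from the classes with a third point. -/
lemma bulk_bound {k q' : ℕ} (hF : F.card = k + 3) (hqk : q' + 1 ≤ k) {g : Finset V → ℝ}
    (hg : ∑ R ∈ powersetCard (q' + 1 + 1) F, g R = 0) {M β : ℝ} (hM : M = F.card)
    (hβ : β = ((q' : ℝ) + 1) / ((k : ℝ) + 1)) :
    (M - 2) * (2 * M * ∑ w ∈ F, UU F (q' + 2) g w ^ 2)
      + (1 / (β * (1 - β))) * (2 * (M - 1) * ∑ w ∈ F, ∑ z ∈ F.erase w,
          VVab (UU F (q' + 2) g) (WW F (q' + 2) g) β w z ^ 2)
      ≤ (M - 2) * (((k + 1).choose (q' + 1) : ℝ) * DD F (q' + 2) g) := by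
  have hMk : M = (k : ℝ) + 3 := by
    rw [hM, hF]
    push_cast
    ring
  have hM2 : M - 2 = (k : ℝ) + 1 := by linarith
  have hk0 : (0 : ℝ) < (k : ℝ) + 1 := by positivity
  have hβ2 : β * (M - 2) = ((q' + 1 + 1 : ℕ) : ℝ) - 1 := by
    rw [hM2, hβ]
    push_cast
    field_simp
    ring
  have hU := UU_sum_zero (F := F) (q := q' + 1) hg
  have hWs : ∀ w z, WW F (q' + 2) g w z = WW F (q' + 2) g z w := fun w z => WW_symm _ _ _ _ _
  have hWsum : ∀ w ∈ F, ∑ z ∈ F.erase w, WW F (q' + 2) g w z = β * (M - 2) * UU F (q' + 2) g w :=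
    fun w _ => WW_sum_beta (q := q' + 1) hβ2 w
  rw [← abstract_A3 hM hU, ← abstract_A4 hM hU hWs hWsum]
  have key : ∀ w ∈ F, ∀ y ∈ F.erase w,
      (M - 2) * (UU F (q' + 2) g w - UU F (q' + 2) g y) ^ 2
        + (1 / (β * (1 - β))) * ∑ z ∈ (F.erase w).erase y,
          (VVab (UU F (q' + 2) g) (WW F (q' + 2) g) β w z
            - VVab (UU F (q' + 2) g) (WW F (q' + 2) g) β y z) ^ 2
      ≤ (M - 2) * (((k + 1).choose (q' + 1) : ℝ) * TT F (q' + 2) g w y) := by
    intro w hw y hy
    have hyF := mem_of_mem_erase hy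
    have hwy : w ≠ y := (ne_of_mem_erase hy).symm
    have hcard : (((F.erase w).erase y).card : ℝ) = M - 2 := by
      rw [card_erase_of_mem hy, card_erase_of_mem hw, hF]
      rw [hM2]
      have : k + 3 - 1 - 1 = k + 1 := by omega
      rw [this]
      push_cast
      ring
    have hterm : ∀ z ∈ (F.erase w).erase y,
        (UU F (q' + 2) g w - UU F (q' + 2) g y) ^ 2
          + (1 / (β * (1 - β))) * (VVab (UU F (q' + 2) g) (WW F (q' + 2) g) β w z
              - VVab (UU F (q' + 2) g) (WW F (q' + 2) g) β y z) ^ 2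
        ≤ ((k + 1).choose (q' + 1) : ℝ) * TT F (q' + 2) g w y := by
      intro z hz
      have hz1 := mem_erase.mp hz
      have hz2 := mem_erase.mp hz1.2
      have key := cs_third hw hyF hz2.2 hwy hz2.1 hz1.1 hF hqk g
      rw [← hβ] at key
      refine le_trans (le_of_eq ?_) key
      unfold VVab
      rw [one_div, mul_comm _ (_ ^ 2), div_eq_mul_inv]
      congr 2
      ring
    have hsum := sum_le_sum hterm
    rw [sum_add_distrib, sum_const, sum_const, nsmul_eq_mul, nsmul_eq_mul, hcard, ← mul_sum] at hsum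
    exact hsum
  calc _ = ∑ w ∈ F, ∑ y ∈ F.erase w, ((M - 2) * (UU F (q' + 2) g w - UU F (q' + 2) g y) ^ 2
        + (1 / (β * (1 - β))) * ∑ z ∈ (F.erase w).erase y,
          (VVab (UU F (q' + 2) g) (WW F (q' + 2) g) β w z
            - VVab (UU F (q' + 2) g) (WW F (q' + 2) g) β y z) ^ 2) := by
        simp only [mul_sum, sum_add_distrib]
    _ ≤ ∑ w ∈ F, ∑ y ∈ F.erase w, (M - 2) * (((k + 1).choose (q' + 1) : ℝ) * TT F (q' + 2) g w y) :=
        sum_le_sum fun w hw => sum_le_sum fun y hy => key w hw y hy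
    _ = _ := by
        unfold DD
        simp only [mul_sum]

end Assembly


lemma WW_zero_of_one {F : Finset V} {w z : V} (hwz : w ≠ z) (g : Finset V → ℝ) : WW F 1 g w z = 0 := by
  unfold WW
  refine sum_eq_zero fun R hR => ?_
  rw [mem_filter, mem_powersetCard] at hR
  obtain ⟨⟨_, h2⟩, h3, h4⟩ := hR
  exact absurd (card_le_one.mp h2.le w h3 z h4) hwz

lemma WW_eq_of_top {F : Finset V} {w z : V} {k : ℕ} (hF : F.card = k + 2) (hw : w ∈ F) (hz : z ∈ F)
    (hwz : w ≠ z) {g : Finset V → ℝ} (hg : ∑ R ∈ powersetCard (k + 1) F, g R = 0) :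
    WW F (k + 1) g w z = UU F (k + 1) g w + UU F (k + 1) g z := by
  have hnone : (powersetCard (k + 1) F).filter (fun R => ¬ w ∈ R ∧ ¬ z ∈ R) = ∅ := by
    rw [filter_eq_empty_iff]
    rintro R hR ⟨h1, h2⟩
    rw [mem_powersetCard] at hR
    have hsub : R ⊆ (F.erase w).erase z := by
      intro x hx
      refine mem_erase.mpr ⟨fun e => h2 (e ▸ hx), mem_erase.mpr ⟨fun e => h1 (e ▸ hx), hR.1 hx⟩⟩
    have h3 := card_le_card hsub
    rw [card_erase_of_mem (mem_erase.mpr ⟨hwz.symm, hz⟩), card_erase_of_mem hw, hF, hR.2] at h3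
    omega
  have e1 := filter_sep (s := powersetCard (k + 1) F) g (fun R => w ∈ R) (fun R => z ∈ R)
  have e2 := filter_sep (s := powersetCard (k + 1) F) g (fun R => z ∈ R) (fun R => w ∈ R)
  have h0 := sum_filter_add_sum_filter_not (powersetCard (k + 1) F) (fun R => w ∈ R) g
  have e3 : ∑ R ∈ (powersetCard (k + 1) F).filter (fun R => ¬ w ∈ R), g R
      = ∑ R ∈ (powersetCard (k + 1) F).filter (fun R => z ∈ R ∧ ¬ w ∈ R), g R := by
    rw [filter_sep (s := powersetCard (k + 1) F) g (fun R => ¬ w ∈ R) (fun R => z ∈ R)]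
    have e4 : (powersetCard (k + 1) F).filter (fun R => ¬ w ∈ R ∧ z ∈ R)
        = (powersetCard (k + 1) F).filter (fun R => z ∈ R ∧ ¬ w ∈ R) :=
      filter_congr fun R _ => and_comm
    rw [hnone, sum_empty, add_zero, e4]
  have e5 : (powersetCard (k + 1) F).filter (fun R => z ∈ R ∧ w ∈ R)
      = (powersetCard (k + 1) F).filter (fun R => w ∈ R ∧ z ∈ R) :=
    filter_congr fun R _ => and_comm
  rw [e5] at e2
  rw [hg, e3] at h0
  unfold WW UU
  linarith

/-- The main case of the inequality. -/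
theorem johnson_main {F : Finset V} {q : ℕ} (hm : 3 ≤ F.card) (hq : q + 2 ≤ F.card) (f : Finset V → ℝ) :
    ∑ w ∈ F, ∑ z ∈ F.erase w, ∑ R ∈ F.powersetCard (q + 1),
        (avg (F.powersetCard (q + 1)) (oneOf w z) f R - mean (F.powersetCard (q + 1)) f) ^ 2
      ≤ (1 / 2) * DD F (q + 1) f := by
  set s := F.powersetCard (q + 1) with hs
  set μ := mean s f with hμ
  set g : Finset V → ℝ := fun R => f R - μ with hgdef
  have hg : ∑ R ∈ powersetCard (q + 1) F, g R = 0 := sum_sub_mean s f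
  set M : ℝ := (F.card : ℝ) with hM
  set P : ℝ := ((q + 1 : ℕ) : ℝ) with hP
  set n : ℝ := (s.card : ℝ) with hn
  set n1 : ℝ := ((F.card - 2).choose q : ℝ) with hn1
  have hM3 : 3 ≤ M := by
    rw [hM]
    exact_mod_cast hm
  have hn1pos : 0 < n1 := by
    rw [hn1]
    exact_mod_cast Nat.choose_pos (by omega)
  have hnpos : 0 < n := by
    rw [hn, hs, card_powersetCard]
    exact_mod_cast Nat.choose_pos (by omega)
  obtain ⟨k, hk⟩ : ∃ k, F.card = k + 2 := ⟨F.card - 2, by omega⟩
  have hrel : n * (P * (M - P)) = n1 * (M * (M - 1)) := by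
    have h := choose_rel k q (by omega)
    rw [hn, hs, card_powersetCard, hn1, hM, hP, hk]
    rw [show k + 2 - 2 = k by omega]
    push_cast
    refine Eq.trans ?_ (Eq.trans h ?_)
    · ring
    · ring
  obtain ⟨hc0, _⟩ := K0_eval hM3 hn1pos hnpos hrel
  set K0 : ℝ := 1 / (2 * n1) + 1 / (n - 2 * n1) with hK0
  set β : ℝ := (P - 1) / (M - 2) with hβ
  have hM2 : 0 < M - 2 := by linarith
  have hβ2 : β * (M - 2) = ((q + 1 : ℕ) : ℝ) - 1 := by
    rw [hβ, div_mul_cancel₀ _ hM2.ne']
  have hDD : DD F (q + 1) f = DD F (q + 1) g := by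
    unfold DD
    refine sum_congr rfl fun w _ => sum_congr rfl fun z _ => ?_
    exact TT_shift F (q + 1) f μ w z
  have hLHS : ∀ w ∈ F, ∀ z ∈ F.erase w, ∑ R ∈ s, (avg s (oneOf w z) f R - μ) ^ 2
      = K0 * (UU F (q + 1) g w + UU F (q + 1) g z - 2 * WW F (q + 1) g w z) ^ 2 := by
    intro w hw z hz
    have hzF := mem_of_mem_erase hz
    have hwz : w ≠ z := (ne_of_mem_erase hz).symm
    have h1 := card_oneOf hw hzF hwz q
    have h2 := card_oneOf_false (F := F) (w := w) (z := z) (q + 1)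
    rw [h1] at h2
    have h3 := sum_avg_formula s (oneOf w z) f (a := 2 * n1) h1 (by positivity) (c := n - 2 * n1) h2 hc0
    rw [h3]
    have h4 := sum_oneOf_g F (q + 1) w z g
    rw [h4, mul_comm]
  have hLHS2 : ∑ w ∈ F, ∑ z ∈ F.erase w, ∑ R ∈ s, (avg s (oneOf w z) f R - μ) ^ 2
      = K0 * ∑ w ∈ F, ∑ z ∈ F.erase w,
          (UU F (q + 1) g w + UU F (q + 1) g z - 2 * WW F (q + 1) g w z) ^ 2 := by
    rw [mul_sum]
    refine sum_congr rfl fun w hw => ?_
    rw [mul_sum]
    exact sum_congr rfl fun z hz => hLHS w hw z hz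
  have hU := UU_sum_zero (F := F) (q := q) hg
  have hWs : ∀ w z, WW F (q + 1) g w z = WW F (q + 1) g z w := fun w z => WW_symm _ _ _ _ _
  have hWsum : ∀ w ∈ F, ∑ z ∈ F.erase w, WW F (q + 1) g w z = β * (M - 2) * UU F (q + 1) g w :=
    fun w _ => WW_sum_beta (q := q) hβ2 w
  rw [hLHS2, abstract_A2 hM hU hWs hWsum, hDD]
  have hX1 : 0 ≤ ∑ w ∈ F, UU F (q + 1) g w ^ 2 := sum_nonneg fun _ _ => sq_nonneg _
  have hX2 : 0 ≤ ∑ w ∈ F, ∑ z ∈ F.erase w, VVab (UU F (q + 1) g) (WW F (q + 1) g) β w z ^ 2 :=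
    sum_nonneg fun _ _ => sum_nonneg fun _ _ => sq_nonneg _
  have hPq : P = (q : ℝ) + 1 := by
    rw [hP]
    push_cast
    ring
  by_cases hbulk : 1 ≤ q ∧ q + 3 ≤ F.card
  · -- the bulk of the scheme
    obtain ⟨q', rfl⟩ : ∃ q', q = q' + 1 := ⟨q - 1, by omega⟩
    obtain ⟨k', hk'⟩ : ∃ k', F.card = k' + 3 := ⟨F.card - 3, by omega⟩
    have hqk : q' + 1 ≤ k' := by omega
    have hMk : M = (k' : ℝ) + 3 := by
      rw [hM, hk']
      push_cast
      ring
    have hβ' : β = ((q' : ℝ) + 1) / ((k' : ℝ) + 1) := by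
      rw [hβ, hMk, hPq]
      push_cast
      congr 1 <;> ring
    have hb := bulk_bound hk' hqk hg hM hβ'
    have hnn : n1 = ((k' + 1).choose (q' + 1) : ℝ) := by
      rw [hn1, hk']
      rfl
    rw [← hnn] at hb
    have hP1 : 1 < P := by
      rw [hPq]
      push_cast
      have : (0 : ℝ) ≤ q' := Nat.cast_nonneg _
      linarith
    have hP2 : P < M - 1 := by
      rw [hPq, hMk]
      have : ((q' + 1 : ℕ) : ℝ) ≤ k' := by exact_mod_cast hqk
      push_cast at this ⊢
      linarith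
    exact final_bulk hM3 hP1 hP2 hn1pos hnpos hrel hK0 hβ hX1 hX2 hb
  · -- the edges of the scheme
    have hPe : (P - 1) * (M - P - 1) = 0 := by
      rw [hPq, hM]
      by_cases h0 : q = 0
      · rw [h0]
        push_cast
        ring
      · have h1 : q + 2 = F.card := by omega
        rw [← h1]
        push_cast
        ring
    have hb := total_bound (F := F) (q := q) hM hg
    have hV0 : ∑ w ∈ F, ∑ z ∈ F.erase w, VVab (UU F (q + 1) g) (WW F (q + 1) g) β w z ^ 2 = 0 := by
      refine sum_eq_zero fun w hw => sum_eq_zero fun z hz => ?_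
      have hzF := mem_of_mem_erase hz
      have hwz : w ≠ z := (ne_of_mem_erase hz).symm
      unfold VVab
      by_cases h0 : q = 0
      · have hβ0 : β = 0 := by
          rw [hβ, hPq, h0]
          simp
        subst h0
        rw [WW_zero_of_one hwz, hβ0]
        ring
      · have h1 : q + 2 = F.card := by omega
        have hβ1 : β = 1 := by
          rw [hβ, hPq, hM, ← h1]
          push_cast
          have hq0 : ((q : ℝ) + 2 - 2) ≠ 0 := by
            have : (0 : ℝ) < q := by exact_mod_cast Nat.pos_of_ne_zero h0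
            intro h
            linarith
          field_simp
          ring
        have hkq : q = k := by omega
        subst hkq
        rw [WW_eq_of_top hk hw hzF hwz hg, hβ1]
        ring
    rw [hV0, mul_zero, add_zero]
    exact final_edge hM3 hn1pos hnpos hrel hK0 hβ hPe hX1 hb


lemma defect_zero {s : Finset (Finset V)} {κ : Finset V → Bool} (f : Finset V → ℝ)
    (h : ∀ R ∈ s, ∀ R' ∈ s, κ R = κ R') : ∑ R ∈ s, (avg s κ f R - mean s f) ^ 2 = 0 := by
  refine sum_eq_zero fun R hR => ?_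
  have : fib s κ R = s := by
    unfold fib
    rw [filter_true_of_mem]
    intro R' hR'
    exact h R' hR' R hR
  unfold avg mean
  rw [this]
  simp

/-- The inequality of the Johnson scheme paying the defects by the swap energy. -/
theorem johnson_ineq (F : Finset V) (p : ℕ) (f : Finset V → ℝ) :
    ∑ w ∈ F, ∑ z ∈ F.erase w, ∑ R ∈ F.powersetCard p,
        (avg (F.powersetCard p) (oneOf w z) f R - mean (F.powersetCard p) f) ^ 2
      ≤ (1 / 2) * ∑ w ∈ F, ∑ z ∈ F.erase w, ∑ R ∈ (F.powersetCard p).filter (fun R => w ∈ R ∧ z ∉ R),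
          (f R - f (insert z (R.erase w))) ^ 2 := by
  have hD : 0 ≤ (1 / 2 : ℝ) * ∑ w ∈ F, ∑ z ∈ F.erase w, ∑ R ∈ (F.powersetCard p).filter (fun R => w ∈ R ∧ z ∉ R),
      (f R - f (insert z (R.erase w))) ^ 2 := by
    have := DD_nonneg F p f
    have h2 : DD F p f = ∑ w ∈ F, ∑ z ∈ F.erase w, ∑ R ∈ (F.powersetCard p).filter (fun R => w ∈ R ∧ z ∉ R),
      (f R - f (insert z (R.erase w))) ^ 2 := rfl
    rw [← h2]
    positivity
  by_cases hcase : 1 ≤ p ∧ p + 1 ≤ F.card ∧ 3 ≤ F.card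
  · obtain ⟨q, rfl⟩ : ∃ q, p = q + 1 := ⟨p - 1, by omega⟩
    exact johnson_main hcase.2.2 (by omega) f
  · refine le_trans (le_of_eq ?_) hD
    refine sum_eq_zero fun w hw => sum_eq_zero fun z hz => ?_
    have hzF := mem_of_mem_erase hz
    have hwz : w ≠ z := (ne_of_mem_erase hz).symm
    apply defect_zero
    intro R hR R' hR'
    rw [mem_powersetCard] at hR hR'
    by_cases h0 : p = 0
    · have e1 : R = ∅ := card_eq_zero.mp (by rw [hR.2, h0])
      have e2 : R' = ∅ := card_eq_zero.mp (by rw [hR'.2, h0])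
      rw [e1, e2]
    by_cases h1 : F.card ≤ p
    · have e1 : R = F := eq_of_subset_of_card_le hR.1 (by rw [hR.2]; exact h1)
      have e2 : R' = F := eq_of_subset_of_card_le hR'.1 (by rw [hR'.2]; exact h1)
      rw [e1, e2]
    -- the remaining case is a two point ground set
    have hF2 : F.card = 2 := by
      have : 2 ≤ F.card := by
        have := one_lt_card.mpr ⟨w, hw, z, hzF, hwz⟩
        omega
      omega
    have hp1 : p = 1 := by omega
    have hF : F = {w, z} := by
      symm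
      apply eq_of_subset_of_card_le
      · intro t ht
        simp only [mem_insert, mem_singleton] at ht
        rcases ht with rfl | rfl <;> assumption
      · rw [hF2, card_pair hwz]
    have key : ∀ T : Finset V, T ⊆ F → T.card = p → oneOf w z T = true := by
      intro T hT hc
      rw [hp1] at hc
      obtain ⟨a, rfl⟩ := card_eq_one.mp hc
      have ha : a ∈ F := hT (mem_singleton_self a)
      rw [hF] at ha
      simp only [mem_insert, mem_singleton] at ha
      unfold oneOf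
      rcases ha with rfl | rfl
      · simp [hwz.symm]
      · simp [hwz]
    rw [key R hR.1 hR.2, key R' hR'.1 hR'.2]


end Vale.Agent.Lib.P335
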