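import Vale.Agent.Lib.P335.JTrans
import Vale.Agent.Lib.P335.Johnson

/-!
The statements of the transport file are proved.
-/

namespace Vale.Agent.Lib.P335

theorem johnsonIneqStmt (n : ℕ) : JohnsonIneqStmt n := fun F p φ => johnson_ineq F p φ

theorem johnsonGapStmt (n : ℕ) : JohnsonGapStmt n := fun F p φ => johnson_gap F p φ

end Vale.Agent.Lib.P335
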