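import Vale.Agent.Lib.P335.Basic

/-!
The perfect matchings of a four-element set: there are three; normal forms for ordered pairs of
distinct matchings; effect of a step on degrees.
-/

set_option linter.unusedSimpArgs false

namespace Vale.Agent.Lib.P335

open Finset

variable {n : ℕ}

private theorem mem_four {a b c d t : Fin n} (h : t ∈ ({a, b, c, d} : Finset (Fin n))) :
    t = a ∨ t = b ∨ t = c ∨ t = d := by simpa using h

private theorem aux_form {a b c d : Fin n} (hab : a ≠ b) (hac : a ≠ c) (had : a ≠ d) (hbc : b ≠ c)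
    (hbd : b ≠ d) (hcd : c ≠ d) {e1 e2 : Sym2 (Fin n)}
    (he1 : e1 ∈ (({a, b, c, d} : Finset (Fin n)).sym2.filter fun e => ¬ e.IsDiag))
    (he2 : e2 ∈ (({a, b, c, d} : Finset (Fin n)).sym2.filter fun e => ¬ e.IsDiag))
    (ha : a ∈ e1) (hb : b ∈ e1 ∨ b ∈ e2) (hc : c ∈ e1 ∨ c ∈ e2) (hd : d ∈ e1 ∨ d ∈ e2) :
    (e1 = s(a, b) ∧ e2 = s(c, d)) ∨ (e1 = s(a, c) ∧ e2 = s(b, d)) ∨
      (e1 = s(a, d) ∧ e2 = s(b, c)) := by
  obtain ⟨t, rfl⟩ := ha
  rw [Finset.mem_filter, Finset.mem_sym2_iff] at he1 he2
  have ht : t ∈ ({a, b, c, d} : Finset (Fin n)) := he1.1 t (by simp)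
  have hta : t ≠ a := by
    rintro rfl
    exact he1.2 (by simp)
  obtain rfl | rfl | rfl | rfl := mem_four ht
  · exact absurd rfl hta
  · left
    have hc' : c ∈ e2 := by
      rcases hc with hc | hc
      · simp [hac.symm, hbc.symm] at hc
      · exact hc
    obtain ⟨r, rfl⟩ := hc'
    have hd' : d ∈ s(c, r) := by
      rcases hd with hd | hd
      · simp [had.symm, hbd.symm] at hd
      · exact hd
    have : r = d := by
      simp [hcd.symm] at hd'
      exact hd'.symm
    subst this
    exact ⟨rfl, rfl⟩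
  · right; left
    have hb' : b ∈ e2 := by
      rcases hb with hb | hb
      · simp [hab.symm, hbc] at hb
      · exact hb
    obtain ⟨r, rfl⟩ := hb'
    have hd' : d ∈ s(b, r) := by
      rcases hd with hd | hd
      · simp [had.symm, hcd.symm] at hd
      · exact hd
    have : r = d := by
      simp [hbd.symm] at hd'
      exact hd'.symm
    subst this
    exact ⟨rfl, rfl⟩
  · right; right
    have hb' : b ∈ e2 := by
      rcases hb with hb | hb
      · simp [hab.symm, hbd] at hb
      · exact hb
    obtain ⟨r, rfl⟩ := hb'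
    have hc' : c ∈ s(b, r) := by
      rcases hc with hc | hc
      · simp [hac.symm, hcd] at hc
      · exact hc
    have : r = c := by
      simp [hbc.symm] at hc'
      exact hc'.symm
    subst this
    exact ⟨rfl, rfl⟩

/-- The three perfect matchings of a four-element set, explicitly. -/
theorem matchings_explicit {a b c d : Fin n} (hab : a ≠ b) (hac : a ≠ c) (had : a ≠ d)
    (hbc : b ≠ c) (hbd : b ≠ d) (hcd : c ≠ d) :
    matchings ({a, b, c, d} : Finset (Fin n)) =
      {{s(a, b), s(c, d)}, {s(a, c), s(b, d)}, {s(a, d), s(b, c)}} := by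
  ext M
  have hR : M ∈ ({{s(a, b), s(c, d)}, {s(a, c), s(b, d)}, {s(a, d), s(b, c)}} :
      Finset (Finset (Sym2 (Fin n)))) ↔ M = {s(a, b), s(c, d)} ∨ M = {s(a, c), s(b, d)} ∨
        M = {s(a, d), s(b, c)} := by simp
  rw [hR, matchings, Finset.mem_filter, Finset.mem_powersetCard]
  constructor
  · rintro ⟨⟨hsub, hcard⟩, hcov⟩
    obtain ⟨e1, e2, hne, rfl⟩ := Finset.card_eq_two.1 hcard
    have h1 : e1 ∈ (({a, b, c, d} : Finset (Fin n)).sym2.filter fun e => ¬ e.IsDiag) :=
      hsub (by simp)
    have h2 : e2 ∈ (({a, b, c, d} : Finset (Fin n)).sym2.filter fun e => ¬ e.IsDiag) :=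
      hsub (by simp)
    have cov : ∀ t ∈ ({a, b, c, d} : Finset (Fin n)), t ∈ e1 ∨ t ∈ e2 := by
      intro t ht
      obtain ⟨e, he, hte⟩ := hcov t ht
      simp only [Finset.mem_insert, Finset.mem_singleton] at he
      rcases he with rfl | rfl
      · exact Or.inl hte
      · exact Or.inr hte
    have ca := cov a (by simp)
    have cb := cov b (by simp)
    have cc := cov c (by simp)
    have cd := cov d (by simp)
    rcases ca with ca | ca
    · rcases aux_form hab hac had hbc hbd hcd h1 h2 ca cb cc cd with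
        ⟨rfl, rfl⟩ | ⟨rfl, rfl⟩ | ⟨rfl, rfl⟩
      · exact Or.inl rfl
      · exact Or.inr (Or.inl rfl)
      · exact Or.inr (Or.inr rfl)
    · rcases aux_form hab hac had hbc hbd hcd h2 h1 ca cb.symm cc.symm cd.symm with
        ⟨rfl, rfl⟩ | ⟨rfl, rfl⟩ | ⟨rfl, rfl⟩
      · exact Or.inl (Finset.pair_comm _ _)
      · exact Or.inr (Or.inl (Finset.pair_comm _ _))
      · exact Or.inr (Or.inr (Finset.pair_comm _ _))
  · have key : ∀ {p q r t : Fin n}, p ≠ q → r ≠ t → p ∈ ({a, b, c, d} : Finset (Fin n)) →
        q ∈ ({a, b, c, d} : Finset (Fin n)) → r ∈ ({a, b, c, d} : Finset (Fin n)) →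
        t ∈ ({a, b, c, d} : Finset (Fin n)) → s(p, q) ≠ s(r, t) →
        (∀ u ∈ ({a, b, c, d} : Finset (Fin n)), ∃ e ∈ ({s(p, q), s(r, t)} : Finset (Sym2 (Fin n))),
          u ∈ e) →
        (({s(p, q), s(r, t)} : Finset (Sym2 (Fin n))) ⊆
          (({a, b, c, d} : Finset (Fin n)).sym2.filter fun e => ¬ e.IsDiag) ∧
          ({s(p, q), s(r, t)} : Finset (Sym2 (Fin n))).card = 2) ∧
        ∀ u ∈ ({a, b, c, d} : Finset (Fin n)),
          ∃ e ∈ ({s(p, q), s(r, t)} : Finset (Sym2 (Fin n))), u ∈ e := by
      intro p q r t hpq hrt hp hq hr ht hne hcov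
      refine ⟨⟨?_, Finset.card_pair hne⟩, hcov⟩
      intro e he
      simp only [Finset.mem_insert, Finset.mem_singleton] at he
      rw [Finset.mem_filter, Finset.mem_sym2_iff]
      rcases he with rfl | rfl
      · refine ⟨?_, by simpa using hpq⟩
        intro v hv
        simp only [Sym2.mem_iff] at hv
        rcases hv with rfl | rfl <;> assumption
      · refine ⟨?_, by simpa using hrt⟩
        intro v hv
        simp only [Sym2.mem_iff] at hv
        rcases hv with rfl | rfl <;> assumption
    rintro (rfl | rfl | rfl)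
    · refine key hab hcd (by simp) (by simp) (by simp) (by simp) ?_ ?_
      · intro h
        simp only [Sym2.eq_iff] at h
        rcases h with ⟨h, _⟩ | ⟨h, _⟩
        · exact hac h
        · exact had h
      · intro u hu
        obtain h | h | h | h := mem_four hu <;> rw [h]
        · exact ⟨s(a, b), by simp, by simp⟩
        · exact ⟨s(a, b), by simp, by simp⟩
        · exact ⟨s(c, d), by simp, by simp⟩
        · exact ⟨s(c, d), by simp, by simp⟩
    · refine key hac hbd (by simp) (by simp) (by simp) (by simp) ?_ ?_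
      · intro h
        simp only [Sym2.eq_iff] at h
        rcases h with ⟨h, _⟩ | ⟨h, _⟩
        · exact hab h
        · exact had h
      · intro u hu
        obtain h | h | h | h := mem_four hu <;> rw [h]
        · exact ⟨s(a, c), by simp, by simp⟩
        · exact ⟨s(b, d), by simp, by simp⟩
        · exact ⟨s(a, c), by simp, by simp⟩
        · exact ⟨s(b, d), by simp, by simp⟩
    · refine key had hbc (by simp) (by simp) (by simp) (by simp) ?_ ?_
      · intro h
        simp only [Sym2.eq_iff] at h
        rcases h with ⟨h, _⟩ | ⟨h, _⟩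
        · exact hab h
        · exact hac h
      · intro u hu
        obtain h | h | h | h := mem_four hu <;> rw [h]
        · exact ⟨s(a, d), by simp, by simp⟩
        · exact ⟨s(b, c), by simp, by simp⟩
        · exact ⟨s(b, c), by simp, by simp⟩
        · exact ⟨s(a, d), by simp, by simp⟩

/-- A four-element set is `{a, b, c, d}`. -/
theorem exists_four {S : Finset (Fin n)} (hS : S.card = 4) :
    ∃ a b c d : Fin n, a ≠ b ∧ a ≠ c ∧ a ≠ d ∧ b ≠ c ∧ b ≠ d ∧ c ≠ d ∧ S = {a, b, c, d} := by
  obtain ⟨a, T, ha, rfl, hT⟩ := Finset.card_eq_succ.1 hS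
  obtain ⟨b, c, d, hbc, hbd, hcd, rfl⟩ := Finset.card_eq_three.1 hT
  simp only [Finset.mem_insert, Finset.mem_singleton, not_or] at ha
  exact ⟨a, b, c, d, ha.1, ha.2.1, ha.2.2, hbc, hbd, hcd, rfl⟩

/-- Three matchings. -/
theorem card_matchings {S : Finset (Fin n)} (hS : S.card = 4) : (matchings S).card = 3 := by
  obtain ⟨a, b, c, d, hab, hac, had, hbc, hbd, hcd, rfl⟩ := exists_four hS
  rw [matchings_explicit hab hac had hbc hbd hcd]
  have ne12 : ({s(a, b), s(c, d)} : Finset (Sym2 (Fin n))) ≠ {s(a, c), s(b, d)} := by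
    intro h
    have : s(a, b) ∈ ({s(a, c), s(b, d)} : Finset (Sym2 (Fin n))) := h ▸ (by simp)
    simp [Sym2.eq_iff, hab, hac, had, hbc, hbd, hcd, hab.symm, hac.symm, had.symm, hbc.symm,
      hbd.symm, hcd.symm] at this
  have ne13 : ({s(a, b), s(c, d)} : Finset (Sym2 (Fin n))) ≠ {s(a, d), s(b, c)} := by
    intro h
    have : s(a, b) ∈ ({s(a, d), s(b, c)} : Finset (Sym2 (Fin n))) := h ▸ (by simp)
    simp [Sym2.eq_iff, hab, hac, had, hbc, hbd, hcd, hab.symm, hac.symm, had.symm, hbc.symm,
      hbd.symm, hcd.symm] at this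
  have ne23 : ({s(a, c), s(b, d)} : Finset (Sym2 (Fin n))) ≠ {s(a, d), s(b, c)} := by
    intro h
    have : s(a, c) ∈ ({s(a, d), s(b, c)} : Finset (Sym2 (Fin n))) := h ▸ (by simp)
    simp [Sym2.eq_iff, hab, hac, had, hbc, hbd, hcd, hab.symm, hac.symm, had.symm, hbc.symm,
      hbd.symm, hcd.symm] at this
  rw [Finset.card_insert_of_notMem, Finset.card_insert_of_notMem, Finset.card_singleton]
  · simpa using ne23
  · simp [ne12, ne13]

/-- Six ordered pairs. -/
theorem card_offDiag_matchings {S : Finset (Fin n)} (hS : S.card = 4) :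
    (matchings S).offDiag.card = 6 := by
  rw [Finset.offDiag_card, card_matchings hS]

/-- Normal form of an ordered pair of distinct matchings. -/
theorem offDiag_normal_form {S : Finset (Fin n)} (hS : S.card = 4) {F F' : Finset (Sym2 (Fin n))}
    (hF : F ∈ matchings S) (hF' : F' ∈ matchings S) (hne : F ≠ F') :
    ∃ a b c d : Fin n, a ≠ b ∧ a ≠ c ∧ a ≠ d ∧ b ≠ c ∧ b ≠ d ∧ c ≠ d ∧ S = {a, b, c, d} ∧
      F = {s(a, b), s(c, d)} ∧ F' = {s(a, c), s(b, d)} := by
  obtain ⟨a, b, c, d, hab, hac, had, hbc, hbd, hcd, rfl⟩ := exists_four hS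
  rw [matchings_explicit hab hac had hbc hbd hcd] at hF hF'
  simp only [Finset.mem_insert, Finset.mem_singleton] at hF hF'
  have swap1 : ∀ p q : Fin n, s(p, q) = s(q, p) := fun p q => Sym2.eq_swap
  rcases hF with rfl | rfl | rfl <;> rcases hF' with rfl | rfl | rfl
  · exact absurd rfl hne
  · exact ⟨a, b, c, d, hab, hac, had, hbc, hbd, hcd, rfl, rfl, rfl⟩
  · refine ⟨a, b, d, c, hab, had, hac, hbd, hbc, hcd.symm, ?_, ?_, ?_⟩
    · ext t; simp; tauto
    · rw [swap1 c d]
    · rfl
  · exact ⟨a, c, b, d, hac, hab, had, hbc.symm, hcd, hbd, by ext t; simp; tauto, rfl, rfl⟩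
  · exact absurd rfl hne
  · refine ⟨a, c, d, b, hac, had, hab, hcd, hbc.symm, hbd.symm, ?_, ?_, ?_⟩
    · ext t; simp; tauto
    · rw [swap1 d b]
    · rw [swap1 c b]
  · exact ⟨a, d, b, c, had, hab, hac, hbd.symm, hcd.symm, hbc, by ext t; simp; tauto, rfl,
      by rw [swap1 d c]⟩
  · refine ⟨a, d, c, b, had, hac, hab, hcd.symm, hbd.symm, hbc.symm, ?_, ?_, ?_⟩
    · ext t; simp; tauto
    · rw [swap1 c b]
    · rw [swap1 d b]
  · exact absurd rfl hne

/-- Distinct matchings are disjoint. -/
theorem disjoint_of_normal {a b c d : Fin n} (hab : a ≠ b) (hac : a ≠ c) (had : a ≠ d)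
    (hbc : b ≠ c) (hbd : b ≠ d) (hcd : c ≠ d) :
    Disjoint ({s(a, b), s(c, d)} : Finset (Sym2 (Fin n))) {s(a, c), s(b, d)} := by
  rw [Finset.disjoint_left]
  intro e he he'
  simp only [Finset.mem_insert, Finset.mem_singleton] at he he'
  rcases he with rfl | rfl <;> rcases he' with h | h <;>
    simp [Sym2.eq_iff, hab, hac, had, hbc, hbd, hcd, hab.symm, hac.symm, had.symm, hbc.symm,
      hbd.symm, hcd.symm] at h

theorem disjoint_matchings {S : Finset (Fin n)} (hS : S.card = 4) {F F' : Finset (Sym2 (Fin n))}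
    (hF : F ∈ matchings S) (hF' : F' ∈ matchings S) (hne : F ≠ F') : Disjoint F F' := by
  obtain ⟨a, b, c, d, hab, hac, had, hbc, hbd, hcd, -, rfl, rfl⟩ :=
    offDiag_normal_form hS hF hF' hne
  exact disjoint_of_normal hab hac had hbc hbd hcd

/-- Applying the reverse proposal undoes an effective proposal. -/
theorem step_step {F F' : Finset (Sym2 (Fin n))} (hd : Disjoint F F') {x : Gr n}
    (he : (∀ e ∈ F, x e = true) ∧ (∀ e ∈ F', x e = false)) :
    step F' F (step F F' x) = x := by
  have hs : step F F' x = fun e => if e ∈ F then false else if e ∈ F' then true else x e := by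
    unfold step
    rw [if_pos he]
  rw [hs]
  have hc : (∀ e ∈ F', (fun e => if e ∈ F then false else if e ∈ F' then true else x e) e = true) ∧
      (∀ e ∈ F, (fun e => if e ∈ F then false else if e ∈ F' then true else x e) e = false) := by
    constructor
    · intro e he'
      have : e ∉ F := fun h => (Finset.disjoint_left.1 hd h) he'
      simp [this, he']
    · intro e he'
      simp [he']
  unfold step
  rw [if_pos hc]
  funext e
  by_cases h1 : e ∈ F'
  · have : e ∉ F := fun h => (Finset.disjoint_left.1 hd h) h1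
    simp [h1, this, he.2 e h1]
  · by_cases h2 : e ∈ F
    · simp [h1, h2, he.1 e h2]
    · simp [h1, h2]

/-- For distinct states, a proposal moves `x` to `y` exactly when the reverse proposal moves
`y` to `x`. -/
theorem step_eq_iff {F F' : Finset (Sym2 (Fin n))} (hd : Disjoint F F') {x y : Gr n}
    (hne : x ≠ y) : step F F' x = y ↔ step F' F y = x := by
  have key : ∀ {F F' : Finset (Sym2 (Fin n))}, Disjoint F F' → ∀ {x y : Gr n}, x ≠ y →
      step F F' x = y → step F' F y = x := by
    intro F F' hd x y hne h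
    by_cases he : (∀ e ∈ F, x e = true) ∧ (∀ e ∈ F', x e = false)
    · rw [← h]
      exact step_step hd he
    · exfalso
      apply hne
      rw [← h]
      simp [step, he]
  exact ⟨key hd hne, key hd.symm hne.symm⟩

/-- Degree is unchanged when one neighbour is exchanged for another. -/
theorem deg_eq_of_swap {x y : Gr n} {p q r : Fin n} (hq : q ≠ p) (hr : r ≠ p) (hqr : q ≠ r)
    (hxq : x s(p, q) = true) (hxr : x s(p, r) = false) (hyq : y s(p, q) = false)
    (hyr : y s(p, r) = true) (hrest : ∀ t, t ≠ q → t ≠ r → y s(p, t) = x s(p, t)) :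
    deg y p = deg x p := by
  unfold deg
  have hset : (univ.filter fun b => b ≠ p ∧ y s(p, b) = true) =
      insert r ((univ.filter fun b => b ≠ p ∧ x s(p, b) = true).erase q) := by
    ext t
    simp only [Finset.mem_filter, Finset.mem_univ, true_and, Finset.mem_insert, Finset.mem_erase]
    by_cases h1 : t = q
    · subst h1
      simp [hq, hyq, hqr]
    · by_cases h2 : t = r
      · subst h2
        simp [hr, hyr]
      · simp [h1, h2, hrest t h1 h2]
  rw [hset, Finset.card_insert_of_notMem, Finset.card_erase_of_mem]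
  · have : 0 < (univ.filter fun b => b ≠ p ∧ x s(p, b) = true).card :=
      Finset.card_pos.2 ⟨q, by simp [hq, hxq]⟩
    omega
  · simp [hq, hxq]
  · simp [hxr]

theorem deg_eq_of_same {x y : Gr n} {p : Fin n} (h : ∀ t, y s(p, t) = x s(p, t)) :
    deg y p = deg x p := by
  unfold deg
  congr 1
  ext t
  simp [h t]

/-- A proposal from a pair of distinct matchings preserves the state space. -/
theorem step_mem_Om {d : Fin n → ℕ} {S : Finset (Fin n)} (hS : S.card = 4)
    {F F' : Finset (Sym2 (Fin n))} (hF : F ∈ matchings S) (hF' : F' ∈ matchings S) (hne : F ≠ F')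
    {x : Gr n} (hx : x ∈ Om d) : step F F' x ∈ Om d := by
  obtain ⟨a, b, c, d', hab, hac, had, hbc, hbd, hcd, -, rfl, rfl⟩ :=
    offDiag_normal_form hS hF hF' hne
  by_cases he : (∀ e ∈ ({s(a, b), s(c, d')} : Finset (Sym2 (Fin n))), x e = true) ∧
      (∀ e ∈ ({s(a, c), s(b, d')} : Finset (Sym2 (Fin n))), x e = false)
  · have hs : step {s(a, b), s(c, d')} {s(a, c), s(b, d')} x =
        fun e => if e ∈ ({s(a, b), s(c, d')} : Finset (Sym2 (Fin n))) then false else
          if e ∈ ({s(a, c), s(b, d')} : Finset (Sym2 (Fin n))) then true else x e := by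
      unfold step
      rw [if_pos he]
    rw [hs]
    set y : Gr n := fun e => if e ∈ ({s(a, b), s(c, d')} : Finset (Sym2 (Fin n))) then false else
          if e ∈ ({s(a, c), s(b, d')} : Finset (Sym2 (Fin n))) then true else x e with hy
    have xab : x s(a, b) = true := he.1 _ (by simp)
    have xcd : x s(c, d') = true := he.1 _ (by simp)
    have xac : x s(a, c) = false := he.2 _ (by simp)
    have xbd : x s(b, d') = false := he.2 _ (by simp)
    have hOm := (Finset.mem_filter.1 hx).2
    have yF1 : ∀ e, e = s(a, b) ∨ e = s(c, d') → y e = false := by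
      intro e he1
      have : e ∈ ({s(a, b), s(c, d')} : Finset (Sym2 (Fin n))) := by simpa using he1
      show (if e ∈ ({s(a, b), s(c, d')} : Finset (Sym2 (Fin n))) then false else
          if e ∈ ({s(a, c), s(b, d')} : Finset (Sym2 (Fin n))) then true else x e) = false
      rw [if_pos this]
    have yF2 : ∀ e, (e = s(a, c) ∨ e = s(b, d')) → y e = true := by
      intro e he1
      have h2 : e ∈ ({s(a, c), s(b, d')} : Finset (Sym2 (Fin n))) := by simpa using he1
      have h1 : e ∉ ({s(a, b), s(c, d')} : Finset (Sym2 (Fin n))) := fun h =>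
        Finset.disjoint_left.1 (disjoint_of_normal hab hac had hbc hbd hcd) h h2
      show (if e ∈ ({s(a, b), s(c, d')} : Finset (Sym2 (Fin n))) then false else
          if e ∈ ({s(a, c), s(b, d')} : Finset (Sym2 (Fin n))) then true else x e) = true
      rw [if_neg h1, if_pos h2]
    have yR : ∀ e, e ≠ s(a, b) → e ≠ s(c, d') → e ≠ s(a, c) → e ≠ s(b, d') → y e = x e := by
      intro e h1 h2 h3 h4
      show (if e ∈ ({s(a, b), s(c, d')} : Finset (Sym2 (Fin n))) then false else
          if e ∈ ({s(a, c), s(b, d')} : Finset (Sym2 (Fin n))) then true else x e) = x e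
      rw [if_neg (by simp [h1, h2]), if_neg (by simp [h3, h4])]
    refine Finset.mem_filter.2 ⟨Finset.mem_univ _, ?_, ?_⟩
    · intro t
      rw [yR]
      · exact hOm.1 t
      all_goals
        simp only [ne_eq, Sym2.eq_iff, not_or, not_and]
        constructor <;> intro h1 h2 <;> simp_all
    · intro t
      rw [← hOm.2 t]
      by_cases hta : t = a
      · subst hta
        refine deg_eq_of_swap (q := b) (r := c) hab.symm hac.symm hbc xab xac (yF1 _ (Or.inl rfl))
          (yF2 _ (Or.inl rfl)) ?_
        intro u hu1 hu2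
        apply yR <;> simp [Sym2.eq_iff, *]
      by_cases htb : t = b
      · subst htb
        have e1 : s(t, a) = s(a, t) := Sym2.eq_swap
        refine deg_eq_of_swap (q := a) (r := d') hab hbd.symm had (by rw [e1]; exact xab) xbd
          (yF1 _ (Or.inl e1)) (yF2 _ (Or.inr rfl)) ?_
        intro u hu1 hu2
        apply yR <;> simp [Sym2.eq_iff, *]
      by_cases htc : t = c
      · subst htc
        have e1 : s(t, a) = s(a, t) := Sym2.eq_swap
        refine deg_eq_of_swap (q := d') (r := a) hcd.symm hac (Ne.symm had) xcd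
          (by rw [e1]; exact xac) (yF1 _ (Or.inr rfl)) (yF2 _ (Or.inl e1)) ?_
        intro u hu1 hu2
        apply yR <;> simp [Sym2.eq_iff, *]
      by_cases htd : t = d'
      · subst htd
        have e1 : s(t, c) = s(c, t) := Sym2.eq_swap
        have e2 : s(t, b) = s(b, t) := Sym2.eq_swap
        refine deg_eq_of_swap (q := c) (r := b) hcd hbd hbc.symm (by rw [e1]; exact xcd)
          (by rw [e2]; exact xbd) (yF1 _ (Or.inr e1)) (yF2 _ (Or.inr e2)) ?_
        intro u hu1 hu2
        apply yR <;> simp [Sym2.eq_iff, *]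
      · apply deg_eq_of_same
        intro u
        apply yR <;> simp [Sym2.eq_iff, *]
  · have : step {s(a, b), s(c, d')} {s(a, c), s(b, d')} x = x := by
      simp only [step]
      rw [if_neg he]
    rw [this]
    exact hx

end Vale.Agent.Lib.P335
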