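import Mathlib

/-!
Abstract L2 decay for a lazy symmetric stochastic kernel on a finite set.
-/

namespace Vale.Agent.Lib.P335

open Finset

section Abstract

variable {X : Type*} (s : Finset X) (A : X → X → ℝ)

/-- Jensen for a stochastic symmetric kernel. -/
theorem kernel_sq_le (h0 : ∀ y ∈ s, ∀ z ∈ s, 0 ≤ A y z)
    (hsym : ∀ y ∈ s, ∀ z ∈ s, A y z = A z y)
    (hsum : ∀ y ∈ s, ∑ z ∈ s, A y z = 1) (g : X → ℝ) :
    ∑ y ∈ s, (∑ z ∈ s, A y z * g z) ^ 2 ≤ ∑ y ∈ s, g y ^ 2 := by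
  have h1 : ∀ y ∈ s, (∑ z ∈ s, A y z * g z) ^ 2 ≤ ∑ z ∈ s, A y z * g z ^ 2 := by
    intro y hy
    have hcs := Finset.sum_mul_sq_le_sq_mul_sq s (fun z => Real.sqrt (A y z))
      (fun z => Real.sqrt (A y z) * g z)
    have e1 : ∑ z ∈ s, Real.sqrt (A y z) * (Real.sqrt (A y z) * g z) = ∑ z ∈ s, A y z * g z := by
      refine Finset.sum_congr rfl fun z hz => ?_
      rw [← mul_assoc, Real.mul_self_sqrt (h0 y hy z hz)]
    have e2 : ∑ z ∈ s, Real.sqrt (A y z) ^ 2 = 1 := by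
      rw [← hsum y hy]
      refine Finset.sum_congr rfl fun z hz => ?_
      rw [Real.sq_sqrt (h0 y hy z hz)]
    have e3 : ∑ z ∈ s, (Real.sqrt (A y z) * g z) ^ 2 = ∑ z ∈ s, A y z * g z ^ 2 := by
      refine Finset.sum_congr rfl fun z hz => ?_
      rw [mul_pow, Real.sq_sqrt (h0 y hy z hz)]
    rw [e1, e2, e3, one_mul] at hcs
    exact hcs
  calc ∑ y ∈ s, (∑ z ∈ s, A y z * g z) ^ 2 ≤ ∑ y ∈ s, ∑ z ∈ s, A y z * g z ^ 2 :=
        Finset.sum_le_sum h1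
    _ = ∑ z ∈ s, ∑ y ∈ s, A y z * g z ^ 2 := Finset.sum_comm
    _ = ∑ z ∈ s, g z ^ 2 := by
        refine Finset.sum_congr rfl fun z hz => ?_
        have : ∑ y ∈ s, A y z * g z ^ 2 = (∑ y ∈ s, A z y) * g z ^ 2 := by
          rw [Finset.sum_mul]
          refine Finset.sum_congr rfl fun y hy => ?_
          rw [hsym y hy z hz]
        rw [this, hsum z hz, one_mul]

/-- The Dirichlet identity. -/
theorem dirichlet_identity
    (hsym : ∀ y ∈ s, ∀ z ∈ s, A y z = A z y)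
    (hsum : ∀ y ∈ s, ∑ z ∈ s, A y z = 1) (g : X → ℝ) :
    ∑ y ∈ s, ∑ z ∈ s, A y z * (g y - g z) ^ 2 =
      2 * ∑ y ∈ s, g y ^ 2 - 2 * ∑ y ∈ s, g y * ∑ z ∈ s, A y z * g z := by
  have e1 : ∑ y ∈ s, ∑ z ∈ s, A y z * g y ^ 2 = ∑ y ∈ s, g y ^ 2 := by
    refine Finset.sum_congr rfl fun y hy => ?_
    rw [← Finset.sum_mul, hsum y hy, one_mul]
  have e2 : ∑ y ∈ s, ∑ z ∈ s, A y z * g z ^ 2 = ∑ y ∈ s, g y ^ 2 := by
    rw [Finset.sum_comm]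
    refine Finset.sum_congr rfl fun z hz => ?_
    have : ∑ y ∈ s, A y z * g z ^ 2 = (∑ y ∈ s, A z y) * g z ^ 2 := by
      rw [Finset.sum_mul]
      refine Finset.sum_congr rfl fun y hy => ?_
      rw [hsym y hy z hz]
    rw [this, hsum z hz, one_mul]
  have e3 : ∑ y ∈ s, g y * ∑ z ∈ s, A y z * g z = ∑ y ∈ s, ∑ z ∈ s, A y z * (g y * g z) := by
    refine Finset.sum_congr rfl fun y _ => ?_
    rw [Finset.mul_sum]
    refine Finset.sum_congr rfl fun z _ => ?_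
    ring
  have e4 : ∑ y ∈ s, ∑ z ∈ s, A y z * (g y - g z) ^ 2 =
      ∑ y ∈ s, ∑ z ∈ s, A y z * g y ^ 2 + ∑ y ∈ s, ∑ z ∈ s, A y z * g z ^ 2 -
        2 * ∑ y ∈ s, ∑ z ∈ s, A y z * (g y * g z) := by
    rw [Finset.mul_sum, ← Finset.sum_add_distrib, ← Finset.sum_sub_distrib]
    refine Finset.sum_congr rfl fun y _ => ?_
    rw [Finset.mul_sum, ← Finset.sum_add_distrib, ← Finset.sum_sub_distrib]
    refine Finset.sum_congr rfl fun z _ => ?_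
    ring
  rw [e4, e1, e2, e3]
  ring

/-- One step of the lazy chain loses at least the Dirichlet energy. -/
theorem lazy_step_le (h0 : ∀ y ∈ s, ∀ z ∈ s, 0 ≤ A y z)
    (hsym : ∀ y ∈ s, ∀ z ∈ s, A y z = A z y)
    (hsum : ∀ y ∈ s, ∑ z ∈ s, A y z = 1) (g : X → ℝ) :
    ∑ y ∈ s, ((1 / 2) * g y + (1 / 2) * ∑ z ∈ s, A y z * g z) ^ 2 ≤
      ∑ y ∈ s, g y ^ 2 - (1 / 4) * ∑ y ∈ s, ∑ z ∈ s, A y z * (g y - g z) ^ 2 := by
  have h1 := kernel_sq_le s A h0 hsym hsum g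
  have h2 := dirichlet_identity s A hsym hsum g
  have e : ∑ y ∈ s, ((1 / 2) * g y + (1 / 2) * ∑ z ∈ s, A y z * g z) ^ 2 =
      (1 / 4) * ∑ y ∈ s, g y ^ 2 + (1 / 2) * ∑ y ∈ s, g y * ∑ z ∈ s, A y z * g z +
        (1 / 4) * ∑ y ∈ s, (∑ z ∈ s, A y z * g z) ^ 2 := by
    rw [Finset.mul_sum, Finset.mul_sum, Finset.mul_sum, ← Finset.sum_add_distrib,
      ← Finset.sum_add_distrib]
    refine Finset.sum_congr rfl fun y _ => ?_
    ring
  rw [e, h2]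
  linarith

end Abstract

end Vale.Agent.Lib.P335
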