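import Vale.Agent.Lib.P335.Match
import Vale.Agent.Lib.P335.MixAbs

/-!
From the Poincare inequality on the switch energy to the mixing time bound of the literal chain.
-/

set_option linter.unusedSimpArgs false

namespace Vale.Agent.Lib.P335

open Finset

variable {n : ℕ}

/-- The non-lazy part of the kernel. -/
noncomputable def moveKernel (n : ℕ) (x y : Gr n) : ℝ :=
  ∑ S ∈ powersetCard 4 (univ : Finset (Fin n)), (1 / (n.choose 4 : ℝ)) *
    ∑ p ∈ (matchings S).offDiag, (1 / 6) * (if step p.1 p.2 x = y then (1 : ℝ) else 0)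

theorem switchKernel_apply (x y : Gr n) :
    switchKernel n x y = (1 / 2) * (if x = y then 1 else 0) + (1 / 2) * moveKernel n x y := rfl

theorem moveKernel_nonneg (x y : Gr n) : 0 ≤ moveKernel n x y := by
  unfold moveKernel
  refine Finset.sum_nonneg fun S _ => mul_nonneg (by positivity) ?_
  refine Finset.sum_nonneg fun p _ => mul_nonneg (by norm_num) ?_
  split_ifs <;> norm_num

theorem card_of_mem_powerset {S : Finset (Fin n)}
    (hS : S ∈ powersetCard 4 (univ : Finset (Fin n))) : S.card = 4 :=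
  (Finset.mem_powersetCard.1 hS).2

/-- The kernel is symmetric. -/
theorem moveKernel_symm (x y : Gr n) : moveKernel n x y = moveKernel n y x := by
  by_cases hxy : x = y
  · rw [hxy]
  unfold moveKernel
  refine Finset.sum_congr rfl fun S hS => ?_
  congr 1
  have hS4 := card_of_mem_powerset hS
  refine Finset.sum_nbij' (fun p => (p.2, p.1)) (fun p => (p.2, p.1)) ?_ ?_ ?_ ?_ ?_
  · intro p hp
    rw [Finset.mem_offDiag] at hp ⊢
    exact ⟨hp.2.1, hp.1, fun h => hp.2.2 h.symm⟩
  · intro p hp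
    rw [Finset.mem_offDiag] at hp ⊢
    exact ⟨hp.2.1, hp.1, fun h => hp.2.2 h.symm⟩
  · intro p _; rfl
  · intro p _; rfl
  · intro p hp
    rw [Finset.mem_offDiag] at hp
    have hd := disjoint_matchings hS4 hp.1 hp.2.1 hp.2.2
    have := step_eq_iff hd hxy
    congr 1
    simp only [this]

/-- The state space is closed under the moves. -/
theorem step_mem_of_mem {d : Fin n → ℕ} {S : Finset (Fin n)}
    (hS : S ∈ powersetCard 4 (univ : Finset (Fin n)))
    {p : Finset (Sym2 (Fin n)) × Finset (Sym2 (Fin n))} (hp : p ∈ (matchings S).offDiag)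
    {x : Gr n} (hx : x ∈ Om d) : step p.1 p.2 x ∈ Om d := by
  rw [Finset.mem_offDiag] at hp
  exact step_mem_Om (card_of_mem_powerset hS) hp.1 hp.2.1 hp.2.2 hx

theorem choose_pos_real (hn : 4 ≤ n) : 0 < (n.choose 4 : ℝ) := by
  exact_mod_cast Nat.choose_pos hn

theorem card_powerset_real : ((powersetCard 4 (univ : Finset (Fin n))).card : ℝ) = n.choose 4 := by
  rw [Finset.card_powersetCard]; simp

/-- A sum over the proposals of a function evaluated at the target, as a weighted sum over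
the whole state space. -/
theorem sum_moveKernel_mul {d : Fin n → ℕ} {x : Gr n} (hx : x ∈ Om d) (φ : Gr n → ℝ) :
    ∑ z ∈ Om d, moveKernel n x z * φ z =
      ∑ S ∈ powersetCard 4 (univ : Finset (Fin n)), (1 / (n.choose 4 : ℝ)) *
        ∑ p ∈ (matchings S).offDiag, (1 / 6) * φ (step p.1 p.2 x) := by
  unfold moveKernel
  simp_rw [Finset.sum_mul]
  rw [Finset.sum_comm]
  refine Finset.sum_congr rfl fun S hS => ?_
  simp_rw [mul_assoc]
  rw [← Finset.mul_sum]
  congr 1
  simp_rw [Finset.sum_mul]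
  rw [Finset.sum_comm]
  refine Finset.sum_congr rfl fun p hp => ?_
  simp_rw [mul_assoc]
  rw [← Finset.mul_sum]
  congr 1
  rw [Finset.sum_eq_single (step p.1 p.2 x)]
  · simp
  · intro b _ hb
    simp [Ne.symm hb]
  · intro h
    exact absurd (step_mem_of_mem hS hp hx) h

/-- The kernel is stochastic on the state space. -/
theorem sum_moveKernel {d : Fin n → ℕ} (hn : 4 ≤ n) {x : Gr n} (hx : x ∈ Om d) :
    ∑ z ∈ Om d, moveKernel n x z = 1 := by
  have h := sum_moveKernel_mul hx (fun _ => (1 : ℝ))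
  simp only [mul_one] at h
  rw [h]
  have h6 : ∀ S ∈ powersetCard 4 (univ : Finset (Fin n)),
      (1 / (n.choose 4 : ℝ)) * ∑ _p ∈ (matchings S).offDiag, ((1 : ℝ) / 6) = 1 / (n.choose 4 : ℝ) := by
    intro S hS
    rw [Finset.sum_const, card_offDiag_matchings (card_of_mem_powerset hS)]
    norm_num
  rw [Finset.sum_congr rfl h6, Finset.sum_const, nsmul_eq_mul, card_powerset_real]
  have := choose_pos_real hn
  field_simp

/-- The energy of a proposal. -/
noncomputable def proposalEnergy (d : Fin n → ℕ) (f : Gr n → ℝ)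
    (p : Finset (Sym2 (Fin n)) × Finset (Sym2 (Fin n))) : ℝ :=
  ∑ y ∈ Om d, (f y - f (step p.1 p.2 y)) ^ 2

theorem proposalEnergy_nonneg (d : Fin n → ℕ) (f : Gr n → ℝ)
    (p : Finset (Sym2 (Fin n)) × Finset (Sym2 (Fin n))) : 0 ≤ proposalEnergy d f p :=
  Finset.sum_nonneg fun _ _ => sq_nonneg _

/-- The Dirichlet form of the kernel in terms of the proposals. -/
theorem dirichlet_eq (d : Fin n → ℕ) (f : Gr n → ℝ) :
    ∑ y ∈ Om d, ∑ z ∈ Om d, moveKernel n y z * (f y - f z) ^ 2 =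
      (1 / (n.choose 4 : ℝ)) * (1 / 6) * ∑ S ∈ powersetCard 4 (univ : Finset (Fin n)),
        ∑ p ∈ (matchings S).offDiag, proposalEnergy d f p := by
  have h1 : ∀ y ∈ Om d, ∑ z ∈ Om d, moveKernel n y z * (f y - f z) ^ 2 =
      (1 / (n.choose 4 : ℝ)) * (1 / 6) * ∑ S ∈ powersetCard 4 (univ : Finset (Fin n)),
        ∑ p ∈ (matchings S).offDiag, (f y - f (step p.1 p.2 y)) ^ 2 := by
    intro y hy
    rw [sum_moveKernel_mul hy (fun z => (f y - f z) ^ 2), Finset.mul_sum]
    refine Finset.sum_congr rfl fun S _ => ?_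
    rw [← Finset.mul_sum, mul_assoc]
  rw [Finset.sum_congr rfl h1, ← Finset.mul_sum]
  congr 1
  rw [Finset.sum_comm]
  refine Finset.sum_congr rfl fun S _ => ?_
  rw [Finset.sum_comm]
  rfl

section Quad

/-- The two matchings attached to a quadruple. -/
def quadF (q : Fin n × Fin n × Fin n × Fin n) : Finset (Sym2 (Fin n)) :=
  {s(q.1, q.2.2.1), s(q.2.1, q.2.2.2)}

def quadF' (q : Fin n × Fin n × Fin n × Fin n) : Finset (Sym2 (Fin n)) :=
  {s(q.1, q.2.2.2), s(q.2.1, q.2.2.1)}

def quadS (q : Fin n × Fin n × Fin n × Fin n) : Finset (Fin n) :=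
  {q.1, q.2.2.1, q.2.1, q.2.2.2}

theorem mem_quads {q : Fin n × Fin n × Fin n × Fin n} :
    q ∈ quads n ↔ q.1 ≠ q.2.1 ∧ q.1 ≠ q.2.2.1 ∧ q.1 ≠ q.2.2.2 ∧
      q.2.1 ≠ q.2.2.1 ∧ q.2.1 ≠ q.2.2.2 ∧ q.2.2.1 ≠ q.2.2.2 := by
  simp [quads]

theorem quad_facts {q : Fin n × Fin n × Fin n × Fin n} (hq : q ∈ quads n) :
    quadS q ∈ powersetCard 4 (univ : Finset (Fin n)) ∧ quadF q ∈ matchings (quadS q) ∧
      quadF' q ∈ matchings (quadS q) ∧ quadF q ≠ quadF' q := by
  obtain ⟨u, v, w, z⟩ := q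
  rw [mem_quads] at hq
  obtain ⟨huv, huw, huz, hvw, hvz, hwz⟩ := hq
  simp only at huv huw huz hvw hvz hwz
  have hexp := matchings_explicit huw huv huz hvw.symm hwz hvz
  have hcard : ({u, w, v, z} : Finset (Fin n)).card = 4 := by
    rw [Finset.card_insert_of_notMem, Finset.card_insert_of_notMem, Finset.card_insert_of_notMem,
      Finset.card_singleton]
    · simpa using hvz
    · simpa using ⟨hvw.symm, hwz⟩
    · simpa using ⟨huw, huv, huz⟩
  refine ⟨Finset.mem_powersetCard.2 ⟨Finset.subset_univ _, hcard⟩, ?_, ?_, ?_⟩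
  · simp only [quadF, quadS]
    rw [hexp]; simp
  · simp only [quadF', quadS]
    rw [hexp, Sym2.eq_swap (a := v) (b := w)]; simp
  · intro h
    simp only [quadF, quadF'] at h
    have : s(u, w) ∈ ({s(u, z), s(v, w)} : Finset (Sym2 (Fin n))) := h ▸ (by simp)
    simp [Sym2.eq_iff, huv, huw, huz, hvw, hvz, hwz, huv.symm, huw.symm, huz.symm, hvw.symm,
      hvz.symm, hwz.symm] at this

/-- A quadruple in a fibre is determined by its first vertex. -/
theorem quad_inj {q q' : Fin n × Fin n × Fin n × Fin n} (hq : q ∈ quads n) (hq' : q' ∈ quads n)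
    (h1 : q.1 = q'.1) (hF : quadF q = quadF q') (hF' : quadF' q = quadF' q') : q = q' := by
  obtain ⟨u, v, w, z⟩ := q
  obtain ⟨u', v', w', z'⟩ := q'
  rw [mem_quads] at hq hq'
  obtain ⟨huv, huw, huz, hvw, hvz, hwz⟩ := hq
  obtain ⟨huv', huw', huz', hvw', hvz', hwz'⟩ := hq'
  simp only at h1 huv huw huz hvw hvz hwz huv' huw' huz' hvw' hvz' hwz'
  subst h1
  simp only [quadF, quadF'] at hF hF'
  have e1 : s(u, w) ∈ ({s(u, w'), s(v', z')} : Finset (Sym2 (Fin n))) := hF ▸ (by simp)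
  have e2 : s(u, z) ∈ ({s(u, z'), s(v', w')} : Finset (Sym2 (Fin n))) := hF' ▸ (by simp)
  have hww : w = w' := by
    rw [Finset.mem_insert, Finset.mem_singleton, Sym2.eq_iff, Sym2.eq_iff] at e1
    rcases e1 with (⟨_, h⟩ | ⟨_, h⟩) | (⟨h, _⟩ | ⟨h, _⟩)
    · exact h
    · exact absurd h.symm huw
    · exact absurd h huv'
    · exact absurd h huz'
  have hzz : z = z' := by
    rw [Finset.mem_insert, Finset.mem_singleton, Sym2.eq_iff, Sym2.eq_iff] at e2
    rcases e2 with (⟨_, h⟩ | ⟨_, h⟩) | (⟨h, _⟩ | ⟨h, _⟩)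
    · exact h
    · exact absurd h.symm huz
    · exact absurd h huv'
    · exact absurd h huw'
  subst hww hzz
  have e3 : s(v, z) ∈ ({s(u, w), s(v', z)} : Finset (Sym2 (Fin n))) := hF ▸ (by simp)
  have hvv : v = v' := by
    rw [Finset.mem_insert, Finset.mem_singleton, Sym2.eq_iff, Sym2.eq_iff] at e3
    rcases e3 with (⟨h, _⟩ | ⟨_, h⟩) | (⟨h, _⟩ | ⟨h, _⟩)
    · exact absurd h.symm huv
    · exact absurd h.symm huz
    · exact h
    · exact absurd h hvz
  subst hvv
  rfl

/-- The sum over quadruples of the energy of a function of the attached proposal. -/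
theorem sum_quads_le (d : Fin n → ℕ) (f : Gr n → ℝ)
    (Φ : (Fin n × Fin n × Fin n × Fin n) → Finset (Sym2 (Fin n)) × Finset (Sym2 (Fin n)))
    (hΦ : ∀ q ∈ quads n, Φ q ∈ (matchings (quadS q)).offDiag)
    (hinj : ∀ q ∈ quads n, ∀ q' ∈ quads n, q.1 = q'.1 → Φ q = Φ q' → q = q') :
    ∑ q ∈ quads n, proposalEnergy d f (Φ q) ≤
      4 * ∑ S ∈ powersetCard 4 (univ : Finset (Fin n)),
        ∑ p ∈ (matchings S).offDiag, proposalEnergy d f p := by
  classical
  rw [Finset.sum_sigma', Finset.mul_sum]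
  have hmaps : ∀ q ∈ quads n, (⟨quadS q, Φ q⟩ :
      Σ _ : Finset (Fin n), Finset (Sym2 (Fin n)) × Finset (Sym2 (Fin n))) ∈
        (powersetCard 4 (univ : Finset (Fin n))).sigma (fun S => (matchings S).offDiag) := by
    intro q hq
    rw [Finset.mem_sigma]
    exact ⟨(quad_facts hq).1, hΦ q hq⟩
  rw [← Finset.sum_fiberwise_of_maps_to hmaps]
  refine Finset.sum_le_sum fun t ht => ?_
  have hsame : ∀ q ∈ (quads n).filter (fun q => (⟨quadS q, Φ q⟩ :
      Σ _ : Finset (Fin n), Finset (Sym2 (Fin n)) × Finset (Sym2 (Fin n))) = t),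
      proposalEnergy d f (Φ q) = proposalEnergy d f t.2 := by
    intro q hq
    have := (Finset.mem_filter.1 hq).2
    rw [← this]
  rw [Finset.sum_congr rfl hsame, Finset.sum_const, nsmul_eq_mul]
  refine mul_le_mul_of_nonneg_right ?_ (proposalEnergy_nonneg d f _)
  have hcard : ((quads n).filter (fun q => (⟨quadS q, Φ q⟩ :
      Σ _ : Finset (Fin n), Finset (Sym2 (Fin n)) × Finset (Sym2 (Fin n))) = t)).card ≤ t.1.card := by
    refine Finset.card_le_card_of_injOn (fun q => q.1) ?_ ?_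
    · intro q hq
      have hq' := Finset.mem_filter.1 hq
      rw [← hq'.2]
      show q.1 ∈ quadS q
      simp [quadS]
    · intro q hq q' hq' h
      have h1 := Finset.mem_filter.1 hq
      have h2 := Finset.mem_filter.1 hq'
      refine hinj q h1.1 q' h2.1 h ?_
      have : (⟨quadS q, Φ q⟩ : Σ _ : Finset (Fin n), Finset (Sym2 (Fin n)) × Finset (Sym2 (Fin n))) =
          ⟨quadS q', Φ q'⟩ := h1.2.trans h2.2.symm
      exact (Sigma.mk.inj_iff.1 this).2 |> eq_of_heq
  have h4 : t.1.card = 4 := card_of_mem_powerset (Finset.mem_sigma.1 ht).1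
  rw [h4] at hcard
  exact_mod_cast hcard

/-- The switch on a rectangle is one of the two reverse proposals. -/
theorem flip_sq_eq (f : Gr n → ℝ) {q : Fin n × Fin n × Fin n × Fin n} (hq : q ∈ quads n) (y : Gr n) :
    (f y - f (flip4 q.1 q.2.1 q.2.2.1 q.2.2.2 y)) ^ 2 =
      (f y - f (step (quadF q) (quadF' q) y)) ^ 2 + (f y - f (step (quadF' q) (quadF q) y)) ^ 2 := by
  obtain ⟨u, v, w, z⟩ := q
  rw [mem_quads] at hq
  obtain ⟨huv, huw, huz, hvw, hvz, hwz⟩ := hq
  simp only at huv huw huz hvw hvz hwz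
  simp only [quadF, quadF']
  by_cases h1 : y s(u, w) = true ∧ y s(v, z) = true ∧ y s(u, z) = false ∧ y s(v, w) = false
  · obtain ⟨a1, a2, a3, a4⟩ := h1
    have hsw : switchable u v w z y = true := by simp [switchable, a1, a2, a3, a4]
    have hc1 : (∀ e ∈ ({s(u, w), s(v, z)} : Finset (Sym2 (Fin n))), y e = true) ∧
        (∀ e ∈ ({s(u, z), s(v, w)} : Finset (Sym2 (Fin n))), y e = false) := by
      simp [a1, a2, a3, a4]
    have hc2 : ¬ ((∀ e ∈ ({s(u, z), s(v, w)} : Finset (Sym2 (Fin n))), y e = true) ∧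
        (∀ e ∈ ({s(u, w), s(v, z)} : Finset (Sym2 (Fin n))), y e = false)) := by
      simp [a1, a2, a3, a4]
    have e1 : flip4 u v w z y = step {s(u, w), s(v, z)} {s(u, z), s(v, w)} y := by
      unfold flip4 step
      rw [if_pos hsw, if_pos hc1]
      funext e
      by_cases he1 : e = s(u, w)
      · subst he1; simp [a1]
      by_cases he2 : e = s(v, z)
      · subst he2; simp [a2]
      by_cases he3 : e = s(u, z)
      · subst he3; simp [a3, Sym2.eq_iff, huw, hvz, huv, hwz, huz, huv.symm, huz.symm, hwz.symm]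
      by_cases he4 : e = s(v, w)
      · subst he4; simp [a4, Sym2.eq_iff, huw, hvz, huv, hwz, huz, hvw, huv.symm, huw.symm, hvw.symm,
          hvz.symm]
      · simp [he1, he2, he3, he4]
    have e2 : step {s(u, z), s(v, w)} {s(u, w), s(v, z)} y = y := by
      unfold step
      rw [if_neg hc2]
    simp only [e1, e2]
    ring
  by_cases h2 : y s(u, w) = false ∧ y s(v, z) = false ∧ y s(u, z) = true ∧ y s(v, w) = true
  · obtain ⟨a1, a2, a3, a4⟩ := h2
    have hsw : switchable u v w z y = true := by simp [switchable, a1, a2, a3, a4]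
    have hc1 : ¬ ((∀ e ∈ ({s(u, w), s(v, z)} : Finset (Sym2 (Fin n))), y e = true) ∧
        (∀ e ∈ ({s(u, z), s(v, w)} : Finset (Sym2 (Fin n))), y e = false)) := by
      simp [a1, a2, a3, a4]
    have hc2 : (∀ e ∈ ({s(u, z), s(v, w)} : Finset (Sym2 (Fin n))), y e = true) ∧
        (∀ e ∈ ({s(u, w), s(v, z)} : Finset (Sym2 (Fin n))), y e = false) := by
      simp [a1, a2, a3, a4]
    have e1 : flip4 u v w z y = step {s(u, z), s(v, w)} {s(u, w), s(v, z)} y := by
      unfold flip4 step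
      rw [if_pos hsw, if_pos hc2]
      funext e
      by_cases he1 : e = s(u, z)
      · subst he1; simp [a3]
      by_cases he2 : e = s(v, w)
      · subst he2; simp [a4]
      by_cases he3 : e = s(u, w)
      · subst he3; simp [a1, Sym2.eq_iff, huw, hvz, huv, hwz, huz, huv.symm, huz.symm, hwz.symm, hvw.symm,
          huw.symm, hwz]
      by_cases he4 : e = s(v, z)
      · subst he4; simp [a2, Sym2.eq_iff, huw, hvz, huv, hwz, huz, hvw, huv.symm, huw.symm, hvw.symm,
          hvz.symm, huz.symm, hwz.symm]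
      · simp [he1, he2, he3, he4]
    have e2 : step {s(u, w), s(v, z)} {s(u, z), s(v, w)} y = y := by
      unfold step
      rw [if_neg hc1]
    simp only [e1, e2]
    ring
  · have hsw : ¬ switchable u v w z y = true := by
      intro h
      simp only [switchable, Bool.or_eq_true, Bool.and_eq_true, Bool.not_eq_true'] at h
      rcases h with ⟨⟨⟨a1, a2⟩, a3⟩, a4⟩ | ⟨⟨⟨a1, a2⟩, a3⟩, a4⟩
      · exact h1 ⟨a1, a2, a3, a4⟩
      · exact h2 ⟨a1, a2, a3, a4⟩
    have hc1 : ¬ ((∀ e ∈ ({s(u, w), s(v, z)} : Finset (Sym2 (Fin n))), y e = true) ∧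
        (∀ e ∈ ({s(u, z), s(v, w)} : Finset (Sym2 (Fin n))), y e = false)) := by
      rintro ⟨a, b⟩
      exact h1 ⟨a _ (by simp), a _ (by simp), b _ (by simp), b _ (by simp)⟩
    have hc2 : ¬ ((∀ e ∈ ({s(u, z), s(v, w)} : Finset (Sym2 (Fin n))), y e = true) ∧
        (∀ e ∈ ({s(u, w), s(v, z)} : Finset (Sym2 (Fin n))), y e = false)) := by
      rintro ⟨a, b⟩
      exact h2 ⟨b _ (by simp), b _ (by simp), a _ (by simp), a _ (by simp)⟩
    have e0 : flip4 u v w z y = y := by
      unfold flip4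
      rw [if_neg hsw]
    have e1 : step {s(u, w), s(v, z)} {s(u, z), s(v, w)} y = y := by
      unfold step
      rw [if_neg hc1]
    have e2 : step {s(u, z), s(v, w)} {s(u, w), s(v, z)} y = y := by
      unfold step
      rw [if_neg hc2]
    simp only [e0, e1, e2]
    ring

/-- The rectangle energies are controlled by the energies of the proposals. -/
theorem quads_energy_le (d : Fin n → ℕ) (f : Gr n → ℝ) :
    ∑ q ∈ quads n, rectEnergy d f q.1 q.2.1 q.2.2.1 q.2.2.2 ≤
      8 * ∑ S ∈ powersetCard 4 (univ : Finset (Fin n)),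
        ∑ p ∈ (matchings S).offDiag, proposalEnergy d f p := by
  have h1 : ∀ q ∈ quads n, rectEnergy d f q.1 q.2.1 q.2.2.1 q.2.2.2 =
      proposalEnergy d f (quadF q, quadF' q) + proposalEnergy d f (quadF' q, quadF q) := by
    intro q hq
    unfold rectEnergy proposalEnergy
    rw [← Finset.sum_add_distrib]
    exact Finset.sum_congr rfl fun y _ => flip_sq_eq f hq y
  rw [Finset.sum_congr rfl h1, Finset.sum_add_distrib]
  have h2 := sum_quads_le d f (fun q => (quadF q, quadF' q))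
    (fun q hq => by
      have := quad_facts hq
      exact Finset.mem_offDiag.2 ⟨this.2.1, this.2.2.1, this.2.2.2⟩)
    (fun q hq q' hq' h h' => quad_inj hq hq' h (Prod.mk.inj h').1 (Prod.mk.inj h').2)
  have h3 := sum_quads_le d f (fun q => (quadF' q, quadF q))
    (fun q hq => by
      have := quad_facts hq
      exact Finset.mem_offDiag.2 ⟨this.2.2.1, this.2.1, fun h => this.2.2.2 h.symm⟩)
    (fun q hq q' hq' h h' => quad_inj hq hq' h (Prod.mk.inj h').2 (Prod.mk.inj h').1)
  linarith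

end Quad

section Decay

variable {d : Fin n → ℕ}

/-- The energy bound in the form used for the decay. -/
theorem poincare_dirichlet (hn : 4 ≤ n) (hP : ∀ f : Gr n → ℝ, ∑ x ∈ Om d, (f x - mean (Om d) f) ^ 2 ≤
      (1 / 16) * ∑ q ∈ quads n, rectEnergy d f q.1 q.2.1 q.2.2.1 q.2.2.2) (f : Gr n → ℝ) :
    ∑ x ∈ Om d, (f x - mean (Om d) f) ^ 2 ≤ 12 * (n.choose 4 : ℝ) *
      ((1 / 4) * ∑ y ∈ Om d, ∑ z ∈ Om d, moveKernel n y z * (f y - f z) ^ 2) := by
  have h1 := hP f
  have h2 := quads_energy_le d f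
  have hC := choose_pos_real hn
  rw [dirichlet_eq]
  have e : 12 * (n.choose 4 : ℝ) * ((1 / 4) * ((1 / (n.choose 4 : ℝ)) * (1 / 6) *
      ∑ S ∈ powersetCard 4 (univ : Finset (Fin n)),
        ∑ p ∈ (matchings S).offDiag, proposalEnergy d f p)) =
      (1 / 2) * ∑ S ∈ powersetCard 4 (univ : Finset (Fin n)),
        ∑ p ∈ (matchings S).offDiag, proposalEnergy d f p := by
    field_simp
    ring
  rw [e]
  linarith

/-- Leaving the state space has probability zero. -/
theorem switchKernel_of_not_mem {x y : Gr n} (hx : x ∈ Om d) (hy : y ∉ Om d) :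
    switchKernel n x y = 0 := by
  have hne : x ≠ y := fun h => hy (h ▸ hx)
  rw [switchKernel_apply, if_neg hne]
  have : moveKernel n x y = 0 := by
    unfold moveKernel
    refine Finset.sum_eq_zero fun S hS => ?_
    have : ∑ p ∈ (matchings S).offDiag, ((1 : ℝ) / 6) * (if step p.1 p.2 x = y then (1 : ℝ) else 0) = 0 := by
      refine Finset.sum_eq_zero fun p hp => ?_
      have h := step_mem_of_mem (d := d) hS hp hx
      have : step p.1 p.2 x ≠ y := fun h' => hy (h' ▸ h)
      simp [this]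
    rw [this, mul_zero]
  rw [this]
  ring

theorem pow_support {x : Gr n} (hx : x ∈ Om d) (t : ℕ) {y : Gr n} (hy : y ∉ Om d) :
    (switchKernel n ^ t) x y = 0 := by
  induction t generalizing y with
  | zero =>
    have hne : x ≠ y := fun h => hy (h ▸ hx)
    simp [Matrix.one_apply, hne]
  | succ t ih =>
    rw [pow_succ, Matrix.mul_apply]
    refine Finset.sum_eq_zero fun z _ => ?_
    by_cases hz : z ∈ Om d
    · rw [switchKernel_of_not_mem hz hy, mul_zero]
    · rw [ih hz, zero_mul]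

/-- One step of the law of the chain. -/
theorem pow_succ_apply {x : Gr n} (hx : x ∈ Om d) (t : ℕ) {y : Gr n} (hy : y ∈ Om d) :
    (switchKernel n ^ (t + 1)) x y = (1 / 2) * (switchKernel n ^ t) x y +
      (1 / 2) * ∑ z ∈ Om d, moveKernel n y z * (switchKernel n ^ t) x z := by
  rw [pow_succ, Matrix.mul_apply]
  have hsub : ∑ z, (switchKernel n ^ t) x z * switchKernel n z y =
      ∑ z ∈ Om d, (switchKernel n ^ t) x z * switchKernel n z y := by
    symm
    refine Finset.sum_subset (Finset.subset_univ _) fun z _ hz => ?_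
    rw [pow_support hx t hz, zero_mul]
  rw [hsub]
  have h1 : ∀ z ∈ Om d, (switchKernel n ^ t) x z * switchKernel n z y =
      (1 / 2) * ((switchKernel n ^ t) x z * (if z = y then 1 else 0)) +
        (1 / 2) * (moveKernel n y z * (switchKernel n ^ t) x z) := by
    intro z _
    rw [switchKernel_apply, moveKernel_symm z y]
    ring
  rw [Finset.sum_congr rfl h1, Finset.sum_add_distrib, ← Finset.mul_sum, ← Finset.mul_sum]
  congr 2
  rw [Finset.sum_eq_single y]
  · simp
  · intro b _ hb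
    simp [hb]
  · intro h
    exact absurd hy h

theorem mass_one (hn : 4 ≤ n) {x : Gr n} (hx : x ∈ Om d) (t : ℕ) :
    ∑ y ∈ Om d, (switchKernel n ^ t) x y = 1 := by
  induction t with
  | zero =>
    simp only [pow_zero, Matrix.one_apply]
    rw [Finset.sum_eq_single x]
    · simp
    · intro b _ hb
      simp [Ne.symm hb]
    · intro h
      exact absurd hx h
  | succ t ih =>
    rw [Finset.sum_congr rfl (fun y hy => pow_succ_apply hx t hy), Finset.sum_add_distrib,
      ← Finset.mul_sum, ← Finset.mul_sum, ih]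
    have : ∑ y ∈ Om d, ∑ z ∈ Om d, moveKernel n y z * (switchKernel n ^ t) x z = 1 := by
      rw [Finset.sum_comm]
      have h2 : ∀ z ∈ Om d, ∑ y ∈ Om d, moveKernel n y z * (switchKernel n ^ t) x z =
          (switchKernel n ^ t) x z := by
        intro z hz
        have : ∑ y ∈ Om d, moveKernel n y z * (switchKernel n ^ t) x z =
            (∑ y ∈ Om d, moveKernel n z y) * (switchKernel n ^ t) x z := by
          rw [Finset.sum_mul]
          refine Finset.sum_congr rfl fun y _ => ?_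
          rw [moveKernel_symm]
        rw [this, sum_moveKernel hn hz, one_mul]
      rw [Finset.sum_congr rfl h2, ih]
    rw [this]
    norm_num

/-- The squared distance to uniform. -/
noncomputable def sqDist (d : Fin n → ℕ) (x : Gr n) (t : ℕ) : ℝ :=
  ∑ y ∈ Om d, ((switchKernel n ^ t) x y - 1 / ((Om d).card : ℝ)) ^ 2

theorem sqDist_succ (hn : 4 ≤ n) (hP : ∀ f : Gr n → ℝ, ∑ x ∈ Om d, (f x - mean (Om d) f) ^ 2 ≤
      (1 / 16) * ∑ q ∈ quads n, rectEnergy d f q.1 q.2.1 q.2.2.1 q.2.2.2)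
    {x : Gr n} (hx : x ∈ Om d) (t : ℕ) :
    sqDist d x (t + 1) ≤ (1 - 1 / (12 * (n.choose 4 : ℝ))) * sqDist d x t := by
  have hne : (Om d).Nonempty := ⟨x, hx⟩
  have hcard : 0 < ((Om d).card : ℝ) := by exact_mod_cast Finset.card_pos.2 hne
  have hC := choose_pos_real hn
  set u : ℝ := 1 / ((Om d).card : ℝ) with hu
  set g : Gr n → ℝ := fun y => (switchKernel n ^ t) x y - u with hg
  have hmean : mean (Om d) g = 0 := by
    unfold mean
    have : ∑ y ∈ Om d, g y = 0 := by
      simp only [hg]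
      rw [Finset.sum_sub_distrib, mass_one hn hx t, Finset.sum_const, nsmul_eq_mul, hu]
      field_simp
      ring
    rw [this, zero_div]
  have hstep : ∀ y ∈ Om d, (switchKernel n ^ (t + 1)) x y - u =
      (1 / 2) * g y + (1 / 2) * ∑ z ∈ Om d, moveKernel n y z * g z := by
    intro y hy
    rw [pow_succ_apply hx t hy]
    have : ∑ z ∈ Om d, moveKernel n y z * g z =
        ∑ z ∈ Om d, moveKernel n y z * (switchKernel n ^ t) x z - u := by
      simp only [hg, mul_sub]
      rw [Finset.sum_sub_distrib, ← Finset.sum_mul, sum_moveKernel hn hy, one_mul]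
    rw [this]
    simp only [hg]
    ring
  have hlazy := lazy_step_le (Om d) (moveKernel n) (fun y _ z _ => moveKernel_nonneg y z)
    (fun y _ z _ => moveKernel_symm y z) (fun y hy => sum_moveKernel hn hy) g
  have hpoin := poincare_dirichlet hn hP g
  simp only [hmean, sub_zero] at hpoin
  unfold sqDist
  rw [Finset.sum_congr rfl (fun y hy => by rw [hstep y hy])]
  have hgt : ∑ y ∈ Om d, ((switchKernel n ^ t) x y - u) ^ 2 = ∑ y ∈ Om d, g y ^ 2 := rfl
  rw [hgt]
  set D : ℝ := (1 / 4) * ∑ y ∈ Om d, ∑ z ∈ Om d, moveKernel n y z * (g y - g z) ^ 2 with hD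
  have hDbound : (1 / (12 * (n.choose 4 : ℝ))) * ∑ y ∈ Om d, g y ^ 2 ≤ D := by
    have h12 : 0 < 12 * (n.choose 4 : ℝ) := by positivity
    rw [div_mul_eq_mul_div, one_mul, div_le_iff₀ h12]
    linarith
  have : (1 - 1 / (12 * (n.choose 4 : ℝ))) * ∑ y ∈ Om d, g y ^ 2 =
      ∑ y ∈ Om d, g y ^ 2 - (1 / (12 * (n.choose 4 : ℝ))) * ∑ y ∈ Om d, g y ^ 2 := by ring
  rw [this]
  linarith

theorem sqDist_zero_le {x : Gr n} (hx : x ∈ Om d) : sqDist d x 0 ≤ 1 := by
  have hcard : 1 ≤ ((Om d).card : ℝ) := by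
    exact_mod_cast Finset.card_pos.2 ⟨x, hx⟩
  unfold sqDist
  simp only [pow_zero, Matrix.one_apply]
  have e : ∀ y ∈ Om d, ((if x = y then (1 : ℝ) else 0) - 1 / ((Om d).card : ℝ)) ^ 2 =
      (if x = y then (1 : ℝ) else 0) * (1 - 2 / ((Om d).card : ℝ)) + (1 / ((Om d).card : ℝ)) ^ 2 := by
    intro y _
    by_cases h : x = y
    · simp only [h, if_true]; ring
    · simp only [h, if_false]; ring
  rw [Finset.sum_congr rfl e, Finset.sum_add_distrib, ← Finset.sum_mul, Finset.sum_const,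
    nsmul_eq_mul]
  have : ∑ y ∈ Om d, (if x = y then (1 : ℝ) else 0) = 1 := by
    rw [Finset.sum_eq_single x]
    · simp
    · intro b _ hb
      simp [Ne.symm hb]
    · intro h
      exact absurd hx h
  rw [this]
  have hc0 : 0 < ((Om d).card : ℝ) := by linarith
  have : 1 * (1 - 2 / ((Om d).card : ℝ)) + ((Om d).card : ℝ) * (1 / ((Om d).card : ℝ)) ^ 2 =
      1 - 1 / ((Om d).card : ℝ) := by
    field_simp
    ring
  rw [this]
  have : 0 < 1 / ((Om d).card : ℝ) := by positivity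
  linarith

theorem sqDist_le (hn : 4 ≤ n) (hP : ∀ f : Gr n → ℝ, ∑ x ∈ Om d, (f x - mean (Om d) f) ^ 2 ≤
      (1 / 16) * ∑ q ∈ quads n, rectEnergy d f q.1 q.2.1 q.2.2.1 q.2.2.2)
    {x : Gr n} (hx : x ∈ Om d) (t : ℕ) :
    sqDist d x t ≤ (1 - 1 / (12 * (n.choose 4 : ℝ))) ^ t := by
  have hC := choose_pos_real hn
  have hC1 : (1 : ℝ) ≤ (n.choose 4 : ℝ) := by
    exact_mod_cast Nat.choose_pos hn
  have hb : 0 ≤ 1 - 1 / (12 * (n.choose 4 : ℝ)) := by
    have : 1 / (12 * (n.choose 4 : ℝ)) ≤ 1 := by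
      rw [div_le_one (by positivity)]
      linarith
    linarith
  induction t with
  | zero => simpa using sqDist_zero_le hx
  | succ t ih =>
    calc sqDist d x (t + 1) ≤ (1 - 1 / (12 * (n.choose 4 : ℝ))) * sqDist d x t :=
          sqDist_succ hn hP hx t
      _ ≤ (1 - 1 / (12 * (n.choose 4 : ℝ))) * (1 - 1 / (12 * (n.choose 4 : ℝ))) ^ t :=
          mul_le_mul_of_nonneg_left ih hb
      _ = (1 - 1 / (12 * (n.choose 4 : ℝ))) ^ (t + 1) := by ring

/-- Total variation is bounded by the square root of the squared distance. -/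
theorem tv_sq_le {x : Gr n} (t : ℕ) :
    tvToUniform d ((switchKernel n ^ t) x) ^ 2 ≤ (1 / 4) * ((Om d).card : ℝ) * sqDist d x t := by
  unfold tvToUniform sqDist
  have hcs := Finset.sum_mul_sq_le_sq_mul_sq (Om d) (fun _ => (1 : ℝ))
    (fun y => |(switchKernel n ^ t) x y - 1 / ((Om d).card : ℝ)|)
  simp only [one_mul, sq_abs, one_pow, Finset.sum_const, nsmul_eq_mul, mul_one] at hcs
  calc ((1 / 2) * ∑ y ∈ Om d, |(switchKernel n ^ t) x y - 1 / ((Om d).card : ℝ)|) ^ 2
      = (1 / 4) * (∑ y ∈ Om d, |(switchKernel n ^ t) x y - 1 / ((Om d).card : ℝ)|) ^ 2 := by ring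
    _ ≤ _ := by
      rw [mul_assoc]
      exact mul_le_mul_of_nonneg_left hcs (by norm_num)

/-- The number of states is at most `2 ^ (n ^ 2)`. -/
theorem card_Om_le (hn : 1 ≤ n) : ((Om d).card : ℝ) ≤ 2 ^ (n ^ 2) := by
  have h1 : (Om d).card ≤ Fintype.card (Gr n) := Finset.card_le_univ _
  have h2 : Fintype.card (Gr n) = 2 ^ (Fintype.card (Sym2 (Fin n))) := by
    simp [Gr]
  have h3 : Fintype.card (Sym2 (Fin n)) = n * (n + 1) / 2 := by
    rw [Sym2.card, Fintype.card_fin, Nat.choose_two_right]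
    simp
    have : (n + 1) * n = n * (n + 1) := by ring
    rw [this]
  have h4 : n * (n + 1) / 2 ≤ n ^ 2 := by
    have : n * (n + 1) ≤ 2 * n ^ 2 := by nlinarith
    omega
  have h5 : (Om d).card ≤ 2 ^ (n ^ 2) := by
    calc (Om d).card ≤ 2 ^ (Fintype.card (Sym2 (Fin n))) := by rw [← h2]; exact h1
      _ ≤ 2 ^ (n ^ 2) := Nat.pow_le_pow_right (by norm_num) (by rw [h3]; exact h4)
  exact_mod_cast h5

/-- The main reduction: the Poincare inequality implies the mixing bound `t ≥ n ^ 6`. -/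
theorem mixing_of_poincare (hn : 4 ≤ n) (d : Fin n → ℕ) (_hd : (Om d).Nonempty)
    (hP : ∀ f : Gr n → ℝ, ∑ x ∈ Om d, (f x - mean (Om d) f) ^ 2 ≤
      (1 / 16) * ∑ q ∈ quads n, rectEnergy d f q.1 q.2.1 q.2.2.1 q.2.2.2) :
    ∀ x ∈ Om d, ∀ t ≥ n ^ 6, tvToUniform d ((switchKernel n ^ t) x) ≤ 1 / 4 := by
  intro x hx t ht
  have hC := choose_pos_real hn
  have hn0 : (0 : ℝ) < n := by
    have : 0 < n := by omega
    exact_mod_cast this
  have hnn : (4 : ℝ) ≤ n := by exact_mod_cast hn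
  -- bound on the gap
  have hCle : (n.choose 4 : ℝ) ≤ (n : ℝ) ^ 4 / 24 := by
    have := Nat.choose_le_pow_div (α := ℝ) 4 n
    simpa [Nat.factorial] using this
  have hgam : 2 / (n : ℝ) ^ 4 ≤ 1 / (12 * (n.choose 4 : ℝ)) := by
    rw [div_le_div_iff₀ (by positivity) (by positivity)]
    nlinarith
  have hgam1 : 1 / (12 * (n.choose 4 : ℝ)) ≤ 1 := by
    have hC1 : (1 : ℝ) ≤ (n.choose 4 : ℝ) := by exact_mod_cast Nat.choose_pos hn
    rw [div_le_one (by positivity)]
    linarith
  -- decay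
  have h1 := sqDist_le hn hP hx t
  have hexp : (1 - 1 / (12 * (n.choose 4 : ℝ))) ^ t ≤ Real.exp (-(2 * (n : ℝ) ^ 2)) := by
    have hb0 : 0 ≤ 1 - 1 / (12 * (n.choose 4 : ℝ)) := by linarith
    have hb1 : 1 - 1 / (12 * (n.choose 4 : ℝ)) ≤ Real.exp (-(2 / (n : ℝ) ^ 4)) := by
      have := Real.add_one_le_exp (-(2 / (n : ℝ) ^ 4))
      linarith
    calc (1 - 1 / (12 * (n.choose 4 : ℝ))) ^ t ≤ (Real.exp (-(2 / (n : ℝ) ^ 4))) ^ t :=
          pow_le_pow_left₀ hb0 hb1 t
      _ = Real.exp (-(2 / (n : ℝ) ^ 4) * t) := by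
          rw [← Real.exp_nat_mul]
          congr 1
          ring
      _ ≤ Real.exp (-(2 * (n : ℝ) ^ 2)) := by
          apply Real.exp_le_exp.2
          have ht' : (n : ℝ) ^ 6 ≤ t := by exact_mod_cast ht
          have : 2 * (n : ℝ) ^ 2 ≤ 2 / (n : ℝ) ^ 4 * t := by
            have e : 2 * (n : ℝ) ^ 2 = 2 / (n : ℝ) ^ 4 * (n : ℝ) ^ 6 := by
              field_simp
            rw [e]
            exact mul_le_mul_of_nonneg_left ht' (by positivity)
          linarith
  have hcard := card_Om_le (d := d) (by omega : 1 ≤ n)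
  have h2 := tv_sq_le (d := d) (x := x) t
  have hs0 : 0 ≤ sqDist d x t := Finset.sum_nonneg fun _ _ => sq_nonneg _
  have hkey : ((Om d).card : ℝ) * sqDist d x t ≤ 1 / 4 := by
    have hc0 : (0 : ℝ) ≤ ((Om d).card : ℝ) := by positivity
    have h3 : ((Om d).card : ℝ) * sqDist d x t ≤ 2 ^ (n ^ 2) * Real.exp (-(2 * (n : ℝ) ^ 2)) :=
      mul_le_mul hcard (h1.trans hexp) hs0 (by positivity)
    refine h3.trans ?_
    have hexp2 : Real.exp (-(2 * (n : ℝ) ^ 2)) ≤ (1 / 4) ^ (n ^ 2) := by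
      have e : Real.exp (-(2 * (n : ℝ) ^ 2)) = (Real.exp (-2)) ^ (n ^ 2) := by
        rw [← Real.exp_nat_mul]
        congr 1
        push_cast
        ring
      rw [e]
      refine pow_le_pow_left₀ (Real.exp_pos _).le ?_ _
      have : (4 : ℝ) ≤ Real.exp 2 := by
        have h := Real.add_one_le_exp (1 : ℝ)
        have e2 : Real.exp 2 = Real.exp 1 * Real.exp 1 := by
          rw [← Real.exp_add]; norm_num
        rw [e2]
        nlinarith
      rw [Real.exp_neg, inv_eq_one_div]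
      exact one_div_le_one_div_of_le (by norm_num) this
    calc (2 : ℝ) ^ (n ^ 2) * Real.exp (-(2 * (n : ℝ) ^ 2)) ≤ 2 ^ (n ^ 2) * (1 / 4) ^ (n ^ 2) :=
          mul_le_mul_of_nonneg_left hexp2 (by positivity)
      _ = (1 / 2) ^ (n ^ 2) := by rw [← mul_pow]; norm_num
      _ ≤ (1 / 2) ^ 2 := by
          apply pow_le_pow_of_le_one (by norm_num) (by norm_num)
          nlinarith [hn]
      _ = 1 / 4 := by norm_num
  have hfinal : tvToUniform d ((switchKernel n ^ t) x) ^ 2 ≤ (1 / 4) ^ 2 := by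
    calc tvToUniform d ((switchKernel n ^ t) x) ^ 2 ≤ (1 / 4) * ((Om d).card : ℝ) * sqDist d x t := h2
      _ = (1 / 4) * (((Om d).card : ℝ) * sqDist d x t) := by ring
      _ ≤ (1 / 4) * (1 / 4) := mul_le_mul_of_nonneg_left hkey (by norm_num)
      _ = (1 / 4) ^ 2 := by norm_num
  have hnonneg : 0 ≤ tvToUniform d ((switchKernel n ^ t) x) := by
    unfold tvToUniform
    exact mul_nonneg (by norm_num) (Finset.sum_nonneg fun _ _ => abs_nonneg _)
  exact (pow_le_pow_iff_left₀ hnonneg (by norm_num) (by norm_num)).1 hfinal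

end Decay

end Vale.Agent.Lib.P335
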