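import Vale.Agent.Lib.P335.Rect

/-!
The rectangle inequality for two disjoint pairs of vertices.
-/

set_option linter.unusedSectionVars false

namespace Vale.Agent.Lib.P335

open Finset

variable {n : ℕ}

open Classical in
/-- The block key of a rectangle. -/
noncomputable def blockKey (u v w z : Fin n) (x : Gr n) : Gr n × (Fin n → ℕ) × ℕ × Bool :=
  (fun e => if moved u v e ∨ moved w z e then false else x e,
   fun a => if a = u ∨ a = v ∨ a = w ∨ a = z then 0 else (x s(a, u)).toNat + (x s(a, v)).toNat,
   totM (bitsOf u v w z x), blkM (bitsOf u v w z x))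

theorem om_props {d : Fin n → ℕ} {x : Gr n} (hx : x ∈ Om d) :
    (∀ a, x s(a, a) = false) ∧ ∀ a, deg x a = d a := by
  simpa [Om] using hx

section

variable {u v w z : Fin n} (huv : u ≠ v) (huw : u ≠ w) (huz : u ≠ z) (hvw : v ≠ w) (hvz : v ≠ z)
  (hwz : w ≠ z)

include huv huw huz hvw hvz hwz

theorem sameBlock_of_key {x y : Gr n} (h : blockKey u v w z x = blockKey u v w z y) :
    SameBlock u v w z x y ∧ totM (bitsOf u v w z x) = totM (bitsOf u v w z y) ∧
      blkM (bitsOf u v w z x) = blkM (bitsOf u v w z y) := by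
  simp only [blockKey, Prod.mk.injEq] at h
  obtain ⟨h1, h2, h3, h4⟩ := h
  refine ⟨⟨fun e he1 he2 => ?_, fun a ha1 ha2 ha3 ha4 => ?_⟩, h3, h4⟩
  · have := congrFun h1 e
    simpa [he1, he2] using this
  · have := congrFun h2 a
    simpa [ha1, ha2, ha3, ha4] using this

/-- Two graphs with the same first key and same switchability lie in one block. -/
theorem blockKey_of_uv {d : Fin n → ℕ} {x y : Gr n} (hx : x ∈ Om d) (hy : y ∈ Om d)
    (h : keyP u v x = keyP u v y) (hs : switchable u v w z x = switchable u v w z y) :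
    blockKey u v w z x = blockKey u v w z y := by
  rw [keyP_eq_iff] at h
  have hxd := (om_props hx).2
  have hyd := (om_props hy).2
  have hcols : colsM (bitsOf u v w z x) = colsM (bitsOf u v w z y) := by
    rw [colsM_eq]
    simp only [bitsOf]
    constructor
    · have hB : w ∉ ({u, v} : Finset (Fin n)) := by simp [huw.symm, hvw.symm]
      have := deg_add_eq (x := x) (y := y) hB (fun b hba hbB => by
        simp only [mem_insert, mem_singleton, not_or] at hbB
        exact h _ (not_moved_of_not_mem huw.symm hvw.symm hbB.1 hbB.2))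
      rw [sum_pair huv, sum_pair huv, hxd, hyd, Sym2.eq_swap (a := w) (b := u),
        Sym2.eq_swap (a := w) (b := v)] at this
      omega
    · have hB : z ∉ ({u, v} : Finset (Fin n)) := by simp [huz.symm, hvz.symm]
      have := deg_add_eq (x := x) (y := y) hB (fun b hba hbB => by
        simp only [mem_insert, mem_singleton, not_or] at hbB
        exact h _ (not_moved_of_not_mem huz.symm hvz.symm hbB.1 hbB.2))
      rw [sum_pair huv, sum_pair huv, hxd, hyd, Sym2.eq_swap (a := z) (b := u),
        Sym2.eq_swap (a := z) (b := v)] at this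
      omega
  rw [switchable_eq, switchable_eq] at hs
  obtain ⟨ht, hb⟩ := blk_of_cols _ _ hcols hs
  simp only [blockKey, Prod.mk.injEq]
  refine ⟨?_, ?_, ht, hb⟩
  · funext e
    by_cases he : moved u v e ∨ moved w z e
    · simp [he]
    · simp only [he, if_false]
      exact h e (fun hh => he (Or.inl hh))
  · funext a
    by_cases ha : a = u ∨ a = v ∨ a = w ∨ a = z
    · simp [ha]
    · simp only [ha, if_false]
      simp only [not_or] at ha
      obtain ⟨h1, h2, h3, h4⟩ := ha
      have hB : a ∉ ({u, v} : Finset (Fin n)) := by simp [h1, h2]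
      have := deg_add_eq (x := x) (y := y) hB (fun b hba hbB => by
        simp only [mem_insert, mem_singleton, not_or] at hbB
        exact h _ (not_moved_of_not_mem h1 h2 hbB.1 hbB.2))
      rw [sum_pair huv, sum_pair huv, hxd, hyd] at this
      omega

/-- Two graphs with the same second key lie in one block. -/
theorem blockKey_of_wz {d : Fin n → ℕ} {x y : Gr n} (hx : x ∈ Om d) (hy : y ∈ Om d)
    (h : keyP w z x = keyP w z y) :
    blockKey u v w z x = blockKey u v w z y := by
  rw [keyP_eq_iff] at h
  have hxd := (om_props hx).2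
  have hyd := (om_props hy).2
  have hrows : rowsM (bitsOf u v w z x) = rowsM (bitsOf u v w z y) := by
    rw [rowsM_eq]
    simp only [bitsOf]
    constructor
    · have hB : u ∉ ({w, z} : Finset (Fin n)) := by simp [huw, huz]
      have := deg_add_eq (x := x) (y := y) hB (fun b hba hbB => by
        simp only [mem_insert, mem_singleton, not_or] at hbB
        exact h _ (not_moved_of_not_mem huw huz hbB.1 hbB.2))
      rw [sum_pair hwz, sum_pair hwz, hxd, hyd] at this
      omega
    · have hB : v ∉ ({w, z} : Finset (Fin n)) := by simp [hvw, hvz]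
      have := deg_add_eq (x := x) (y := y) hB (fun b hba hbB => by
        simp only [mem_insert, mem_singleton, not_or] at hbB
        exact h _ (not_moved_of_not_mem hvw hvz hbB.1 hbB.2))
      rw [sum_pair hwz, sum_pair hwz, hxd, hyd] at this
      omega
  obtain ⟨ht, hb⟩ := blk_of_rows _ _ hrows
  simp only [blockKey, Prod.mk.injEq]
  refine ⟨?_, ?_, ht, hb⟩
  · funext e
    by_cases he : moved u v e ∨ moved w z e
    · simp [he]
    · simp only [he, if_false]
      exact h e (fun hh => he (Or.inr hh))
  · funext a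
    by_cases ha : a = u ∨ a = v ∨ a = w ∨ a = z
    · simp [ha]
    · simp only [ha, if_false]
      simp only [not_or] at ha
      obtain ⟨h1, h2, h3, h4⟩ := ha
      rw [h _ (not_moved_of_not_mem h3 h4 huw huz), h _ (not_moved_of_not_mem h3 h4 hvw hvz)]

/-- First commutation. -/
theorem comm_tilde_plain {d : Fin n → ℕ} (f : Gr n → ℝ) {x : Gr n} (hx : x ∈ Om d) :
    avg (Om d) (fun t => (keyP u v t, switchable u v w z t)) (avg (Om d) (keyP w z) f) x =
    avg (Om d) (keyP w z) (avg (Om d) (fun t => (keyP u v t, switchable u v w z t)) f) x := by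
  refine avg_comm_of_block (β := blockKey u v w z)
    (fun a ha b hb h => ?_) (fun a ha b hb h => ?_)
    (fun t => if switchable u v w z t = true then 2 else 1)
    (fun t _ => by split_ifs <;> norm_num) (fun a ha b hb h => ?_) f hx
  · rw [Prod.mk.injEq] at h
    exact blockKey_of_uv huv huw huz hvw hvz hwz ha hb h.1 h.2
  · exact blockKey_of_wz huv huw huz hvw hvz hwz ha hb h
  · obtain ⟨h1, h2, h3⟩ := sameBlock_of_key huv huw huz hvw hvz hwz h
    rw [← cell_count huv huw huz hvw hvz hwz ha hb h1 h2 h3]
    congr 1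
    ext t
    simp only [mem_filter, Prod.mk.injEq, and_assoc]

/-- Third commutation. -/
theorem comm_tilde_tilde {d : Fin n → ℕ} (f : Gr n → ℝ) {x : Gr n} (hx : x ∈ Om d) :
    avg (Om d) (fun t => (keyP u v t, switchable u v w z t))
      (avg (Om d) (fun t => (keyP w z t, switchable u v w z t)) f) x =
    avg (Om d) (fun t => (keyP w z t, switchable u v w z t))
      (avg (Om d) (fun t => (keyP u v t, switchable u v w z t)) f) x := by
  refine avg_comm_of_block (β := fun t => (blockKey u v w z t, switchable u v w z t))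
    (fun a ha b hb h => ?_) (fun a ha b hb h => ?_)
    (fun t => if switchable u v w z t = true then 2 else 1)
    (fun t _ => by split_ifs <;> norm_num) (fun a ha b hb h => ?_) f hx
  · rw [Prod.mk.injEq] at h ⊢
    exact ⟨blockKey_of_uv huv huw huz hvw hvz hwz ha hb h.1 h.2, h.2⟩
  · rw [Prod.mk.injEq] at h ⊢
    exact ⟨blockKey_of_wz huv huw huz hvw hvz hwz ha hb h.1, h.2⟩
  · rw [Prod.mk.injEq] at h
    obtain ⟨h1, h2, h3⟩ := sameBlock_of_key huv huw huz hvw hvz hwz h.1
    rw [← cell_count huv huw huz hvw hvz hwz ha hb h1 h2 h3]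
    congr 1
    ext t
    simp only [mem_filter, Prod.mk.injEq, and_assoc]
    constructor
    · rintro ⟨ht, h5, h6, h7, h8⟩
      exact ⟨ht, h5, h6, h7⟩
    · rintro ⟨ht, h5, h6, h7⟩
      exact ⟨ht, h5, h6, h7, h6.trans h.2⟩

theorem flip4_eq_glue {x : Gr n} (hs : switchable u v w z x = true) :
    flip4 u v w z x =
      glue u v w z x x (!x s(u, w), !x s(u, z), !x s(v, w), !x s(v, z)) := by
  funext e
  simp only [flip4, hs, if_true]
  by_cases h1 : e = s(u, w)
  · subst h1
    rw [glue_u]
    simp
  by_cases h2 : e = s(u, z)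
  · subst h2
    rw [glue_uz huv huw huz hvw hvz hwz]
    simp
  by_cases h3 : e = s(v, w)
  · subst h3
    rw [glue_vw huv huw huz hvw hvz hwz]
    simp
  by_cases h4 : e = s(v, z)
  · subst h4
    rw [glue_vz huv huw huz hvw hvz hwz]
    simp
  simp only [h1, h2, h3, h4, false_or, if_false, glue]
  split_ifs <;> rfl

theorem flip4_of_not {x : Gr n} (hs : ¬ switchable u v w z x = true) : flip4 u v w z x = x := by
  simp [flip4, hs]

theorem flip4_mem {d : Fin n → ℕ} {x : Gr n} (hx : x ∈ Om d) : flip4 u v w z x ∈ Om d := by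
  by_cases hs : switchable u v w z x = true
  · rw [flip4_eq_glue huv huw huz hvw hvz hwz hs]
    refine glue_mem huv huw huz hvw hvz hwz hx hx ⟨fun _ _ _ => rfl, fun _ _ _ _ _ => rfl⟩ ?_ ?_
    · simp only [switchable] at hs
      simp only [bitsOf, rowsM, Prod.mk.injEq]
      revert hs
      cases x s(u, w) <;> cases x s(u, z) <;> cases x s(v, w) <;> cases x s(v, z) <;> decide
    · simp only [switchable] at hs
      simp only [bitsOf, colsM, Prod.mk.injEq]
      revert hs
      cases x s(u, w) <;> cases x s(u, z) <;> cases x s(v, w) <;> cases x s(v, z) <;> decide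
  · rwa [flip4_of_not huv huw huz hvw hvz hwz hs]

theorem bits_flip4 {x : Gr n} (hs : switchable u v w z x = true) :
    bitsOf u v w z (flip4 u v w z x) =
      (!x s(u, w), !x s(u, z), !x s(v, w), !x s(v, z)) := by
  rw [flip4_eq_glue huv huw huz hvw hvz hwz hs, bitsOf_glue huv huw huz hvw hvz hwz]

theorem switchable_flip4 (x : Gr n) :
    switchable u v w z (flip4 u v w z x) = switchable u v w z x := by
  by_cases hs : switchable u v w z x = true
  · rw [switchable_eq, bits_flip4 huv huw huz hvw hvz hwz hs, hs]
    simp only [switchable] at hs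
    revert hs
    simp only [swM]
    cases x s(u, w) <;> cases x s(u, z) <;> cases x s(v, w) <;> cases x s(v, z) <;> decide
  · rw [flip4_of_not huv huw huz hvw hvz hwz hs]

theorem flip4_flip4 (x : Gr n) : flip4 u v w z (flip4 u v w z x) = x := by
  by_cases hs : switchable u v w z x = true
  · have hs' : switchable u v w z (flip4 u v w z x) = true := by
      rw [switchable_flip4 huv huw huz hvw hvz hwz, hs]
    have h1 : ∀ y : Gr n, switchable u v w z y = true → ∀ e, flip4 u v w z y e =
        if e = s(u, w) ∨ e = s(u, z) ∨ e = s(v, w) ∨ e = s(v, z) then !y e else y e :=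
      fun y hy e => by simp [flip4, hy]
    funext e
    rw [h1 _ hs' e, h1 _ hs e]
    by_cases h : e = s(u, w) ∨ e = s(u, z) ∨ e = s(v, w) ∨ e = s(v, z)
    · simp [h]
    · simp [h]
  · rw [flip4_of_not huv huw huz hvw hvz hwz hs, flip4_of_not huv huw huz hvw hvz hwz hs]

theorem flip4_apply_of_not_cross {x : Gr n} {e : Sym2 (Fin n)}
    (h : ¬ (e = s(u, w) ∨ e = s(u, z) ∨ e = s(v, w) ∨ e = s(v, z))) :
    flip4 u v w z x e = x e := by
  by_cases hs : switchable u v w z x = true
  · simp [flip4, hs, h]
  · rw [flip4_of_not huv huw huz hvw hvz hwz hs]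

theorem keyP_flip4_uv (x : Gr n) : keyP u v (flip4 u v w z x) = keyP u v x := by
  rw [keyP_eq_iff]
  intro e he
  apply flip4_apply_of_not_cross huv huw huz hvw hvz hwz
  intro h
  exact he (moved_of_cross huv huw huz hvw hvz hwz h).1

theorem keyP_flip4_wz (x : Gr n) : keyP w z (flip4 u v w z x) = keyP w z x := by
  rw [keyP_eq_iff]
  intro e he
  apply flip4_apply_of_not_cross huv huw huz hvw hvz hwz
  intro h
  exact he (moved_of_cross huv huw huz hvw hvz hwz h).2

/-- The rectangle inequality. -/
theorem rect_bound (d : Fin n → ℕ) (f : Gr n → ℝ) :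
    (1 / 4) * rectEnergy d f u v w z
      - (1 / 2) * ∑ x ∈ Om d, (avg (Om d) (fun t => (keyP u v t, switchable u v w z t)) f x
          - avg (Om d) (keyP u v) f x) ^ 2
      - (1 / 2) * ∑ x ∈ Om d, (avg (Om d) (fun t => (keyP w z t, switchable w z u v t)) f x
          - avg (Om d) (keyP w z) f x) ^ 2
    ≤ dot (Om d) (fun x => f x - avg (Om d) (keyP u v) f x)
        (fun x => f x - avg (Om d) (keyP w z) f x) := by
  have hkey : (fun t => (keyP w z t, switchable w z u v t)) =
      (fun t => (keyP w z t, switchable u v w z t)) := by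
    funext t
    rw [switchable_comm u v w z t]
  rw [hkey]
  refine square_bound (κ := keyP u v) (κt := fun t => (keyP u v t, switchable u v w z t))
    (κ' := keyP w z) (κt' := fun t => (keyP w z t, switchable u v w z t))
    (fun x _ y _ h => ?_) (fun x _ y _ h => ?_)
    (fun f x hx => comm_tilde_plain huv huw huz hvw hvz hwz f hx)
    (fun f x hx => ?_)
    (fun f x hx => comm_tilde_tilde huv huw huz hvw hvz hwz f hx)
    (flip4 u v w z) (fun x hx => flip4_mem huv huw huz hvw hvz hwz hx)
    (fun x _ => flip4_flip4 huv huw huz hvw hvz hwz x)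
    (fun x _ => ?_) (fun x _ => keyP_flip4_wz huv huw huz hvw hvz hwz x) f
  · exact (Prod.mk.inj h).1
  · exact (Prod.mk.inj h).1
  · have := comm_tilde_plain hwz.symm.symm (huw.symm) (hvw.symm) (huz.symm) (hvz.symm) huv
      (d := d) f hx
    rw [hkey] at this
    exact this.symm
  · simp only [Prod.mk.injEq]
    exact ⟨keyP_flip4_uv huv huw huz hvw hvz hwz x, switchable_flip4 huv huw huz hvw hvz hwz x⟩

end

end Vale.Agent.Lib.P335
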