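import Vale.Agent.Lib.P335.Mat3
import Vale.Agent.Lib.P335.RectBound

/-!
Transport of the triple form to three-row matrices with prescribed margins.
-/

set_option linter.unusedSectionVars false

namespace Vale.Agent.Lib.P335

open Finset

variable {n : ℕ}

/-- The fluctuation of `f` with respect to the resampling of a pair. -/
noncomputable def LL (d : Fin n → ℕ) (a b : Fin n) (f : Gr n → ℝ) : Gr n → ℝ :=
  fun x => f x - avg (Om d) (keyP a b) f x

theorem colSum_eq_sum {C : Type*} (y : Mat3 C) (c : C) : colSum y c = ∑ i, (y c i).toNat := by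
  unfold colSum
  rw [Finset.card_filter]
  refine Finset.sum_congr rfl (fun i _ => ?_)
  cases y c i <;> simp

theorem rowSum_eq_sum {C : Type*} [Fintype C] (y : Mat3 C) (i : Fin 3) :
    rowSum y i = ∑ c, (y c i).toNat := by
  unfold rowSum
  rw [Finset.card_filter]
  refine Finset.sum_congr rfl (fun c _ => ?_)
  cases y c i <;> simp

theorem f3a : ∀ i : Fin 3, i + 1 + 1 = i + 2 := by decide
theorem f3b : ∀ i : Fin 3, i + 1 + 2 = i := by decide
theorem f3c : ∀ i : Fin 3, i + 2 + 1 = i := by decide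
theorem f3d : ∀ i : Fin 3, i + 2 + 2 = i + 1 := by decide
theorem f3e : ∀ i j : Fin 3, j = i ∨ j = i + 1 ∨ j = i + 2 := by decide
theorem f3ne1 : ∀ i : Fin 3, i ≠ i + 1 := by decide
theorem f3ne2 : ∀ i : Fin 3, i ≠ i + 2 := by decide
theorem f3ne3 : ∀ i : Fin 3, i + 1 ≠ i + 2 := by decide

theorem f3sum (g : Fin 3 → ℕ) (i : Fin 3) : ∑ j, g j = g i + g (i + 1) + g (i + 2) := by
  rw [Fin.sum_univ_three]
  fin_cases i
  · rfl
  · show _ = g 1 + g 2 + g 0
    ring
  · show _ = g 2 + g 0 + g 1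
    ring

section

variable (τ : Fin 3 → Fin n)

/-- The pair opposite to the index `i`. -/
def opp (i : Fin 3) : Sym2 (Fin n) := s(τ (i + 1), τ (i + 2))

open Classical in
/-- The block key: forget all cells touching the triple. -/
noncomputable def blk3 (x : Gr n) : Gr n := fun e => if ∃ i, τ i ∈ e then false else x e

open Classical in
/-- The matrix of cells around the triple. -/
noncomputable def toMat (x : Gr n) : Mat3 (Option (Fin n))
  | none, i => !x (opp τ i)
  | some t, i => if ∃ j, τ j = t then false else x s(τ i, t)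

/-- The number of edges inside the triple. -/
def triT (x : Gr n) : ℕ := ∑ i, (x (opp τ i)).toNat

theorem toMat_none (x : Gr n) (i : Fin 3) : toMat τ x none i = !x (opp τ i) := rfl

theorem toMat_some_mem {t : Fin n} (ht : ∃ j, τ j = t) (x : Gr n) (i : Fin 3) :
    toMat τ x (some t) i = false := by
  simp only [toMat]
  rw [if_pos ht]

theorem toMat_some {t : Fin n} (ht : ¬ ∃ j, τ j = t) (x : Gr n) (i : Fin 3) :
    toMat τ x (some t) i = x s(τ i, t) := by
  simp only [toMat]
  rw [if_neg ht]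

theorem colSum_none (x : Gr n) : colSum (toMat τ x) none + triT τ x = 3 := by
  rw [colSum_eq_sum]
  unfold triT
  rw [← sum_add_distrib]
  simp only [toMat_none]
  have h : ∀ b : Bool, (!b).toNat + b.toNat = 1 := by decide
  simp [h]

theorem colSum_some_mem {t : Fin n} (ht : ∃ j, τ j = t) (x : Gr n) :
    colSum (toMat τ x) (some t) = 0 := by
  rw [colSum_eq_sum]
  simp [toMat_some_mem τ ht]

theorem colSum_some {t : Fin n} (ht : ¬ ∃ j, τ j = t) (x : Gr n) :
    colSum (toMat τ x) (some t) = ∑ i, (x s(τ i, t)).toNat := by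
  rw [colSum_eq_sum]
  simp only [toMat_some τ ht]

theorem mem_compl_image {t : Fin n} : t ∈ (univ.image τ)ᶜ ↔ ¬ ∃ j, τ j = t := by
  simp

theorem mem_image_tau {t : Fin n} : t ∈ univ.image τ ↔ ∃ j, τ j = t := by
  simp

variable {τ}

theorem deg_tau (hτ : Function.Injective τ) (x : Gr n) (i : Fin 3) :
    deg x (τ i) = ∑ t ∈ (univ.image τ)ᶜ, (x s(τ i, t)).toNat + (x (opp τ (i + 1))).toNat +
      (x (opp τ (i + 2))).toNat := by
  rw [deg_eq_sum]
  have hE : univ.erase (τ i) = insert (τ (i + 1)) (insert (τ (i + 2)) (univ.image τ)ᶜ) := by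
    ext b
    simp only [mem_erase, mem_univ, and_true, mem_insert, mem_compl_image]
    constructor
    · intro hb
      by_cases h : ∃ j, τ j = b
      · obtain ⟨j, rfl⟩ := h
        rcases f3e i j with rfl | rfl | rfl
        · exact absurd rfl hb
        · exact Or.inl rfl
        · exact Or.inr (Or.inl rfl)
      · exact Or.inr (Or.inr h)
    · rintro (rfl | rfl | hb)
      · exact hτ.ne (f3ne1 i).symm
      · exact hτ.ne (f3ne2 i).symm
      · rintro rfl
        exact hb ⟨i, rfl⟩
  have h2 : τ (i + 2) ∉ (univ.image τ)ᶜ := by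
    rw [mem_compl_image]
    exact fun h => h ⟨_, rfl⟩
  have h1 : τ (i + 1) ∉ insert (τ (i + 2)) (univ.image τ)ᶜ := by
    rw [mem_insert, mem_compl_image]
    rintro (h | h)
    · exact hτ.ne (f3ne3 i) h
    · exact h ⟨_, rfl⟩
  rw [hE, sum_insert h1, sum_insert h2]
  have e1 : s(τ i, τ (i + 1)) = opp τ (i + 2) := by
    simp only [opp, f3c, f3d]
  have e2 : s(τ i, τ (i + 2)) = opp τ (i + 1) := by
    simp only [opp, f3a, f3b]
    exact Sym2.eq_swap
  rw [e1, e2]
  ring

theorem rowSum_triT (hτ : Function.Injective τ) (x : Gr n) (i : Fin 3) :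
    rowSum (toMat τ x) i + triT τ x = deg x (τ i) + 1 := by
  rw [rowSum_eq_sum, Fintype.sum_option, deg_tau hτ x i]
  have hsplit : ∑ t, (toMat τ x (some t) i).toNat =
      ∑ t ∈ (univ.image τ)ᶜ, (x s(τ i, t)).toNat := by
    rw [← Finset.sum_compl_add_sum (univ.image τ)]
    rw [Finset.sum_eq_zero (s := univ.image τ)]
    · rw [add_zero]
      refine Finset.sum_congr rfl (fun t ht => ?_)
      rw [toMat_some τ ((mem_compl_image τ).1 ht)]
    · intro t ht
      rw [toMat_some_mem τ ((mem_image_tau τ).1 ht)]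
      rfl
  rw [hsplit]
  unfold triT
  rw [f3sum _ i]
  simp only [toMat_none]
  cases x (opp τ i) <;> simp <;> omega

theorem cell_of_blk {x x' : Gr n} (hb : blk3 τ x = blk3 τ x') {e : Sym2 (Fin n)}
    (he : ¬ ∃ i, τ i ∈ e) : x e = x' e := by
  have := congrFun hb e
  simpa only [blk3, if_neg he] using this

theorem colT_eq (hτ : Function.Injective τ) {x x' : Gr n} (hdeg : ∀ a, deg x a = deg x' a)
    (hb : blk3 τ x = blk3 τ x') {t : Fin n} (ht : ¬ ∃ j, τ j = t) :
    ∑ i, (x s(τ i, t)).toNat = ∑ i, (x' s(τ i, t)).toNat := by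
  have hB : t ∉ univ.image τ := by
    rw [mem_image_tau]
    exact ht
  have := deg_add_eq (x := x) (y := x') hB (fun b _ hbB => by
    apply cell_of_blk hb
    rintro ⟨i, hi⟩
    rcases Sym2.mem_iff.1 hi with h | h
    · exact ht ⟨i, h⟩
    · exact hbB ((mem_image_tau τ).2 ⟨i, h⟩))
  rw [hdeg, sum_image hτ.injOn, sum_image hτ.injOn] at this
  have hs : ∀ i, s(t, τ i) = s(τ i, t) := fun i => Sym2.eq_swap
  simp only [hs] at this
  omega

theorem sum_deg (hτ : Function.Injective τ) (x : Gr n) :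
    ∑ i, deg x (τ i) = ∑ t ∈ (univ.image τ)ᶜ, ∑ i, (x s(τ i, t)).toNat + 2 * triT τ x := by
  simp only [deg_tau hτ x]
  rw [sum_add_distrib, sum_add_distrib, sum_comm]
  have h1 := Equiv.sum_comp (Equiv.addRight (1 : Fin 3)) (fun i => (x (opp τ i)).toNat)
  have h2 := Equiv.sum_comp (Equiv.addRight (2 : Fin 3)) (fun i => (x (opp τ i)).toNat)
  simp only [Equiv.coe_addRight] at h1 h2
  rw [h1, h2]
  unfold triT
  ring

theorem triT_eq (hτ : Function.Injective τ) {x x' : Gr n} (hdeg : ∀ a, deg x a = deg x' a)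
    (hb : blk3 τ x = blk3 τ x') : triT τ x = triT τ x' := by
  have h1 := sum_deg hτ x
  have h2 := sum_deg hτ x'
  have h3 : ∑ t ∈ (univ.image τ)ᶜ, ∑ i, (x s(τ i, t)).toNat =
      ∑ t ∈ (univ.image τ)ᶜ, ∑ i, (x' s(τ i, t)).toNat :=
    Finset.sum_congr rfl (fun t ht => colT_eq hτ hdeg hb ((mem_compl_image τ).1 ht))
  have h4 : ∑ i, deg x (τ i) = ∑ i, deg x' (τ i) :=
    Finset.sum_congr rfl (fun i _ => hdeg _)
  omega

theorem margins_eq (hτ : Function.Injective τ) {x x' : Gr n} (hdeg : ∀ a, deg x a = deg x' a)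
    (hb : blk3 τ x = blk3 τ x') :
    colSum (toMat τ x) = colSum (toMat τ x') ∧ rowSum (toMat τ x) = rowSum (toMat τ x') := by
  have hT := triT_eq hτ hdeg hb
  constructor
  · funext c
    cases c with
    | none =>
      have h1 := colSum_none τ x
      have h2 := colSum_none τ x'
      omega
    | some t =>
      by_cases ht : ∃ j, τ j = t
      · rw [colSum_some_mem τ ht, colSum_some_mem τ ht]
      · rw [colSum_some τ ht, colSum_some τ ht, colT_eq hτ hdeg hb ht]
  · funext i
    have h1 := rowSum_triT hτ x i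
    have h2 := rowSum_triT hτ x' i
    have h3 := hdeg (τ i)
    omega

variable (τ) in
theorem cell_cases (e : Sym2 (Fin n)) : (¬ ∃ i, τ i ∈ e) ∨ (∃ i, e = s(τ i, τ i)) ∨
    (∃ i, e = opp τ i) ∨ (∃ i t, (¬ ∃ j, τ j = t) ∧ e = s(τ i, t)) := by
  by_cases h : ∃ i, τ i ∈ e
  · right
    obtain ⟨i, t, rfl⟩ := h
    by_cases ht : ∃ j, τ j = t
    · obtain ⟨j, rfl⟩ := ht
      rcases f3e i j with h | h | h
      · subst h
        left
        exact ⟨_, rfl⟩
      · subst h
        right; left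
        refine ⟨i + 2, ?_⟩
        simp only [opp, f3c, f3d]
      · subst h
        right; left
        refine ⟨i + 1, ?_⟩
        simp only [opp, f3a, f3b]
        exact Sym2.eq_swap
    · right; right
      exact ⟨i, t, ht, rfl⟩
  · left
    exact h

theorem touch_moved {a b p q : Fin n} (h : p = a ∨ p = b) (hq : q ≠ a) (hq' : q ≠ b) :
    moved a b s(p, q) := by
  refine ⟨fun he => ?_, ?_⟩
  · have : q ∈ s(a, b) := by
      rw [← he]
      exact Sym2.mem_mk_right p q
    rcases Sym2.mem_iff.1 this with h1 | h1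
    · exact hq h1
    · exact hq' h1
  · rcases h with rfl | rfl
    · exact Or.inl (Sym2.mem_mk_left _ _)
    · exact Or.inr (Sym2.mem_mk_left _ _)

theorem key_row_iff (hτ : Function.Injective τ) {x x' : Gr n} (hx : ∀ a, x s(a, a) = false)
    (hx' : ∀ a, x' s(a, a) = false) (hb : blk3 τ x = blk3 τ x') (i : Fin 3) :
    keyP (τ (i + 1)) (τ (i + 2)) x = keyP (τ (i + 1)) (τ (i + 2)) x' ↔
      rowKey i (toMat τ x) = rowKey i (toMat τ x') := by
  rw [keyP_eq_iff]
  constructor
  · intro h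
    funext c
    cases c with
    | none =>
      show (!x (opp τ i)) = !x' (opp τ i)
      rw [h (opp τ i) (by simp [moved, opp])]
    | some t =>
      show toMat τ x (some t) i = toMat τ x' (some t) i
      by_cases ht : ∃ j, τ j = t
      · rw [toMat_some_mem τ ht, toMat_some_mem τ ht]
      · rw [toMat_some τ ht, toMat_some τ ht]
        apply h
        exact not_moved_of_not_mem (hτ.ne (f3ne1 i)) (hτ.ne (f3ne2 i))
          (fun h => ht ⟨_, h.symm⟩) (fun h => ht ⟨_, h.symm⟩)
  · intro h e he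
    have hR : ∀ c, toMat τ x c i = toMat τ x' c i := fun c => congrFun h c
    rcases cell_cases τ e with h1 | ⟨j, rfl⟩ | ⟨j, rfl⟩ | ⟨j, t, ht, rfl⟩
    · exact cell_of_blk hb h1
    · rw [hx, hx']
    · rcases f3e i j with rfl | rfl | rfl
      · have := hR none
        simpa [toMat_none] using this
      · exfalso
        apply he
        simp only [opp, f3a, f3b]
        exact touch_moved (Or.inr rfl) (hτ.ne (f3ne1 i)) (hτ.ne (f3ne2 i))
      · exfalso
        apply he
        simp only [opp, f3c, f3d]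
        rw [Sym2.eq_swap]
        exact touch_moved (Or.inl rfl) (hτ.ne (f3ne1 i)) (hτ.ne (f3ne2 i))
    · rcases f3e i j with rfl | rfl | rfl
      · have := hR (some t)
        rwa [toMat_some τ ht, toMat_some τ ht] at this
      · exfalso
        apply he
        exact touch_moved (Or.inl rfl) (fun h => ht ⟨_, h.symm⟩) (fun h => ht ⟨_, h.symm⟩)
      · exfalso
        apply he
        exact touch_moved (Or.inr rfl) (fun h => ht ⟨_, h.symm⟩) (fun h => ht ⟨_, h.symm⟩)

theorem toMat_injOn {x x' : Gr n} (hx : ∀ a, x s(a, a) = false)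
    (hx' : ∀ a, x' s(a, a) = false) (hb : blk3 τ x = blk3 τ x')
    (h : toMat τ x = toMat τ x') : x = x' := by
  funext e
  rcases cell_cases τ e with h1 | ⟨j, rfl⟩ | ⟨j, rfl⟩ | ⟨j, t, ht, rfl⟩
  · exact cell_of_blk hb h1
  · rw [hx, hx']
  · have := congrFun (congrFun h none) j
    simpa [toMat_none] using this
  · have := congrFun (congrFun h (some t)) j
    rwa [toMat_some τ ht, toMat_some τ ht] at this

end

section glue

variable (τ : Fin 3 → Fin n)

open Classical in
/-- Gluing a matrix onto the cells of a graph away from the triple. -/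
noncomputable def glue3 (x0 : Gr n) (y : Mat3 (Option (Fin n))) : Gr n := fun e =>
  if (∃ i, e = opp τ i ∧ y none i = false) ∨
      (∃ i t, (¬ ∃ j, τ j = t) ∧ e = s(τ i, t) ∧ y (some t) i = true) then true
  else if ∃ i, τ i ∈ e then false else x0 e

variable {τ}

theorem opp_inj (hτ : Function.Injective τ) {i j : Fin 3} (h : opp τ i = opp τ j) : i = j := by
  have key : ∀ i j : Fin 3, i + 1 = j + 2 → i + 2 = j + 1 → False := by decide
  have key' : ∀ i j : Fin 3, i + 1 = j + 1 → i = j := by decide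
  simp only [opp, Sym2.eq_iff] at h
  rcases h with ⟨h1, _⟩ | ⟨h1, h2⟩
  · exact key' i j (hτ h1)
  · exact (key i j (hτ h1) (hτ h2)).elim

theorem opp_ne_cell {j i : Fin 3} {t : Fin n} (ht : ¬ ∃ k, τ k = t) : opp τ j ≠ s(τ i, t) := by
  intro h
  have : t ∈ opp τ j := by
    rw [h]
    exact Sym2.mem_mk_right _ _
  rcases Sym2.mem_iff.1 this with h1 | h1
  · exact ht ⟨_, h1.symm⟩
  · exact ht ⟨_, h1.symm⟩

theorem glue_opp (hτ : Function.Injective τ) (x0 : Gr n) (y : Mat3 (Option (Fin n))) (i : Fin 3) :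
    glue3 τ x0 y (opp τ i) = !y none i := by
  unfold glue3
  by_cases h : y none i = false
  · rw [if_pos (Or.inl ⟨i, rfl, h⟩), h]
    rfl
  · have hc : ¬ ((∃ j, opp τ i = opp τ j ∧ y none j = false) ∨
        (∃ j t, (¬ ∃ k, τ k = t) ∧ opp τ i = s(τ j, t) ∧ y (some t) j = true)) := by
      rintro (⟨j, h1, h2⟩ | ⟨j, t, ht, h1, _⟩)
      · rw [opp_inj hτ h1] at h
        exact h h2
      · exact opp_ne_cell ht h1
    rw [if_neg hc, if_pos ⟨i + 1, Sym2.mem_mk_left _ _⟩]
    simp only [Bool.not_eq_false] at h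
    rw [h]
    rfl

theorem glue_cell (x0 : Gr n) (y : Mat3 (Option (Fin n))) (i : Fin 3) {t : Fin n}
    (ht : ¬ ∃ k, τ k = t) (hτ : Function.Injective τ) :
    glue3 τ x0 y s(τ i, t) = y (some t) i := by
  unfold glue3
  by_cases h : y (some t) i = true
  · rw [if_pos (Or.inr ⟨i, t, ht, rfl, h⟩), h]
  · have hc : ¬ ((∃ j, s(τ i, t) = opp τ j ∧ y none j = false) ∨
        (∃ j t', (¬ ∃ k, τ k = t') ∧ s(τ i, t) = s(τ j, t') ∧ y (some t') j = true)) := by
      rintro (⟨j, h1, _⟩ | ⟨j, t', ht', h1, h2⟩)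
      · exact opp_ne_cell ht h1.symm
      · simp only [Sym2.eq_iff] at h1
        rcases h1 with ⟨h3, h4⟩ | ⟨h3, _⟩
        · rw [hτ h3, h4] at h
          exact h h2
        · exact ht' ⟨_, h3⟩
    rw [if_neg hc, if_pos ⟨i, Sym2.mem_mk_left _ _⟩]
    simp only [Bool.not_eq_true] at h
    rw [h]

theorem glue_off (x0 : Gr n) (y : Mat3 (Option (Fin n))) {e : Sym2 (Fin n)}
    (he : ¬ ∃ i, τ i ∈ e) : glue3 τ x0 y e = x0 e := by
  unfold glue3
  have hc : ¬ ((∃ j, e = opp τ j ∧ y none j = false) ∨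
        (∃ j t', (¬ ∃ k, τ k = t') ∧ e = s(τ j, t') ∧ y (some t') j = true)) := by
    rintro (⟨j, rfl, _⟩ | ⟨j, t', _, rfl, _⟩)
    · exact he ⟨j + 1, Sym2.mem_mk_left _ _⟩
    · exact he ⟨j, Sym2.mem_mk_left _ _⟩
  rw [if_neg hc, if_neg he]

theorem glue_loop (hτ : Function.Injective τ) (x0 : Gr n) (y : Mat3 (Option (Fin n))) (i : Fin 3) :
    glue3 τ x0 y s(τ i, τ i) = false := by
  unfold glue3
  have hc : ¬ ((∃ j, s(τ i, τ i) = opp τ j ∧ y none j = false) ∨
        (∃ j t', (¬ ∃ k, τ k = t') ∧ s(τ i, τ i) = s(τ j, t') ∧ y (some t') j = true)) := by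
    rintro (⟨j, h1, _⟩ | ⟨j, t', ht', h1, _⟩)
    · simp only [opp, Sym2.eq_iff] at h1
      rcases h1 with ⟨h2, h3⟩ | ⟨h2, h3⟩
      · exact f3ne3 j (hτ (h2.symm.trans h3))
      · exact f3ne3 j (hτ (h3.symm.trans h2))
    · simp only [Sym2.eq_iff] at h1
      rcases h1 with ⟨_, h3⟩ | ⟨h3, _⟩
      · exact ht' ⟨_, h3⟩
      · exact ht' ⟨_, h3⟩
  rw [if_neg hc, if_pos ⟨i, Sym2.mem_mk_left _ _⟩]

theorem blk3_glue (x0 : Gr n) (y : Mat3 (Option (Fin n))) : blk3 τ (glue3 τ x0 y) = blk3 τ x0 := by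
  funext e
  unfold blk3
  by_cases he : ∃ i, τ i ∈ e
  · rw [if_pos he, if_pos he]
  · rw [if_neg he, if_neg he, glue_off x0 y he]

theorem toMat_glue (hτ : Function.Injective τ) (x0 : Gr n) (y : Mat3 (Option (Fin n)))
    (hy : ∀ t, (∃ k, τ k = t) → ∀ i, y (some t) i = false) : toMat τ (glue3 τ x0 y) = y := by
  funext c i
  cases c with
  | none =>
    rw [toMat_none, glue_opp hτ, Bool.not_not]
  | some t =>
    by_cases ht : ∃ k, τ k = t
    · rw [toMat_some_mem τ ht, hy t ht i]
    · rw [toMat_some τ ht, glue_cell x0 y i ht hτ]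

theorem glue3_mem (hτ : Function.Injective τ) {d : Fin n → ℕ} {x0 : Gr n} (hx0 : x0 ∈ Om d)
    {y : Mat3 (Option (Fin n))} (hc : ∀ c, colSum y c = colSum (toMat τ x0) c)
    (hr : ∀ i, rowSum y i = rowSum (toMat τ x0) i) : glue3 τ x0 y ∈ Om d := by
  have hx := om_props hx0
  have hy : ∀ t, (∃ k, τ k = t) → ∀ i, y (some t) i = false := by
    intro t ht i
    have h0 := hc (some t)
    rw [colSum_some_mem τ ht, colSum_eq_sum, Finset.sum_eq_zero_iff] at h0
    have := h0 i (mem_univ _)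
    revert this
    cases y (some t) i <;> simp
  have hty := toMat_glue hτ x0 y hy
  rw [Om, mem_filter]
  refine ⟨mem_univ _, fun a => ?_, fun a => ?_⟩
  · by_cases ha : ∃ k, τ k = a
    · obtain ⟨k, rfl⟩ := ha
      exact glue_loop hτ x0 y k
    · rw [glue_off x0 y, hx.1]
      rintro ⟨i, hi⟩
      rcases Sym2.mem_iff.1 hi with h | h <;> exact ha ⟨i, h⟩
  · rw [← hx.2 a]
    by_cases ha : ∃ k, τ k = a
    · obtain ⟨k, rfl⟩ := ha
      have h1 := rowSum_triT hτ (glue3 τ x0 y) k
      have h2 := rowSum_triT hτ x0 k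
      have h3 := colSum_none τ (glue3 τ x0 y)
      have h4 := colSum_none τ x0
      rw [hty] at h1 h3
      have h5 := hc none
      have h6 := hr k
      omega
    · have hB : a ∉ univ.image τ := by
        rw [mem_image_tau]
        exact ha
      have := deg_add_eq (x := glue3 τ x0 y) (y := x0) hB (fun b _ hbB => by
        apply glue_off
        rintro ⟨i, hi⟩
        rcases Sym2.mem_iff.1 hi with h | h
        · exact ha ⟨i, h⟩
        · exact hbB ((mem_image_tau τ).2 ⟨i, h⟩))
      rw [sum_image hτ.injOn, sum_image hτ.injOn] at this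
      have hs : ∀ (z : Gr n) i, z s(a, τ i) = z s(τ i, a) := fun z i => by rw [Sym2.eq_swap]
      simp only [hs] at this
      have h1 := colSum_some τ ha (glue3 τ x0 y)
      have h2 := colSum_some τ ha x0
      rw [hty] at h1
      have h3 := hc (some a)
      omega

theorem block_image (hτ : Function.Injective τ) {d : Fin n → ℕ} {x0 : Gr n} (hx0 : x0 ∈ Om d) :
    ((Om d).filter fun x => blk3 τ x = blk3 τ x0).image (toMat τ) =
      marginSet (colSum (toMat τ x0)) (rowSum (toMat τ x0)) := by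
  ext y
  simp only [mem_image, mem_filter, marginSet, mem_univ, true_and]
  constructor
  · rintro ⟨x, ⟨hx, hb⟩, rfl⟩
    have hdeg : ∀ a, deg x a = deg x0 a := fun a => by
      rw [(om_props hx).2, (om_props hx0).2]
    have := margins_eq hτ hdeg hb
    exact ⟨fun c => congrFun this.1 c, fun i => congrFun this.2 i⟩
  · rintro ⟨hc, hr⟩
    have hy : ∀ t, (∃ k, τ k = t) → ∀ i, y (some t) i = false := by
      intro t ht i
      have h0 := hc (some t)
      rw [colSum_some_mem τ ht, colSum_eq_sum, Finset.sum_eq_zero_iff] at h0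
      have := h0 i (mem_univ _)
      revert this
      cases y (some t) i <;> simp
    exact ⟨glue3 τ x0 y, ⟨glue3_mem hτ hx0 hc hr, blk3_glue x0 y⟩, toMat_glue hτ x0 y hy⟩

theorem triple_block (hτ : Function.Injective τ) (h3 : ThreeRowStmt (Option (Fin n)))
    (d : Fin n → ℕ) (f : Gr n → ℝ) {x0 : Gr n} (hx0 : x0 ∈ Om d) :
    0 ≤ dot ((Om d).filter fun x => blk3 τ x = blk3 τ x0) (LL d (τ (0 + 1)) (τ (0 + 2)) f)
          (LL d (τ (1 + 1)) (τ (1 + 2)) f) +
        dot ((Om d).filter fun x => blk3 τ x = blk3 τ x0) (LL d (τ (0 + 1)) (τ (0 + 2)) f)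
          (LL d (τ (2 + 1)) (τ (2 + 2)) f) +
        dot ((Om d).filter fun x => blk3 τ x = blk3 τ x0) (LL d (τ (1 + 1)) (τ (1 + 2)) f)
          (LL d (τ (2 + 1)) (τ (2 + 2)) f) := by
  classical
  set s := (Om d).filter fun x => blk3 τ x = blk3 τ x0 with hs
  have hsm : ∀ x ∈ s, x ∈ Om d ∧ blk3 τ x = blk3 τ x0 := fun x hx => by
    rw [hs, mem_filter] at hx
    exact hx
  have hloop : ∀ x ∈ s, ∀ a, x s(a, a) = false := fun x hx => (om_props (hsm x hx).1).1
  have hinj : Set.InjOn (toMat τ) (s : Set (Gr n)) := by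
    intro x hx x' hx' h
    have hx := Finset.mem_coe.1 hx
    have hx' := Finset.mem_coe.1 hx'
    exact toMat_injOn (hloop x hx) (hloop x' hx')
      ((hsm x hx).2.trans (hsm x' hx').2.symm) h
  have himg := block_image hτ hx0
  rw [← hs] at himg
  let g : Mat3 (Option (Fin n)) → ℝ := fun y => f (Function.invFunOn (toMat τ) (s : Set (Gr n)) y)
  have hg : ∀ x ∈ s, g (toMat τ x) = f x := by
    intro x hx
    show f _ = f x
    rw [hinj.leftInvOn_invFunOn (Finset.mem_coe.2 hx)]
  have hF : ∀ i, ∀ x ∈ s, (fun y => g y - avg (marginSet (colSum (toMat τ x0)) (rowSum (toMat τ x0)))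
      (rowKey i) g y) (toMat τ x) = LL d (τ (i + 1)) (τ (i + 2)) f x := by
    intro i x hx
    have h1 := avg_transport hinj himg (κ := keyP (τ (i + 1)) (τ (i + 2))) (κ' := rowKey i)
      (fun a ha b hb => key_row_iff hτ (hloop a ha) (hloop b hb)
        ((hsm a ha).2.trans (hsm b hb).2.symm) i) (f := f) (g := g) hg hx
    have h2 := avg_filter_block (s := Om d) (κ := keyP (τ (i + 1)) (τ (i + 2))) (β := blk3 τ)
      (fun a _ b _ hab => by
        funext e
        unfold blk3
        by_cases he : ∃ i, τ i ∈ e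
        · rw [if_pos he, if_pos he]
        · rw [if_neg he, if_neg he]
          rw [keyP_eq_iff] at hab
          refine hab e (fun hm => ?_)
          rcases hm.2 with h | h
          · exact he ⟨_, h⟩
          · exact he ⟨_, h⟩) f (hsm x hx).1
    rw [(hsm x hx).2, ← hs] at h2
    show g (toMat τ x) - avg _ (rowKey i) g (toMat τ x) = f x - _
    rw [hg x hx, h1, h2]
  have := h3 (colSum (toMat τ x0)) (rowSum (toMat τ x0)) g
  rw [dot_transport hinj himg (hF 0) (hF 1), dot_transport hinj himg (hF 0) (hF 2),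
    dot_transport hinj himg (hF 1) (hF 2)] at this
  exact this

end glue

/-- The triple bound, given the three-row lemma. -/
theorem triple_bound_of_threeRow (h3 : ThreeRowStmt (Option (Fin n))) (d : Fin n → ℕ)
    (f : Gr n → ℝ) {u v w : Fin n} (huv : u ≠ v) (huw : u ≠ w) (hvw : v ≠ w) :
    0 ≤ dot (Om d) (LL d u v f) (LL d u w f) + dot (Om d) (LL d u v f) (LL d v w f) +
      dot (Om d) (LL d u w f) (LL d v w f) := by
  classical
  let τ : Fin 3 → Fin n := ![u, v, w]
  have hτ : Function.Injective τ := by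
    intro i j h
    fin_cases i <;> fin_cases j <;> simp_all [τ]
  have e0 : LL d (τ (0 + 1)) (τ (0 + 2)) f = LL d v w f := rfl
  have e1 : LL d (τ (1 + 1)) (τ (1 + 2)) f = LL d u w f := by
    show LL d w u f = _
    unfold LL
    rw [keyP_comm]
  have e2 : LL d (τ (2 + 1)) (τ (2 + 2)) f = LL d u v f := rfl
  have hb : ∀ x0 ∈ Om d, 0 ≤ dot ((Om d).filter fun x => blk3 τ x = blk3 τ x0) (LL d v w f)
      (LL d u w f) + dot ((Om d).filter fun x => blk3 τ x = blk3 τ x0) (LL d v w f) (LL d u v f) +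
      dot ((Om d).filter fun x => blk3 τ x = blk3 τ x0) (LL d u w f) (LL d u v f) := by
    intro x0 hx0
    have := triple_block hτ h3 d f hx0
    rwa [e0, e1, e2] at this
  have hs : 0 ≤ dot (Om d) (LL d v w f) (LL d u w f) + dot (Om d) (LL d v w f) (LL d u v f) +
      dot (Om d) (LL d u w f) (LL d u v f) := by
    rw [dot_fiberwise (Om d) (blk3 τ) (LL d v w f) (LL d u w f),
      dot_fiberwise (Om d) (blk3 τ) (LL d v w f) (LL d u v f),
      dot_fiberwise (Om d) (blk3 τ) (LL d u w f) (LL d u v f), ← Finset.sum_add_distrib,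
      ← Finset.sum_add_distrib]
    refine Finset.sum_nonneg (fun b hb' => ?_)
    obtain ⟨x0, hx0, rfl⟩ := Finset.mem_image.1 hb'
    exact hb x0 hx0
  rw [dot_comm (Om d) (LL d v w f) (LL d u w f), dot_comm (Om d) (LL d v w f) (LL d u v f),
    dot_comm (Om d) (LL d u w f) (LL d u v f)] at hs
  linarith

end Vale.Agent.Lib.P335
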