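import Vale.Agent.Lib.P335.JTrans
import Vale.Agent.Lib.P335.Spectral
import Vale.Agent.Lib.P335.Connect
import Vale.Agent.Lib.P335.Triple

/-!
The Bochner argument: assembly of the Poincare inequality for the switch chain.
-/

set_option linter.unusedSectionVars false

namespace Vale.Agent.Lib.P335

open Finset

variable {n : ℕ}

section Form

variable {X ι : Type*} [DecidableEq X]

theorem dot_sum_left (s : Finset X) (t : Finset ι) (h : ι → X → ℝ) (g : X → ℝ) :
    dot s (fun x => ∑ i ∈ t, h i x) g = ∑ i ∈ t, dot s (h i) g := by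
  unfold dot
  simp only [Finset.sum_mul]
  rw [Finset.sum_comm]

theorem dot_sum_right (s : Finset X) (t : Finset ι) (h : ι → X → ℝ) (g : X → ℝ) :
    dot s g (fun x => ∑ i ∈ t, h i x) = ∑ i ∈ t, dot s g (h i) := by
  rw [dot_comm, dot_sum_left]
  exact Finset.sum_congr rfl (fun i _ => dot_comm _ _ _)

end Form

/-- The sum of the residuals over ordered pairs. -/
noncomputable def AA (d : Fin n → ℕ) (f : Gr n → ℝ) : Gr n → ℝ :=
  fun x => ∑ a, ∑ b ∈ univ.erase a, LL d a b f x

section Residual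

variable (d : Fin n → ℕ) (a b : Fin n)

theorem LL_comm (f : Gr n → ℝ) : LL d a b f = LL d b a f := by
  unfold LL
  rw [keyP_comm]

theorem LL_add (f g : Gr n → ℝ) (x : Gr n) :
    LL d a b (fun y => f y + g y) x = LL d a b f x + LL d a b g x := by
  simp only [LL]
  rw [show (fun y => f y + g y) = f + g from rfl, avg_add]
  ring

theorem LL_smul (c : ℝ) (f : Gr n → ℝ) (x : Gr n) :
    LL d a b (fun y => c * f y) x = c * LL d a b f x := by
  simp only [LL]
  rw [show (fun y => c * f y) = c • f from rfl, avg_smul]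
  ring

theorem LL_congr {f g : Gr n → ℝ} (h : ∀ x ∈ Om d, f x = g x) {x : Gr n} (hx : x ∈ Om d) :
    LL d a b f x = LL d a b g x := by
  simp only [LL]
  rw [h x hx, avg_congr_fun h]

theorem LL_sym (f g : Gr n → ℝ) : dot (Om d) (LL d a b f) g = dot (Om d) f (LL d a b g) := by
  unfold LL
  rw [dot_sub_left, dot_sub_right, dot_avg_comm]

theorem LL_const {x : Gr n} (hx : x ∈ Om d) : LL d a b (fun _ => 1) x = 0 := by
  simp only [LL]
  rw [avg_const _ _ _ hx]
  ring

theorem dot_LL_self (f : Gr n → ℝ) :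
    dot (Om d) f (LL d a b f) = dot (Om d) (LL d a b f) (LL d a b f) := by
  have h1 : dot (Om d) (avg (Om d) (keyP a b) f) (avg (Om d) (keyP a b) f) =
      dot (Om d) f (avg (Om d) (keyP a b) f) := by
    rw [dot_avg_comm]
    exact dot_congr (fun _ _ => rfl) (fun x hx => avg_avg f hx)
  unfold LL
  rw [dot_sub_left, dot_sub_right, dot_sub_right, dot_comm (Om d) (avg _ _ f) f, h1]
  ring

end Residual

section Sums

/-- Quadruples are nested sums. -/
theorem sum_erase_ite (a : Fin n) (h : Fin n → ℝ) :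
    ∑ b ∈ univ.erase a, h b = ∑ b, if b ≠ a then h b else 0 := by
  rw [← Finset.sum_filter]
  refine Finset.sum_congr ?_ (fun _ _ => rfl)
  ext b
  simp

theorem sum_other_ite (a b : Fin n) (h : Fin n → ℝ) :
    ∑ c ∈ otherCols a b, h c = ∑ c, if c ≠ a ∧ c ≠ b then h c else 0 := by
  rw [← Finset.sum_filter]
  rfl

theorem sum_other_erase_ite (a b c : Fin n) (h : Fin n → ℝ) :
    ∑ e ∈ (otherCols a b).erase c, h e = ∑ e, if e ≠ c ∧ e ≠ a ∧ e ≠ b then h e else 0 := by
  rw [← Finset.sum_filter]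
  refine Finset.sum_congr ?_ (fun _ _ => rfl)
  ext e
  simp [otherCols]

/-- The triples of distinct vertices. -/
def triples (n : ℕ) : Finset (Fin n × Fin n × Fin n) :=
  univ.filter fun t => t.1 ≠ t.2.1 ∧ t.1 ≠ t.2.2 ∧ t.2.1 ≠ t.2.2

theorem sum_triples (g : Fin n → Fin n → Fin n → ℝ) :
    ∑ a, ∑ b ∈ univ.erase a, ∑ w ∈ otherCols a b, g a b w =
      ∑ t ∈ triples n, g t.1 t.2.1 t.2.2 := by
  unfold triples
  rw [Finset.sum_filter, Fintype.sum_prod_type]
  refine Finset.sum_congr rfl (fun a _ => ?_)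
  rw [Fintype.sum_prod_type, sum_erase_ite]
  refine Finset.sum_congr rfl (fun b _ => ?_)
  rw [sum_other_ite]
  by_cases hb : b = a
  · subst hb
    simp
  · have hab : a ≠ b := fun h => hb h.symm
    simp only [hb, hab, not_false_eq_true, if_true, ne_eq, true_and, false_and, if_false]
    refine Finset.sum_congr rfl (fun w _ => ?_)
    by_cases h1 : w = a
    · subst h1
      simp
    · by_cases h2 : w = b
      · subst h2
        simp
      · have h3 : a ≠ w := fun h => h1 h.symm
        have h4 : b ≠ w := fun h => h2 h.symm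
        simp [h1, h2, h3, h4]

theorem sum_quads (G : Fin n → Fin n → Fin n → Fin n → ℝ) :
    ∑ a, ∑ b ∈ univ.erase a, ∑ w ∈ otherCols a b, ∑ z ∈ (otherCols a b).erase w, G a b w z =
      ∑ q ∈ quads n, G q.1 q.2.1 q.2.2.1 q.2.2.2 := by
  unfold quads
  rw [Finset.sum_filter, Fintype.sum_prod_type]
  refine Finset.sum_congr rfl (fun a _ => ?_)
  rw [Fintype.sum_prod_type, sum_erase_ite]
  refine Finset.sum_congr rfl (fun b _ => ?_)
  rw [Fintype.sum_prod_type, sum_other_ite]
  by_cases hb : b = a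
  · subst hb
    simp
  · have hab : a ≠ b := fun h => hb h.symm
    simp only [hb, hab, not_false_eq_true, if_true, ne_eq, true_and, false_and, if_false]
    refine Finset.sum_congr rfl (fun w _ => ?_)
    by_cases h1 : w = a
    · subst h1
      simp
    · by_cases h2 : w = b
      · subst h2
        simp
      · have h3 : a ≠ w := fun h => h1 h.symm
        have h4 : b ≠ w := fun h => h2 h.symm
        simp only [h1, h2, h3, h4, not_false_eq_true, if_true, ne_eq, true_and, and_self]
        rw [sum_other_erase_ite]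
        refine Finset.sum_congr rfl (fun z _ => ?_)
        by_cases h5 : z = w
        · subst h5
          simp
        · have h6 : w ≠ z := fun h => h5 h.symm
          by_cases h7 : z = a
          · subst h7
            simp
          · by_cases h8 : z = b
            · subst h8
              simp
            · have h9 : a ≠ z := fun h => h7 h.symm
              have h10 : b ≠ z := fun h => h8 h.symm
              simp [h5, h6, h7, h8, h9, h10]

/-- Splitting a sum over ordered pairs with respect to a given pair. -/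
theorem sum_ordered_split {a b : Fin n} (hab : a ≠ b) (g : Fin n → Fin n → ℝ) :
    ∑ c, ∑ e ∈ univ.erase c, g c e =
      g a b + g b a + ∑ w ∈ otherCols a b, (g a w + g w a + g b w + g w b) +
        ∑ w ∈ otherCols a b, ∑ z ∈ (otherCols a b).erase w, g w z := by
  have hU : (univ : Finset (Fin n)) = insert a (insert b (otherCols a b)) := by
    ext c
    simp only [otherCols, mem_univ, mem_insert, mem_filter, true_and, true_iff]
    by_cases h1 : c = a
    · exact Or.inl h1
    · by_cases h2 : c = b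
      · exact Or.inr (Or.inl h2)
      · exact Or.inr (Or.inr ⟨h1, h2⟩)
  have hbW : b ∉ otherCols a b := by simp [otherCols]
  have haW : a ∉ otherCols a b := by simp [otherCols]
  have haI : a ∉ insert b (otherCols a b) := by
    simp only [mem_insert, not_or]
    exact ⟨hab, haW⟩
  have hE1 : (univ : Finset (Fin n)).erase a = insert b (otherCols a b) := by
    rw [hU, erase_insert haI]
  have hE2 : (univ : Finset (Fin n)).erase b = insert a (otherCols a b) := by
    rw [hU, Finset.insert_comm, erase_insert]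
    simp only [mem_insert, not_or]
    exact ⟨hab.symm, hbW⟩
  have hE3 : ∀ c ∈ otherCols a b, (univ : Finset (Fin n)).erase c =
      insert a (insert b ((otherCols a b).erase c)) := by
    intro c hc
    simp only [otherCols, mem_filter, mem_univ, true_and] at hc
    ext e
    simp only [mem_erase, mem_univ, and_true, mem_insert, otherCols, mem_filter, true_and]
    by_cases h1 : e = a
    · subst h1
      simp [hc.1.symm]
    · by_cases h2 : e = b
      · subst h2
        simp [hc.2.symm]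
      · simp [h1, h2]
  have hsum3 : ∀ c ∈ otherCols a b, ∑ e ∈ univ.erase c, g c e =
      g c a + g c b + ∑ e ∈ (otherCols a b).erase c, g c e := by
    intro c hc
    rw [hE3 c hc, sum_insert, sum_insert]
    · ring
    · intro h
      exact hbW (mem_of_mem_erase h)
    · simp only [mem_insert, not_or]
      exact ⟨hab, fun h => haW (mem_of_mem_erase h)⟩
  rw [hU, sum_insert haI, sum_insert hbW, ← hU, hE1, hE2, sum_insert hbW, sum_insert haW,
    Finset.sum_congr rfl hsum3]
  simp only [Finset.sum_add_distrib]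
  ring

end Sums

section Bochner

variable (d : Fin n → ℕ) (f : Gr n → ℝ)

/-- The form of `AA` with a function. -/
theorem dot_AA_right (g : Gr n → ℝ) :
    dot (Om d) g (AA d f) = ∑ a, ∑ b ∈ univ.erase a, dot (Om d) g (LL d a b f) := by
  unfold AA
  rw [dot_sum_right]
  refine Finset.sum_congr rfl (fun a _ => ?_)
  rw [dot_sum_right]

theorem dot_AA_left (g : Gr n → ℝ) :
    dot (Om d) (AA d f) g = ∑ a, ∑ b ∈ univ.erase a, dot (Om d) (LL d a b f) g := by
  rw [dot_comm, dot_AA_right]
  refine Finset.sum_congr rfl (fun a _ => Finset.sum_congr rfl (fun b _ => dot_comm _ _ _))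

/-- The sum of the squares of the residuals. -/
noncomputable def NN : ℝ := ∑ a, ∑ b ∈ univ.erase a, dot (Om d) (LL d a b f) (LL d a b f)

theorem dot_f_AA : dot (Om d) f (AA d f) = NN d f := by
  rw [dot_AA_right]
  unfold NN
  refine Finset.sum_congr rfl (fun a _ => Finset.sum_congr rfl (fun b _ => dot_LL_self d a b f))

theorem NN_nonneg : 0 ≤ NN d f :=
  Finset.sum_nonneg (fun _ _ => Finset.sum_nonneg (fun _ _ => dot_self_nonneg _ _))

/-- The expansion of the square. -/
theorem dot_AA_AA :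
    dot (Om d) (AA d f) (AA d f) = 2 * NN d f +
      2 * ∑ t ∈ triples n, (dot (Om d) (LL d t.1 t.2.1 f) (LL d t.1 t.2.2 f) +
        dot (Om d) (LL d t.1 t.2.1 f) (LL d t.2.1 t.2.2 f)) +
      ∑ q ∈ quads n, dot (Om d) (LL d q.1 q.2.1 f) (LL d q.2.2.1 q.2.2.2 f) := by
  rw [dot_AA_left, ← sum_triples (fun a b w => dot (Om d) (LL d a b f) (LL d a w f) +
      dot (Om d) (LL d a b f) (LL d b w f)),
    ← sum_quads (fun a b w z => dot (Om d) (LL d a b f) (LL d w z f))]
  unfold NN
  simp only [Finset.mul_sum]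
  simp only [← Finset.sum_add_distrib]
  refine Finset.sum_congr rfl (fun a _ => Finset.sum_congr rfl (fun b hb => ?_))
  have hab : a ≠ b := (ne_of_mem_erase hb).symm
  rw [dot_AA_right, sum_ordered_split hab (fun c e => dot (Om d) (LL d a b f) (LL d c e f))]
  have h1 : LL d b a f = LL d a b f := LL_comm d b a f
  rw [h1]
  have h2 : ∀ w ∈ otherCols a b,
      dot (Om d) (LL d a b f) (LL d a w f) + dot (Om d) (LL d a b f) (LL d w a f) +
        dot (Om d) (LL d a b f) (LL d b w f) + dot (Om d) (LL d a b f) (LL d w b f) =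
      2 * (dot (Om d) (LL d a b f) (LL d a w f) + dot (Om d) (LL d a b f) (LL d b w f)) := by
    intro w _
    rw [LL_comm d w a f, LL_comm d w b f]
    ring
  rw [Finset.sum_congr rfl h2]
  ring

/-- Relabelling of triples. -/
theorem triples_relabel (g : Fin n → Fin n → Fin n → ℝ) (i : Fin n × Fin n × Fin n → Fin n × Fin n × Fin n)
    (j : Fin n × Fin n × Fin n → Fin n × Fin n × Fin n)
    (hi : ∀ t ∈ triples n, i t ∈ triples n) (hj : ∀ t ∈ triples n, j t ∈ triples n)
    (hij : ∀ t, j (i t) = t) (hji : ∀ t, i (j t) = t) :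
    ∑ t ∈ triples n, g (i t).1 (i t).2.1 (i t).2.2 = ∑ t ∈ triples n, g t.1 t.2.1 t.2.2 :=
  Finset.sum_nbij' i j hi hj (fun t _ => hij t) (fun t _ => hji t) (fun _ _ => rfl)

theorem mem_triples {t : Fin n × Fin n × Fin n} :
    t ∈ triples n ↔ t.1 ≠ t.2.1 ∧ t.1 ≠ t.2.2 ∧ t.2.1 ≠ t.2.2 := by
  simp [triples]

/-- The triple term is nonnegative. -/
theorem triple_term_nonneg
    (hT : ∀ {u v w : Fin n}, u ≠ v → u ≠ w → v ≠ w →
      0 ≤ dot (Om d) (LL d u v f) (LL d u w f) + dot (Om d) (LL d u v f) (LL d v w f) +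
        dot (Om d) (LL d u w f) (LL d v w f)) :
    0 ≤ ∑ t ∈ triples n, (dot (Om d) (LL d t.1 t.2.1 f) (LL d t.1 t.2.2 f) +
        dot (Om d) (LL d t.1 t.2.1 f) (LL d t.2.1 t.2.2 f)) := by
  set H := ∑ t ∈ triples n, dot (Om d) (LL d t.1 t.2.1 f) (LL d t.1 t.2.2 f) with hH
  have h2 : ∑ t ∈ triples n, dot (Om d) (LL d t.1 t.2.1 f) (LL d t.2.1 t.2.2 f) = H := by
    rw [hH, ← triples_relabel (fun a b w => dot (Om d) (LL d a b f) (LL d a w f))
      (fun t => (t.2.1, t.1, t.2.2)) (fun t => (t.2.1, t.1, t.2.2))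
      (fun t ht => by
        rw [mem_triples] at ht ⊢
        exact ⟨ht.1.symm, ht.2.2, ht.2.1⟩)
      (fun t ht => by
        rw [mem_triples] at ht ⊢
        exact ⟨ht.1.symm, ht.2.2, ht.2.1⟩)
      (fun _ => rfl) (fun _ => rfl)]
    refine Finset.sum_congr rfl (fun t _ => ?_)
    simp only
    rw [LL_comm d t.2.1 t.1 f]
  have h3 : ∑ t ∈ triples n, dot (Om d) (LL d t.1 t.2.2 f) (LL d t.2.1 t.2.2 f) = H := by
    rw [hH, ← triples_relabel (fun a b w => dot (Om d) (LL d a b f) (LL d a w f))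
      (fun t => (t.2.2, t.1, t.2.1)) (fun t => (t.2.1, t.2.2, t.1))
      (fun t ht => by
        rw [mem_triples] at ht ⊢
        exact ⟨ht.2.1.symm, ht.2.2.symm, ht.1⟩)
      (fun t ht => by
        rw [mem_triples] at ht ⊢
        exact ⟨ht.2.2, ht.1.symm, ht.2.1.symm⟩)
      (fun _ => rfl) (fun _ => rfl)]
    refine Finset.sum_congr rfl (fun t _ => ?_)
    simp only
    rw [LL_comm d t.2.2 t.1 f, LL_comm d t.2.2 t.2.1 f]
  have h4 : 0 ≤ ∑ t ∈ triples n, (dot (Om d) (LL d t.1 t.2.1 f) (LL d t.1 t.2.2 f) +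
      dot (Om d) (LL d t.1 t.2.1 f) (LL d t.2.1 t.2.2 f) +
      dot (Om d) (LL d t.1 t.2.2 f) (LL d t.2.1 t.2.2 f)) :=
    Finset.sum_nonneg (fun t ht => by
      rw [mem_triples] at ht
      exact hT ht.1 ht.2.1 ht.2.2)
  rw [Finset.sum_add_distrib, Finset.sum_add_distrib, h2, h3] at h4
  rw [Finset.sum_add_distrib, h2]
  linarith

/-- The defect of a rectangle. -/
noncomputable def defect (d : Fin n → ℕ) (f : Gr n → ℝ) (u v w z : Fin n) : ℝ :=
  ∑ x ∈ Om d, (avg (Om d) (fun t => (keyP u v t, switchable u v w z t)) f x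
    - avg (Om d) (keyP u v) f x) ^ 2

/-- Relabelling of quadruples. -/
theorem quads_relabel (G : Fin n → Fin n → Fin n → Fin n → ℝ) :
    ∑ q ∈ quads n, G q.2.2.1 q.2.2.2 q.1 q.2.1 = ∑ q ∈ quads n, G q.1 q.2.1 q.2.2.1 q.2.2.2 := by
  refine Finset.sum_nbij' (fun q => (q.2.2.1, q.2.2.2, q.1, q.2.1))
    (fun q => (q.2.2.1, q.2.2.2, q.1, q.2.1)) ?_ ?_ (fun _ _ => rfl) (fun _ _ => rfl)
    (fun _ _ => rfl)
  · intro q hq
    rw [mem_quads] at hq ⊢
    obtain ⟨h1, h2, h3, h4, h5, h6⟩ := hq
    exact ⟨h6, h2.symm, h4.symm, h3.symm, h5.symm, h1⟩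
  · intro q hq
    rw [mem_quads] at hq ⊢
    obtain ⟨h1, h2, h3, h4, h5, h6⟩ := hq
    exact ⟨h6, h2.symm, h4.symm, h3.symm, h5.symm, h1⟩

/-- The sum of the defects is paid by the energies. -/
theorem defect_sum_le (hJ : JohnsonIneqStmt n) :
    ∑ q ∈ quads n, defect d f q.1 q.2.1 q.2.2.1 q.2.2.2 ≤
      (1 / 4) * ∑ q ∈ quads n, rectEnergy d f q.1 q.2.1 q.2.2.1 q.2.2.2 := by
  rw [← sum_quads (defect d f), ← sum_quads (rectEnergy d f), Finset.mul_sum]
  refine Finset.sum_le_sum (fun a _ => ?_)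
  rw [Finset.mul_sum]
  refine Finset.sum_le_sum (fun b hb => ?_)
  exact defect_transport hJ d f (ne_of_mem_erase hb).symm

/-- The quadruple term is nonnegative. -/
theorem quad_term_nonneg (hJ : JohnsonIneqStmt n) :
    0 ≤ ∑ q ∈ quads n, dot (Om d) (LL d q.1 q.2.1 f) (LL d q.2.2.1 q.2.2.2 f) := by
  have h1 : ∑ q ∈ quads n, ((1 / 4) * rectEnergy d f q.1 q.2.1 q.2.2.1 q.2.2.2
      - (1 / 2) * defect d f q.1 q.2.1 q.2.2.1 q.2.2.2
      - (1 / 2) * defect d f q.2.2.1 q.2.2.2 q.1 q.2.1) ≤
      ∑ q ∈ quads n, dot (Om d) (LL d q.1 q.2.1 f) (LL d q.2.2.1 q.2.2.2 f) := by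
    refine Finset.sum_le_sum (fun q hq => ?_)
    rw [mem_quads] at hq
    obtain ⟨h1, h2, h3, h4, h5, h6⟩ := hq
    exact rect_bound h1 h2 h3 h4 h5 h6 d f
  rw [Finset.sum_sub_distrib, Finset.sum_sub_distrib, ← Finset.mul_sum, ← Finset.mul_sum,
    ← Finset.mul_sum, quads_relabel (defect d f)] at h1
  have h2 := defect_sum_le d f hJ
  linarith

/-- The Bochner inequality. -/
theorem bochner (hJ : JohnsonIneqStmt n)
    (hT : ∀ {u v w : Fin n}, u ≠ v → u ≠ w → v ≠ w →
      0 ≤ dot (Om d) (LL d u v f) (LL d u w f) + dot (Om d) (LL d u v f) (LL d v w f) +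
        dot (Om d) (LL d u w f) (LL d v w f)) :
    2 * dot (Om d) f (AA d f) ≤ dot (Om d) (AA d f) (AA d f) := by
  rw [dot_AA_AA, dot_f_AA]
  have h1 := triple_term_nonneg d f hT
  have h2 := quad_term_nonneg d f hJ
  linarith

/-- The kernel of `AA` consists of functions constant on the state space. -/
theorem kernel_const (hk : ∀ x ∈ Om d, AA d f x = 0) : ∀ x ∈ Om d, ∀ y ∈ Om d, f x = f y := by
  have h0 : NN d f = 0 := by
    rw [← dot_f_AA]
    unfold dot
    exact Finset.sum_eq_zero (fun x hx => by rw [hk x hx]; simp)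
  have h1 : ∀ a, ∀ b ∈ univ.erase a, dot (Om d) (LL d a b f) (LL d a b f) = 0 := by
    intro a b hb
    unfold NN at h0
    have := (Finset.sum_eq_zero_iff_of_nonneg
      (fun a _ => Finset.sum_nonneg (fun b _ => dot_self_nonneg (Om d) (LL d a b f)))).1 h0 a (mem_univ a)
    exact (Finset.sum_eq_zero_iff_of_nonneg
      (fun b _ => dot_self_nonneg (Om d) (LL d a b f))).1 this b hb
  have h2 : ∀ a b, a ≠ b → ∀ x ∈ Om d, f x = avg (Om d) (keyP a b) f x := by
    intro a b hab x hx
    have := h1 a b (mem_erase.2 ⟨hab.symm, mem_univ b⟩)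
    unfold dot at this
    have h3 := (Finset.sum_eq_zero_iff_of_nonneg (fun y _ => mul_self_nonneg _)).1 this x hx
    have h4 := mul_self_eq_zero.1 h3
    simp only [LL] at h4
    linarith
  refine switch_connected d f (fun q hq x hx => ?_)
  rw [mem_quads] at hq
  obtain ⟨h3, h4, h5, h6, h7, h8⟩ := hq
  rw [h2 q.1 q.2.1 h3 x hx, h2 q.1 q.2.1 h3 _ (flip4_mem h3 h4 h5 h6 h7 h8 hx)]
  exact avg_congr f (keyP_flip4_uv h3 h4 h5 h6 h7 h8 x)

/-- The Poincare inequality for the switch chain. -/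
theorem poincare_of_parts (hJ : JohnsonIneqStmt n) (hG : JohnsonGapStmt n)
    (hT : ∀ (f : Gr n → ℝ) {u v w : Fin n}, u ≠ v → u ≠ w → v ≠ w →
      0 ≤ dot (Om d) (LL d u v f) (LL d u w f) + dot (Om d) (LL d u v f) (LL d v w f) +
        dot (Om d) (LL d u w f) (LL d v w f)) :
    ∑ x ∈ Om d, (f x - mean (Om d) f) ^ 2 ≤
      (1 / 16) * ∑ q ∈ quads n, rectEnergy d f q.1 q.2.1 q.2.2.1 q.2.2.2 := by
  have hgap := gap_of_bochner (Om d) (AA d)
    (fun f g x _ => by
      simp only [AA, LL_add, Finset.sum_add_distrib])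
    (fun c f x _ => by
      simp only [AA, LL_smul, Finset.mul_sum])
    (fun f g h x hx => by
      simp only [AA]
      exact Finset.sum_congr rfl (fun a _ => Finset.sum_congr rfl
        (fun b _ => LL_congr d a b h hx)))
    (fun f g => by
      rw [dot_AA_left, dot_AA_right]
      exact Finset.sum_congr rfl (fun a _ => Finset.sum_congr rfl (fun b _ => LL_sym d a b f g)))
    (fun x hx => by
      simp only [AA]
      exact Finset.sum_eq_zero (fun a _ => Finset.sum_eq_zero (fun b _ => LL_const d a b hx)))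
    (fun f => by
      rw [dot_f_AA]
      exact NN_nonneg d f)
    (fun f hk => kernel_const d f hk)
    (c := 2) (by norm_num)
    (fun f => bochner d f hJ (fun h1 h2 h3 => hT f h1 h2 h3)) f
  rw [dot_f_AA] at hgap
  have h1 : NN d f ≤ (1 / 8) * ∑ q ∈ quads n, rectEnergy d f q.1 q.2.1 q.2.2.1 q.2.2.2 := by
    rw [← sum_quads (rectEnergy d f), Finset.mul_sum]
    refine Finset.sum_le_sum (fun a _ => ?_)
    rw [Finset.mul_sum]
    refine Finset.sum_le_sum (fun b hb => ?_)
    have := variance_transport hG d f (ne_of_mem_erase hb).symm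
    have h2 : dot (Om d) (LL d a b f) (LL d a b f) =
        ∑ x ∈ Om d, (f x - avg (Om d) (keyP a b) f x) ^ 2 := by
      unfold dot LL
      exact Finset.sum_congr rfl (fun x _ => by ring)
    rw [h2]
    exact this
  have h3 : dot (Om d) (fun x => f x - mean (Om d) f) (fun x => f x - mean (Om d) f) =
      ∑ x ∈ Om d, (f x - mean (Om d) f) ^ 2 := by
    unfold dot
    exact Finset.sum_congr rfl (fun x _ => by ring)
  rw [h3] at hgap
  linarith

end Bochner

end Vale.Agent.Lib.P335
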