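import Vale.Agent.Lib.P335.Commute

/-!
The algebra of a commuting square of conditional expectations: a lower bound for the form
of two complementary projections in terms of an involution and of two defect projections.
-/

set_option linter.unusedSectionVars false

namespace Vale.Agent.Lib.P335

open Finset

variable {X K K' K'' K''' : Type*} [DecidableEq X] [DecidableEq K] [DecidableEq K']
  [DecidableEq K''] [DecidableEq K''']

theorem avg_add (s : Finset X) (κ : X → K) (f g : X → ℝ) (x : X) :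
    avg s κ (f + g) x = avg s κ f x + avg s κ g x := by
  simp [avg, sum_add_distrib, add_div]

theorem avg_smul (s : Finset X) (κ : X → K) (c : ℝ) (f : X → ℝ) (x : X) :
    avg s κ (c • f) x = c * avg s κ f x := by
  simp [avg, ← mul_sum, mul_div_assoc]

/-- The conditional expectation as a linear endomorphism, zero off `s`. -/
noncomputable def EE (s : Finset X) (κ : X → K) : Module.End ℝ (X → ℝ) where
  toFun f x := if x ∈ s then avg s κ f x else 0
  map_add' f g := by
    funext x
    by_cases hx : x ∈ s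
    · simp [hx, avg_add]
    · simp [hx]
  map_smul' c f := by
    funext x
    by_cases hx : x ∈ s
    · simp [hx, avg_smul]
    · simp [hx]

theorem EE_apply {s : Finset X} {κ : X → K} (f : X → ℝ) {x : X} (hx : x ∈ s) :
    EE s κ f x = avg s κ f x := by
  simp [EE, hx]

theorem EE_apply_off {s : Finset X} {κ : X → K} (f : X → ℝ) {x : X} (hx : x ∉ s) :
    EE s κ f x = 0 := by
  simp [EE, hx]

theorem avg_EE {s : Finset X} {κ : X → K} {κ' : X → K'} (f : X → ℝ) (x : X) :
    avg s κ' (EE s κ f) x = avg s κ' (avg s κ f) x :=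
  avg_congr_fun (fun y hy => EE_apply f hy) x

theorem EE_idem (s : Finset X) (κ : X → K) : EE s κ * EE s κ = EE s κ := by
  ext f x
  by_cases hx : x ∈ s
  · simp only [Module.End.mul_apply, EE_apply _ hx, avg_EE]
    exact avg_avg f hx
  · simp only [Module.End.mul_apply, EE_apply_off _ hx]

theorem EE_comm {s : Finset X} {κ₁ : X → K} {κ₂ : X → K'}
    (h : ∀ (f : X → ℝ), ∀ x ∈ s, avg s κ₁ (avg s κ₂ f) x = avg s κ₂ (avg s κ₁ f) x) :
    EE s κ₁ * EE s κ₂ = EE s κ₂ * EE s κ₁ := by
  ext f x
  by_cases hx : x ∈ s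
  · simp only [Module.End.mul_apply, EE_apply _ hx, avg_EE]
    exact h _ x hx
  · simp only [Module.End.mul_apply, EE_apply_off _ hx]

theorem EE_refines {s : Finset X} {κ₁ : X → K} {κ₂ : X → K'}
    (h : ∀ x ∈ s, ∀ y ∈ s, κ₁ x = κ₁ y → κ₂ x = κ₂ y) :
    EE s κ₂ * EE s κ₁ = EE s κ₂ ∧ EE s κ₁ * EE s κ₂ = EE s κ₂ := by
  constructor
  · ext f x
    by_cases hx : x ∈ s
    · simp only [Module.End.mul_apply, EE_apply _ hx, avg_EE]
      exact avg_avg_of_refines h f hx
    · simp only [Module.End.mul_apply, EE_apply_off _ hx]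
  · ext f x
    by_cases hx : x ∈ s
    · simp only [Module.End.mul_apply, EE_apply _ hx, avg_EE]
      exact avg_avg_of_refines' h f hx
    · simp only [Module.End.mul_apply, EE_apply_off _ hx]

theorem dot_EE_comm (s : Finset X) (κ : X → K) (f g : X → ℝ) :
    dot s (EE s κ f) g = dot s f (EE s κ g) := by
  rw [dot_congr (f' := avg s κ f) (g' := g) (fun x hx => EE_apply f hx) (fun _ _ => rfl),
    dot_congr (f' := f) (g' := avg s κ g) (fun _ _ => rfl) (fun x hx => EE_apply g hx)]
  exact dot_avg_comm s κ f g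

section Algebra

variable {s : Finset X}

/-- Symmetric operators for the form `dot s`. -/
def SymOp (s : Finset X) (T : Module.End ℝ (X → ℝ)) : Prop :=
  ∀ f g, dot s (T f) g = dot s f (T g)

theorem dot_add_left' (s : Finset X) (f g h : X → ℝ) :
    dot s (f + g) h = dot s f h + dot s g h := dot_add_left s f g h

theorem dot_sub_left' (s : Finset X) (f g h : X → ℝ) :
    dot s (f - g) h = dot s f h - dot s g h := dot_sub_left s f g h

theorem dot_add_right' (s : Finset X) (f g h : X → ℝ) :
    dot s h (f + g) = dot s h f + dot s h g := dot_add_right s f g h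

theorem dot_sub_right' (s : Finset X) (f g h : X → ℝ) :
    dot s h (f - g) = dot s h f - dot s h g := dot_sub_right s f g h

theorem SymOp.sub {P Q : Module.End ℝ (X → ℝ)} (hP : SymOp s P) (hQ : SymOp s Q) :
    SymOp s (P - Q) := by
  intro f g
  simp only [LinearMap.sub_apply]
  rw [dot_sub_left', dot_sub_right', hP, hQ]

theorem symOp_one : SymOp s (1 : Module.End ℝ (X → ℝ)) := fun _ _ => rfl

/-- Two commuting symmetric idempotents have a nonnegative form: it is a square. -/
theorem form_commute {P Q : Module.End ℝ (X → ℝ)} (hP : SymOp s P) (hQ : SymOp s Q)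
    (hPi : P * P = P) (hQi : Q * Q = Q) (hc : P * Q = Q * P) (f : X → ℝ) :
    dot s (P f) (Q f) = dot s (P (Q f)) (P (Q f)) := by
  have e1 : dot s (P (Q f)) (P (Q f)) = dot s (Q f) (P (P (Q f))) := hP _ _
  have e2 : P (P (Q f)) = P (Q f) := by
    have := congrArg (fun T : Module.End ℝ (X → ℝ) => T (Q f)) hPi
    simpa using this
  have e3 : P (Q f) = Q (P f) := by
    have := congrArg (fun T : Module.End ℝ (X → ℝ) => T f) hc
    simpa using this
  have e4 : Q (Q f) = Q f := by
    have := congrArg (fun T : Module.End ℝ (X → ℝ) => T f) hQi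
    simpa using this
  calc dot s (P f) (Q f) = dot s (Q f) (P f) := dot_comm _ _ _
    _ = dot s (Q (Q f)) (P f) := by rw [e4]
    _ = dot s (Q f) (Q (P f)) := hQ _ _
    _ = dot s (Q f) (P (P (Q f))) := by rw [e2, e3]
    _ = dot s (P (Q f)) (P (Q f)) := e1.symm

end Algebra

/-- The abstract rectangle inequality. -/
theorem square_bound {s : Finset X} {κ : X → K} {κt : X → K'} {κ' : X → K''} {κt' : X → K'''}
    (href : ∀ x ∈ s, ∀ y ∈ s, κt x = κt y → κ x = κ y)
    (href' : ∀ x ∈ s, ∀ y ∈ s, κt' x = κt' y → κ' x = κ' y)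
    (hc1 : ∀ (f : X → ℝ), ∀ x ∈ s, avg s κt (avg s κ' f) x = avg s κ' (avg s κt f) x)
    (hc2 : ∀ (f : X → ℝ), ∀ x ∈ s, avg s κ (avg s κt' f) x = avg s κt' (avg s κ f) x)
    (hc3 : ∀ (f : X → ℝ), ∀ x ∈ s, avg s κt (avg s κt' f) x = avg s κt' (avg s κt f) x)
    (σ : X → X) (hσs : ∀ x ∈ s, σ x ∈ s) (hσσ : ∀ x ∈ s, σ (σ x) = x)
    (hσ1 : ∀ x ∈ s, κt (σ x) = κt x) (hσ2 : ∀ x ∈ s, κ' (σ x) = κ' x)
    (f : X → ℝ) :
    (1 / 4) * ∑ x ∈ s, (f x - f (σ x)) ^ 2
      - (1 / 2) * ∑ x ∈ s, (avg s κt f x - avg s κ f x) ^ 2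
      - (1 / 2) * ∑ x ∈ s, (avg s κt' f x - avg s κ' f x) ^ 2
    ≤ dot s (fun x => f x - avg s κ f x) (fun x => f x - avg s κ' f x) := by
  classical
  set E := EE s κ
  set Et := EE s κt
  set E' := EE s κ'
  set Et' := EE s κt'
  have hE : SymOp s E := dot_EE_comm s κ
  have hEt : SymOp s Et := dot_EE_comm s κt
  have hE' : SymOp s E' := dot_EE_comm s κ'
  have hEt' : SymOp s Et' := dot_EE_comm s κt'
  have iE : E * E = E := EE_idem s κ
  have iEt : Et * Et = Et := EE_idem s κt
  have iE' : E' * E' = E' := EE_idem s κ'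
  have iEt' : Et' * Et' = Et' := EE_idem s κt'
  have r1 : E * Et = E := (EE_refines href).1
  have r2 : Et * E = E := (EE_refines href).2
  have c1 : Et * E' = E' * Et := EE_comm hc1
  have c2 : E * Et' = Et' * E := EE_comm hc2
  have c3 : Et * Et' = Et' * Et := EE_comm hc3
  -- the complementary and defect projections
  set Lt : Module.End ℝ (X → ℝ) := 1 - Et
  set L' : Module.End ℝ (X → ℝ) := 1 - E'
  set Lt' : Module.End ℝ (X → ℝ) := 1 - Et'
  set D : Module.End ℝ (X → ℝ) := Et - E
  set D' : Module.End ℝ (X → ℝ) := Et' - E'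
  have sLt : SymOp s Lt := symOp_one.sub hEt
  have sL' : SymOp s L' := symOp_one.sub hE'
  have sLt' : SymOp s Lt' := symOp_one.sub hEt'
  have sD : SymOp s D := hEt.sub hE
  have iLt : Lt * Lt = Lt := by
    simp only [Lt, sub_mul, mul_sub, one_mul, mul_one, iEt, sub_self, sub_zero]
  have iL' : L' * L' = L' := by
    simp only [L', sub_mul, mul_sub, one_mul, mul_one, iE', sub_self, sub_zero]
  have iLt' : Lt' * Lt' = Lt' := by
    simp only [Lt', sub_mul, mul_sub, one_mul, mul_one, iEt', sub_self, sub_zero]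
  have iD : D * D = D := by
    simp only [D, sub_mul, mul_sub, iEt, iE, r1, r2]
    abel
  have cLt : Lt * L' = L' * Lt := by
    simp only [Lt, L', sub_mul, mul_sub, one_mul, mul_one, c1]
    abel
  have cD : D * Lt' = Lt' * D := by
    simp only [D, Lt', sub_mul, mul_sub, one_mul, mul_one, c2, c3]
    abel
  -- the decomposition
  have hdec : dot s (fun x => f x - avg s κ f x) (fun x => f x - avg s κ' f x) =
      dot s (Lt f) (L' f) + dot s (D f) (Lt' f) + dot s (D f) (D' f) := by
    have e1 : dot s (fun x => f x - avg s κ f x) (fun x => f x - avg s κ' f x) =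
        dot s (Lt f + D f) (Lt' f + D' f) := by
      refine dot_congr (fun x hx => ?_) (fun x hx => ?_)
      · simp only [Pi.add_apply, Lt, D, LinearMap.sub_apply, Module.End.one_apply, Pi.sub_apply,
          E, Et, EE_apply _ hx]
        ring
      · simp only [Pi.add_apply, Lt', D', LinearMap.sub_apply, Module.End.one_apply, Pi.sub_apply,
          E', Et', EE_apply _ hx]
        ring
    have e2 : L' f = Lt' f + D' f := by
      simp only [L', Lt', D', LinearMap.sub_apply, Module.End.one_apply]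
      abel
    have e3 : dot s (Lt f) (Lt' f + D' f) = dot s (Lt f) (L' f) := by rw [e2]
    rw [e1, dot_add_left', e3, dot_add_right']
    ring
  -- first square, bounded by the involution
  have hsq1 := form_commute sLt sL' iLt iL' cLt f
  have hsq2 := form_commute sD sLt' iD iLt' cD f
  have hnn2 : 0 ≤ dot s (D f) (Lt' f) := by
    rw [hsq2]; exact dot_self_nonneg _ _
  -- the function G
  set G : X → ℝ := Lt (L' f)
  have hG : ∀ x ∈ s, G x - G (σ x) = f x - f (σ x) := by
    intro x hx
    have hx' := hσs x hx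
    have a1 : G x = (f x - avg s κ' f x) - avg s κt (L' f) x := by
      simp only [G, Lt, L', LinearMap.sub_apply, Module.End.one_apply, Pi.sub_apply,
        Et, E', EE_apply _ hx]
    have a2 : G (σ x) = (f (σ x) - avg s κ' f (σ x)) - avg s κt (L' f) (σ x) := by
      simp only [G, Lt, L', LinearMap.sub_apply, Module.End.one_apply, Pi.sub_apply,
        Et, E', EE_apply _ hx']
    have a3 : avg s κ' f (σ x) = avg s κ' f x := avg_congr f (hσ2 x hx)
    have a4 : avg s κt (L' f) (σ x) = avg s κt (L' f) x :=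
      avg_congr _ (hσ1 x hx)
    rw [a1, a2, a3, a4]
    ring
  have hinvol : (1 / 4) * ∑ x ∈ s, (f x - f (σ x)) ^ 2 ≤ dot s G G := by
    have hperm : ∑ x ∈ s, G (σ x) ^ 2 = ∑ x ∈ s, G x ^ 2 := by
      refine Finset.sum_nbij' σ σ hσs hσs hσσ hσσ (fun x _ => rfl)
    have hs1 : ∑ x ∈ s, (f x - f (σ x)) ^ 2 = ∑ x ∈ s, (G x - G (σ x)) ^ 2 :=
      Finset.sum_congr rfl (fun x hx => by rw [hG x hx])
    rw [hs1]
    have : ∑ x ∈ s, (G x - G (σ x)) ^ 2 ≤ ∑ x ∈ s, (2 * G x ^ 2 + 2 * G (σ x) ^ 2) :=
      Finset.sum_le_sum (fun x _ => by nlinarith [sq_nonneg (G x + G (σ x))])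
    rw [Finset.sum_add_distrib, ← Finset.mul_sum, ← Finset.mul_sum, hperm] at this
    have e : dot s G G = ∑ x ∈ s, G x ^ 2 :=
      Finset.sum_congr rfl (fun x _ => by ring)
    rw [e]
    linarith
  -- the defect term
  have hDD : -(1 / 2) * dot s (D f) (D f) - (1 / 2) * dot s (D' f) (D' f) ≤ dot s (D f) (D' f) := by
    have h0 : 0 ≤ dot s (fun x => D f x + D' f x) (fun x => D f x + D' f x) := dot_self_nonneg _ _
    rw [dot_add_left, dot_add_right, dot_add_right, dot_comm s (D' f) (D f)] at h0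
    linarith
  have eD : dot s (D f) (D f) = ∑ x ∈ s, (avg s κt f x - avg s κ f x) ^ 2 := by
    refine Finset.sum_congr rfl (fun x hx => ?_)
    simp only [D, LinearMap.sub_apply, Pi.sub_apply, Et, E, EE_apply _ hx]
    ring
  have eD' : dot s (D' f) (D' f) = ∑ x ∈ s, (avg s κt' f x - avg s κ' f x) ^ 2 := by
    refine Finset.sum_congr rfl (fun x hx => ?_)
    simp only [D', LinearMap.sub_apply, Pi.sub_apply, Et', E', EE_apply _ hx]
    ring
  rw [hdec, hsq1]
  rw [eD, eD'] at hDD
  have : dot s (Lt (L' f)) (Lt (L' f)) = dot s G G := rfl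
  linarith

end Vale.Agent.Lib.P335
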