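import Vale.Agent.Lib.P335.Basic
import Vale.Agent.Lib.P335.Square

/-!
Rectangles of a graph: the resampling keys, gluing, the cell count and the commutations.
-/

set_option linter.unusedSectionVars false

namespace Vale.Agent.Lib.P335

open Finset

variable {n : ℕ}

/-- The cells resampled by the pair `u, v`. -/
def moved (u v : Fin n) (e : Sym2 (Fin n)) : Prop := e ≠ s(u, v) ∧ (u ∈ e ∨ v ∈ e)

open Classical in
/-- The resampling key of the pair `u, v`: forget the moved cells. -/
noncomputable def keyP (u v : Fin n) (x : Gr n) : Gr n :=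
  fun e => if moved u v e then false else x e

theorem keyP_eq_iff {u v : Fin n} {x y : Gr n} :
    keyP u v x = keyP u v y ↔ ∀ e, ¬ moved u v e → x e = y e := by
  constructor
  · intro h e he
    have := congrFun h e
    simpa [keyP, he] using this
  · intro h
    funext e
    by_cases he : moved u v e
    · simp [keyP, he]
    · simp [keyP, he, h e he]

theorem moved_comm (u v : Fin n) (e : Sym2 (Fin n)) : moved u v e ↔ moved v u e := by
  unfold moved
  rw [Sym2.eq_swap]
  tauto

theorem keyP_comm (u v : Fin n) : keyP u v = keyP v u := by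
  funext x e
  by_cases h : moved u v e
  · have h' := (moved_comm u v e).1 h
    simp [keyP, h, h']
  · have h' : ¬ moved v u e := fun h2 => h ((moved_comm u v e).2 h2)
    simp [keyP, h, h']

theorem moved_pair {u v a b : Fin n} :
    moved u v s(a, b) ↔ s(a, b) ≠ s(u, v) ∧ (a = u ∨ b = u ∨ a = v ∨ b = v) := by
  simp only [moved, Sym2.mem_iff]
  constructor
  · rintro ⟨h, (h1 | h1) | (h1 | h1)⟩ <;> simp_all
  · rintro ⟨h, h1 | h1 | h1 | h1⟩ <;> simp_all

/-- Degrees as a sum. -/
theorem deg_eq_sum (x : Gr n) (a : Fin n) :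
    deg x a = ∑ b ∈ univ.erase a, (x s(a, b)).toNat := by
  unfold deg
  have : (univ.filter fun b => b ≠ a ∧ x s(a, b) = true) =
      (univ.erase a).filter (fun b => x s(a, b) = true) := by
    ext b
    simp
  rw [this, Finset.card_filter]
  refine Finset.sum_congr rfl (fun b _ => ?_)
  cases x s(a, b) <;> simp

/-- Two graphs which agree at `a` off a set `B`. -/
theorem deg_add_eq {a : Fin n} {B : Finset (Fin n)} (ha : a ∉ B) {x y : Gr n}
    (h : ∀ b, b ≠ a → b ∉ B → x s(a, b) = y s(a, b)) :
    deg x a + ∑ b ∈ B, (y s(a, b)).toNat = deg y a + ∑ b ∈ B, (x s(a, b)).toNat := by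
  have hsub : B ⊆ univ.erase a := by
    intro b hb
    simp only [mem_erase, mem_univ, and_true]
    rintro rfl
    exact ha hb
  rw [deg_eq_sum, deg_eq_sum, ← Finset.sum_sdiff hsub, ← Finset.sum_sdiff hsub (f := fun b => (y s(a, b)).toNat)]
  have : ∑ b ∈ univ.erase a \ B, (x s(a, b)).toNat = ∑ b ∈ univ.erase a \ B, (y s(a, b)).toNat := by
    refine Finset.sum_congr rfl (fun b hb => ?_)
    simp only [mem_sdiff, mem_erase, mem_univ, and_true] at hb
    rw [h b hb.1 hb.2]
  omega

/-- The four cross bits. -/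
abbrev Bits := Bool × Bool × Bool × Bool

def rowsM (m : Bits) : ℕ × ℕ := (m.1.toNat + m.2.1.toNat, m.2.2.1.toNat + m.2.2.2.toNat)
def colsM (m : Bits) : ℕ × ℕ := (m.1.toNat + m.2.2.1.toNat, m.2.1.toNat + m.2.2.2.toNat)
def swM (m : Bits) : Bool :=
  (m.1 && m.2.2.2 && !m.2.1 && !m.2.2.1) || (!m.1 && !m.2.2.2 && m.2.1 && m.2.2.1)
def totM (m : Bits) : ℕ := m.1.toNat + m.2.1.toNat + m.2.2.1.toNat + m.2.2.2.toNat
def blkM (m : Bits) : Bool := (totM m == 2) && (rowsM m != (1, 1))

theorem cell_count_bits : ∀ m₁ m₂ : Bits, totM m₁ = totM m₂ → blkM m₁ = blkM m₂ →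
    (univ.filter fun m : Bits => rowsM m = rowsM m₂ ∧ colsM m = colsM m₁ ∧ swM m = swM m₁).card =
      if swM m₁ = true then 2 else 1 := by
  decide

theorem blk_of_cols : ∀ m₁ m₂ : Bits, colsM m₁ = colsM m₂ → swM m₁ = swM m₂ →
    totM m₁ = totM m₂ ∧ blkM m₁ = blkM m₂ := by
  decide

theorem blk_of_rows : ∀ m₁ m₂ : Bits, rowsM m₁ = rowsM m₂ →
    totM m₁ = totM m₂ ∧ blkM m₁ = blkM m₂ := by
  decide

/-- The cross bits of a graph on a rectangle. -/
def bitsOf (u v w z : Fin n) (x : Gr n) : Bits := (x s(u, w), x s(u, z), x s(v, w), x s(v, z))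

theorem switchable_eq (u v w z : Fin n) (x : Gr n) :
    switchable u v w z x = swM (bitsOf u v w z x) := by
  simp only [switchable, swM, bitsOf]

theorem switchable_comm (u v w z : Fin n) (x : Gr n) :
    switchable u v w z x = switchable w z u v x := by
  simp only [switchable, Sym2.eq_swap (a := w) (b := u), Sym2.eq_swap (a := z) (b := v),
    Sym2.eq_swap (a := w) (b := v), Sym2.eq_swap (a := z) (b := u)]
  cases x s(u, w) <;> cases x s(u, z) <;> cases x s(v, w) <;> cases x s(v, z) <;> rfl

open Classical in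
/-- Gluing: the cross cells from `m`, the other cells moved by `u, v` from `y`, the rest from `x`. -/
noncomputable def glue (u v w z : Fin n) (x y : Gr n) (m : Bits) : Gr n := fun e =>
  if e = s(u, w) then m.1 else if e = s(u, z) then m.2.1 else if e = s(v, w) then m.2.2.1
  else if e = s(v, z) then m.2.2.2 else if moved u v e then y e else x e

/-- Pairs not containing one of the two pairs. -/
theorem not_moved_of_not_mem {a b c d : Fin n} (h1 : a ≠ c) (h2 : a ≠ d) (h3 : b ≠ c) (h4 : b ≠ d) :
    ¬ moved c d s(a, b) := by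
  rw [moved_pair]
  rintro ⟨_, h | h | h | h⟩ <;> simp_all

theorem glue_u {u v w z : Fin n} {m : Bits} {x y : Gr n} : glue u v w z x y m s(u, w) = m.1 := by
  simp [glue]

theorem rowsM_eq {m m' : Bits} : rowsM m = rowsM m' ↔
    m.1.toNat + m.2.1.toNat = m'.1.toNat + m'.2.1.toNat ∧
    m.2.2.1.toNat + m.2.2.2.toNat = m'.2.2.1.toNat + m'.2.2.2.toNat := by
  simp [rowsM, Prod.ext_iff]

theorem colsM_eq {m m' : Bits} : colsM m = colsM m' ↔
    m.1.toNat + m.2.2.1.toNat = m'.1.toNat + m'.2.2.1.toNat ∧
    m.2.1.toNat + m.2.2.2.toNat = m'.2.1.toNat + m'.2.2.2.toNat := by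
  simp [colsM, Prod.ext_iff]

section Cell

variable {u v w z : Fin n} (huv : u ≠ v) (huw : u ≠ w) (huz : u ≠ z) (hvw : v ≠ w) (hvz : v ≠ z)
  (hwz : w ≠ z)

include huv huw huz hvw hvz hwz

theorem glue_uz {m : Bits} {x y : Gr n} : glue u v w z x y m s(u, z) = m.2.1 := by
  have h : s(u, z) ≠ s(u, w) := by
    intro h
    rw [Sym2.eq_iff] at h
    rcases h with ⟨_, h⟩ | ⟨h1, h⟩
    · exact hwz h.symm
    · exact huw h1
  simp [glue, h]

theorem glue_vw {m : Bits} {x y : Gr n} : glue u v w z x y m s(v, w) = m.2.2.1 := by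
  have h1 : s(v, w) ≠ s(u, w) := by
    intro h
    rw [Sym2.eq_iff] at h
    rcases h with ⟨h, _⟩ | ⟨h, h1⟩
    · exact huv h.symm
    · exact hvw h
  have h2 : s(v, w) ≠ s(u, z) := by
    intro h
    rw [Sym2.eq_iff] at h
    rcases h with ⟨h, _⟩ | ⟨h, h1⟩
    · exact huv h.symm
    · exact hvz h
  simp [glue, h1, h2]

theorem glue_vz {m : Bits} {x y : Gr n} : glue u v w z x y m s(v, z) = m.2.2.2 := by
  have h1 : s(v, z) ≠ s(u, w) := by
    intro h
    rw [Sym2.eq_iff] at h
    rcases h with ⟨h, _⟩ | ⟨h, h1⟩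
    · exact huv h.symm
    · exact hvw h
  have h2 : s(v, z) ≠ s(u, z) := by
    intro h
    rw [Sym2.eq_iff] at h
    rcases h with ⟨h, _⟩ | ⟨h, h1⟩
    · exact huv h.symm
    · exact hvz h
  have h3 : s(v, z) ≠ s(v, w) := by
    intro h
    rw [Sym2.eq_iff] at h
    rcases h with ⟨_, h⟩ | ⟨h, h1⟩
    · exact hwz h.symm
    · exact hvw h
  simp [glue, h1, h2, h3]

theorem bitsOf_glue {m : Bits} {x y : Gr n} : bitsOf u v w z (glue u v w z x y m) = m := by
  simp only [bitsOf]
  rw [glue_u, glue_uz huv huw huz hvw hvz hwz,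
    glue_vw huv huw huz hvw hvz hwz, glue_vz huv huw huz hvw hvz hwz]

/-- A cell moved by both pairs is a cross cell. -/
theorem cross_of_moved_moved {e : Sym2 (Fin n)} (h1 : moved u v e) (h2 : moved w z e) :
    e = s(u, w) ∨ e = s(u, z) ∨ e = s(v, w) ∨ e = s(v, z) := by
  induction e using Sym2.ind with
  | _ a b =>
    rw [moved_pair] at h1 h2
    obtain ⟨_, h1⟩ := h1
    obtain ⟨_, h2⟩ := h2
    rcases h1 with rfl | rfl | rfl | rfl <;> rcases h2 with rfl | rfl | rfl | rfl <;>
      first
      | exact absurd rfl (by assumption)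
      | simp [Sym2.eq_swap]


theorem moved_of_cross {e : Sym2 (Fin n)}
    (h : e = s(u, w) ∨ e = s(u, z) ∨ e = s(v, w) ∨ e = s(v, z)) :
    moved u v e ∧ moved w z e := by
  have huv' := huv
  rcases h with rfl | rfl | rfl | rfl <;> simp only [moved_pair] <;> (constructor <;> constructor) <;>
    first
    | (simp only [ne_eq, Sym2.eq_iff, not_or, not_and]; tauto)
    | simp

/-- The glued graph on cells not moved by `u, v`. -/
theorem glue_of_not_moved_uv {x y : Gr n} {m : Bits} {e : Sym2 (Fin n)} (he : ¬ moved u v e) :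
    glue u v w z x y m e = x e := by
  have h1 : e ≠ s(u, w) := fun h => he (moved_of_cross huv huw huz hvw hvz hwz (Or.inl h)).1
  have h2 : e ≠ s(u, z) := fun h =>
    he (moved_of_cross huv huw huz hvw hvz hwz (Or.inr (Or.inl h))).1
  have h3 : e ≠ s(v, w) := fun h =>
    he (moved_of_cross huv huw huz hvw hvz hwz (Or.inr (Or.inr (Or.inl h)))).1
  have h4 : e ≠ s(v, z) := fun h =>
    he (moved_of_cross huv huw huz hvw hvz hwz (Or.inr (Or.inr (Or.inr h)))).1
  simp [glue, h1, h2, h3, h4, he]

/-- Data which is constant on a block. -/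
structure SameBlock (u v w z : Fin n) (x y : Gr n) : Prop where
  rest : ∀ e, ¬ moved u v e → ¬ moved w z e → x e = y e
  sums : ∀ a, a ≠ u → a ≠ v → a ≠ w → a ≠ z →
    (x s(a, u)).toNat + (x s(a, v)).toNat = (y s(a, u)).toNat + (y s(a, v)).toNat

theorem glue_of_not_moved_wz {x y : Gr n} {m : Bits} (hb : SameBlock u v w z x y)
    {e : Sym2 (Fin n)} (he : ¬ moved w z e) :
    glue u v w z x y m e = y e := by
  have h1 : e ≠ s(u, w) := fun h => he (moved_of_cross huv huw huz hvw hvz hwz (Or.inl h)).2
  have h2 : e ≠ s(u, z) := fun h =>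
    he (moved_of_cross huv huw huz hvw hvz hwz (Or.inr (Or.inl h))).2
  have h3 : e ≠ s(v, w) := fun h =>
    he (moved_of_cross huv huw huz hvw hvz hwz (Or.inr (Or.inr (Or.inl h)))).2
  have h4 : e ≠ s(v, z) := fun h =>
    he (moved_of_cross huv huw huz hvw hvz hwz (Or.inr (Or.inr (Or.inr h)))).2
  by_cases hm : moved u v e
  · simp [glue, h1, h2, h3, h4, hm]
  · simp [glue, h1, h2, h3, h4, hm, hb.rest e hm he]

/-- The glued graph is a graph with the right degrees. -/
theorem glue_mem {d : Fin n → ℕ} {x y : Gr n} (hx : x ∈ Om d) (hy : y ∈ Om d) {m : Bits}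
    (hb : SameBlock u v w z x y) (hr : rowsM m = rowsM (bitsOf u v w z y))
    (hc : colsM m = colsM (bitsOf u v w z x)) :
    glue u v w z x y m ∈ Om d := by
  simp only [Om, mem_filter, mem_univ, true_and] at hx hy ⊢
  obtain ⟨hx0, hxd⟩ := hx
  obtain ⟨hy0, hyd⟩ := hy
  rw [rowsM_eq] at hr
  rw [colsM_eq] at hc
  simp only [bitsOf] at hr hc
  set g := glue u v w z x y m with hg
  have gU : ∀ {e}, ¬ moved u v e → g e = x e := fun he =>
    glue_of_not_moved_uv huv huw huz hvw hvz hwz he
  have gW : ∀ {e}, ¬ moved w z e → g e = y e := fun he =>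
    glue_of_not_moved_wz huv huw huz hvw hvz hwz hb he
  have g1 : g s(u, w) = m.1 := glue_u
  have g2 : g s(u, z) = m.2.1 := glue_uz huv huw huz hvw hvz hwz
  have g3 : g s(v, w) = m.2.2.1 := glue_vw huv huw huz hvw hvz hwz
  have g4 : g s(v, z) = m.2.2.2 := glue_vz huv huw huz hvw hvz hwz
  refine ⟨fun a => ?_, fun a => ?_⟩
  · by_cases h : moved u v s(a, a)
    · have : ¬ moved w z s(a, a) := by
        intro h'
        have := cross_of_moved_moved huv huw huz hvw hvz hwz h h'
        rcases this with h1 | h1 | h1 | h1 <;> rw [Sym2.eq_iff] at h1 <;> rcases h1 with ⟨h1, h2⟩ | ⟨h1, h2⟩ <;> simp_all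
      rw [gW this]; exact hy0 a
    · rw [gU h]; exact hx0 a
  · -- degree at a
    by_cases hau : a = u
    · subst hau
      have hB : a ∉ ({w, z} : Finset (Fin n)) := by simp [huw, huz]
      have := deg_add_eq (x := g) (y := y) hB (fun b hba hbB => by
        simp only [mem_insert, mem_singleton, not_or] at hbB
        exact gW (not_moved_of_not_mem huw huz hbB.1 hbB.2))
      rw [sum_pair hwz, sum_pair hwz, g1, g2, hyd a] at this
      have e := hr.1
      omega
    by_cases hav : a = v
    · subst hav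
      have hB : a ∉ ({w, z} : Finset (Fin n)) := by simp [hvw, hvz]
      have := deg_add_eq (x := g) (y := y) hB (fun b hba hbB => by
        simp only [mem_insert, mem_singleton, not_or] at hbB
        exact gW (not_moved_of_not_mem hvw hvz hbB.1 hbB.2))
      rw [sum_pair hwz, sum_pair hwz, g3, g4, hyd a] at this
      have e := hr.2
      omega
    by_cases haw : a = w
    · subst haw
      have hB : a ∉ ({u, v} : Finset (Fin n)) := by simp [huw.symm, hvw.symm]
      have := deg_add_eq (x := g) (y := x) hB (fun b hba hbB => by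
        simp only [mem_insert, mem_singleton, not_or] at hbB
        exact gU (not_moved_of_not_mem huw.symm hvw.symm hbB.1 hbB.2))
      rw [sum_pair huv, sum_pair huv, Sym2.eq_swap (a := a) (b := u), Sym2.eq_swap (a := a) (b := v),
        g1, g3, hxd a] at this
      have e := hc.1
      omega
    by_cases haz : a = z
    · subst haz
      have hB : a ∉ ({u, v} : Finset (Fin n)) := by simp [huz.symm, hvz.symm]
      have := deg_add_eq (x := g) (y := x) hB (fun b hba hbB => by
        simp only [mem_insert, mem_singleton, not_or] at hbB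
        exact gU (not_moved_of_not_mem huz.symm hvz.symm hbB.1 hbB.2))
      rw [sum_pair huv, sum_pair huv, Sym2.eq_swap (a := a) (b := u), Sym2.eq_swap (a := a) (b := v),
        g2, g4, hxd a] at this
      have e := hc.2
      omega
    · have hB : a ∉ ({u, v} : Finset (Fin n)) := by simp [hau, hav]
      have := deg_add_eq (x := g) (y := x) hB (fun b hba hbB => by
        simp only [mem_insert, mem_singleton, not_or] at hbB
        exact gU (not_moved_of_not_mem hau hav hbB.1 hbB.2))
      rw [sum_pair huv, sum_pair huv, hxd a,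
        gW (not_moved_of_not_mem haw haz huw huz), gW (not_moved_of_not_mem haw haz hvw hvz)] at this
      have e := hb.sums a hau hav haw haz
      omega

/-- The cell count. -/
theorem cell_count {d : Fin n → ℕ} {x y : Gr n} (hx : x ∈ Om d) (hy : y ∈ Om d)
    (hb : SameBlock u v w z x y) (ht : totM (bitsOf u v w z x) = totM (bitsOf u v w z y))
    (hk : blkM (bitsOf u v w z x) = blkM (bitsOf u v w z y)) :
    ((Om d).filter fun t => keyP u v t = keyP u v x ∧ switchable u v w z t = switchable u v w z x ∧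
      keyP w z t = keyP w z y).card = if switchable u v w z x = true then 2 else 1 := by
  rw [switchable_eq, ← cell_count_bits _ _ ht hk]
  refine Finset.card_bij (fun t _ => bitsOf u v w z t) ?_ ?_ ?_
  · intro t ht'
    simp only [mem_filter, mem_univ, true_and] at ht' ⊢
    obtain ⟨htO, hk1, hs, hk2⟩ := ht'
    rw [keyP_eq_iff] at hk1 hk2
    have htd := (by simpa [Om] using htO : (∀ a, t s(a, a) = false) ∧ ∀ a, deg t a = d a).2
    have hyd := (by simpa [Om] using hy : (∀ a, y s(a, a) = false) ∧ ∀ a, deg y a = d a).2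
    have hxd := (by simpa [Om] using hx : (∀ a, x s(a, a) = false) ∧ ∀ a, deg x a = d a).2
    refine ⟨?_, ?_, ?_⟩
    · rw [rowsM_eq]
      simp only [bitsOf]
      constructor
      · have hB : u ∉ ({w, z} : Finset (Fin n)) := by simp [huw, huz]
        have := deg_add_eq (x := t) (y := y) hB (fun b hba hbB => by
          simp only [mem_insert, mem_singleton, not_or] at hbB
          exact hk2 _ (not_moved_of_not_mem huw huz hbB.1 hbB.2))
        rw [sum_pair hwz, sum_pair hwz, htd, hyd] at this
        omega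
      · have hB : v ∉ ({w, z} : Finset (Fin n)) := by simp [hvw, hvz]
        have := deg_add_eq (x := t) (y := y) hB (fun b hba hbB => by
          simp only [mem_insert, mem_singleton, not_or] at hbB
          exact hk2 _ (not_moved_of_not_mem hvw hvz hbB.1 hbB.2))
        rw [sum_pair hwz, sum_pair hwz, htd, hyd] at this
        omega
    · rw [colsM_eq]
      simp only [bitsOf]
      constructor
      · have hB : w ∉ ({u, v} : Finset (Fin n)) := by simp [huw.symm, hvw.symm]
        have := deg_add_eq (x := t) (y := x) hB (fun b hba hbB => by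
          simp only [mem_insert, mem_singleton, not_or] at hbB
          exact hk1 _ (not_moved_of_not_mem huw.symm hvw.symm hbB.1 hbB.2))
        rw [sum_pair huv, sum_pair huv, htd, hxd, Sym2.eq_swap (a := w) (b := u),
          Sym2.eq_swap (a := w) (b := v)] at this
        omega
      · have hB : z ∉ ({u, v} : Finset (Fin n)) := by simp [huz.symm, hvz.symm]
        have := deg_add_eq (x := t) (y := x) hB (fun b hba hbB => by
          simp only [mem_insert, mem_singleton, not_or] at hbB
          exact hk1 _ (not_moved_of_not_mem huz.symm hvz.symm hbB.1 hbB.2))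
        rw [sum_pair huv, sum_pair huv, htd, hxd, Sym2.eq_swap (a := z) (b := u),
          Sym2.eq_swap (a := z) (b := v)] at this
        omega
    · rw [← switchable_eq, hs]
  · intro t₁ h₁ t₂ h₂ hbits
    simp only [mem_filter] at h₁ h₂
    obtain ⟨_, k1, _, k2⟩ := h₁
    obtain ⟨_, k1', _, k2'⟩ := h₂
    rw [keyP_eq_iff] at k1 k2 k1' k2'
    simp only [bitsOf, Prod.mk.injEq] at hbits
    obtain ⟨b1, b2, b3, b4⟩ := hbits
    funext e
    by_cases hm1 : moved u v e
    · by_cases hm2 : moved w z e
      · rcases cross_of_moved_moved huv huw huz hvw hvz hwz hm1 hm2 with rfl | rfl | rfl | rfl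
        · exact b1
        · exact b2
        · exact b3
        · exact b4
      · rw [k2 e hm2, k2' e hm2]
    · rw [k1 e hm1, k1' e hm1]
  · intro m hm
    simp only [mem_filter, mem_univ, true_and] at hm
    obtain ⟨hr, hc, hs⟩ := hm
    refine ⟨glue u v w z x y m, ?_, bitsOf_glue huv huw huz hvw hvz hwz⟩
    simp only [mem_filter]
    refine ⟨glue_mem huv huw huz hvw hvz hwz hx hy hb hr hc, ?_, ?_, ?_⟩
    · rw [keyP_eq_iff]
      intro e he
      exact glue_of_not_moved_uv huv huw huz hvw hvz hwz he
    · rw [switchable_eq, bitsOf_glue huv huw huz hvw hvz hwz, hs]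
    · rw [keyP_eq_iff]
      intro e he
      exact glue_of_not_moved_wz huv huw huz hvw hvz hwz hb he

end Cell

end Vale.Agent.Lib.P335
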