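import Vale.Agent.Lib.P335.ThreeRowCount
import Vale.Agent.Lib.P335.ThreeRowSpec

/-!
The three-row lemma: for three-row Boolean matrices with prescribed margins, the sum of the three
conditional expectations given a row has no eigenvalue above `2` on functions of mean zero.
Hence the off-diagonal form of the complementary projections is nonnegative.
-/

set_option linter.unusedSectionVars false

namespace Vale.Agent.Lib.P335

open Finset

variable {C : Type*} [Fintype C] [DecidableEq C]

/-- The contraction principle on a finite family of nonnegative quantities. -/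
theorem max_contraction {W : Type*} (A : Finset W) (Δ : W → ℝ) (hΔ : ∀ w ∈ A, 0 ≤ Δ w) {l k : ℝ}
    (hk : k < l) (H : ∀ M, (∀ w ∈ A, Δ w ≤ M) → ∀ w ∈ A, l * Δ w ≤ k * M) : ∀ w ∈ A, Δ w = 0 := by
  intro w hw
  obtain ⟨w₀, hw₀, hmax⟩ := A.exists_max_image Δ ⟨w, hw⟩
  have h1 := H (Δ w₀) hmax w₀ hw₀
  have h2 : Δ w₀ ≤ 0 := by
    by_contra hc
    push Not at hc
    nlinarith
  exact le_antisymm ((hmax w hw).trans h2) (hΔ w hw)

/-- The sum of three numbers with one of them zero. -/
theorem sum3_bound (d : Fin 3 → ℝ) (M : ℝ) (k : Fin 3) (hk : d k = 0) (hd : ∀ i, i ≠ k → |d i| ≤ M) :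
    |d 0 + d 1 + d 2| ≤ 2 * M := by
  fin_cases k
  · have h1 := abs_le.1 (hd 1 (by decide))
    have h2 := abs_le.1 (hd 2 (by decide))
    simp only [Fin.zero_eta] at hk
    rw [abs_le]
    constructor <;> linarith [h1.1, h1.2, h2.1, h2.2]
  · have h1 := abs_le.1 (hd 0 (by decide))
    have h2 := abs_le.1 (hd 2 (by decide))
    simp only [Fin.mk_one] at hk
    rw [abs_le]
    constructor <;> linarith [h1.1, h1.2, h2.1, h2.2]
  · have h1 := abs_le.1 (hd 0 (by decide))
    have h2 := abs_le.1 (hd 1 (by decide))
    simp only [Fin.reduceFinMk] at hk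
    rw [abs_le]
    constructor <;> linarith [h1.1, h1.2, h2.1, h2.2]

section avgFacts

variable {X K : Type*} [DecidableEq X] [DecidableEq K]

theorem avg_add_tr (s : Finset X) (κ : X → K) (f g : X → ℝ) (x : X) :
    avg s κ (fun y => f y + g y) x = avg s κ f x + avg s κ g x := by
  simp [avg, Finset.sum_add_distrib, add_div]

theorem avg_smul_tr (s : Finset X) (κ : X → K) (c : ℝ) (f : X → ℝ) (x : X) :
    avg s κ (fun y => c * f y) x = c * avg s κ f x := by
  simp [avg, ← Finset.mul_sum, mul_div_assoc]

theorem avg_sub_const (s : Finset X) (κ : X → K) (f : X → ℝ) (m : ℝ) {x : X} (hx : x ∈ s) :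
    avg s κ (fun y => f y - m) x = avg s κ f x - m := by
  have := fib_card_pos (κ := κ) hx
  simp only [avg, Finset.sum_sub_distrib, Finset.sum_const, nsmul_eq_mul]
  field_simp

/-- Averages of close functions are close. -/
theorem avg_sub_abs_le {s : Finset X} {κ : X → K} {f g : X → ℝ} {M : ℝ} {x : X} (hx : x ∈ s)
    (h : ∀ z ∈ s, |f z - g z| ≤ M) : |avg s κ f x - avg s κ g x| ≤ M := by
  have hpos := fib_card_pos (κ := κ) hx
  have e : avg s κ f x - avg s κ g x =
      (∑ z ∈ fib s κ x, (f z - g z)) / ((fib s κ x).card : ℝ) := by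
    simp only [avg, Finset.sum_sub_distrib, sub_div]
  rw [e, abs_div, abs_of_pos hpos, div_le_iff₀ hpos]
  refine (Finset.abs_sum_le_sum_abs _ _).trans ?_
  calc ∑ z ∈ fib s κ x, |f z - g z| ≤ ∑ _z ∈ fib s κ x, M :=
        Finset.sum_le_sum (fun z hz => h z (mem_fib.1 hz).1)
    _ = M * ((fib s κ x).card : ℝ) := by simp [mul_comm]

end avgFacts

section action

variable {e : C → ℕ} {r : Fin 3 → ℕ}

/-- The action of a permutation of the columns. -/
def act (σ : Equiv.Perm C) (y : Mat3 C) : Mat3 C := fun c => y (σ c)

theorem act_injective (σ : Equiv.Perm C) : Function.Injective (act σ) := by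
  intro y z h
  funext c i
  have := congrFun (congrFun h (σ.symm c)) i
  simpa [act] using this

theorem act_mem {σ : Equiv.Perm C} (hσ : ∀ c, e (σ c) = e c) {y : Mat3 C}
    (hy : y ∈ marginSet e r) : act σ y ∈ marginSet e r := by
  refine mem_marginSet.2 ⟨fun c => ?_, fun i => ?_⟩
  · change wt (y (σ c)) = e c
    rw [wt_of_mem hy, hσ]
  · rw [← rowSum_of_mem hy i]
    unfold rowSum
    refine Finset.card_equiv σ (fun c => ?_)
    rw [Finset.mem_filter, Finset.mem_filter]
    simp [act]

theorem act_symm_mem {σ : Equiv.Perm C} (hσ : ∀ c, e (σ c) = e c) {y : Mat3 C}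
    (hy : y ∈ marginSet e r) : act σ.symm y ∈ marginSet e r := by
  refine act_mem (fun c => ?_) hy
  rw [← hσ (σ.symm c)]
  simp

theorem act_act_symm (σ : Equiv.Perm C) (y : Mat3 C) : act σ (act σ.symm y) = y := by
  funext c i
  simp [act]

/-- Permutations of columns which preserve the column sums commute with the averages. -/
theorem avg_act {σ : Equiv.Perm C} (hσ : ∀ c, e (σ c) = e c) (h : Mat3 C → ℝ) (i : Fin 3)
    (p : Mat3 C) :
    avg (marginSet e r) (rowKey i) h (act σ p) =
      avg (marginSet e r) (rowKey i) (fun z => h (act σ z)) p := by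
  have hfib : fib (marginSet e r) (rowKey i) (act σ p) =
      (fib (marginSet e r) (rowKey i) p).image (act σ) := by
    ext z
    simp only [mem_fib, Finset.mem_image]
    constructor
    · rintro ⟨hz, hk⟩
      refine ⟨act σ.symm z, ⟨act_symm_mem hσ hz, ?_⟩, act_act_symm σ z⟩
      funext c
      have := congrFun hk (σ.symm c)
      simpa [rowKey, act] using this
    · rintro ⟨w, ⟨hw, hk⟩, rfl⟩
      refine ⟨act_mem hσ hw, ?_⟩
      funext c
      exact congrFun hk (σ c)
  unfold avg
  rw [hfib, Finset.sum_image (fun a _ b _ hab => act_injective σ hab),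
    Finset.card_image_of_injective _ (act_injective σ)]

/-- Pattern counts are invariant under column permutations. -/
theorem patCount_act (σ : Equiv.Perm C) (y : Mat3 C) (v : Fin 3 → Bool) :
    (univ.filter fun c => act σ y c = v).card = (univ.filter fun c => y c = v).card :=
  Finset.card_equiv σ (fun c => by
    rw [Finset.mem_filter, Finset.mem_filter]
    simp [act])

end action

section eigen

variable {e : C → ℕ} {r : Fin 3 → ℕ} {h : Mat3 C → ℝ} {l : ℝ}

/-- Step one: the eigenfunction is invariant under exchanging two columns of equal sum. -/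
theorem step_swap (hl : 2 < l)
    (heig : ∀ y ∈ marginSet e r,
      avg (marginSet e r) (rowKey 0) h y + avg (marginSet e r) (rowKey 1) h y +
        avg (marginSet e r) (rowKey 2) h y = l * h y)
    {p : Mat3 C} (hp : p ∈ marginSet e r) {c c' : C} (hcc : e c = e c') :
    h (act (Equiv.swap c c') p) = h p := by
  classical
  have hswap : ∀ (c c' : C), e c = e c' → ∀ x, e (Equiv.swap c c' x) = e x := by
    intro c c' hcc x
    by_cases h1 : x = c
    · subst h1; simpa using hcc.symm
    · by_cases h2 : x = c'
      · subst h2; simpa using hcc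
      · rw [Equiv.swap_apply_of_ne_of_ne h1 h2]
  set A : Finset (Mat3 C × C × C) :=
    ((marginSet e r) ×ˢ (univ : Finset (C × C))).filter (fun w => e w.2.1 = e w.2.2) with hA
  have key := max_contraction A (fun w => |h (act (Equiv.swap w.2.1 w.2.2) w.1) - h w.1|)
    (fun _ _ => abs_nonneg _) hl (by
      rintro M hM ⟨p, c, c'⟩ hw
      simp only [hA, Finset.mem_filter, Finset.mem_product, Finset.mem_univ, and_true] at hw
      obtain ⟨hp, hcc⟩ := hw
      simp only
      set σ := Equiv.swap c c' with hσ
      set q := act σ p with hq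
      have hqs : q ∈ marginSet e r := act_mem (hswap c c' hcc) hp
      have hl0 : 0 < l := by linarith
      -- the differences of the averages
      set d : Fin 3 → ℝ := fun i =>
        avg (marginSet e r) (rowKey i) h q - avg (marginSet e r) (rowKey i) h p with hd
      have hsum : l * (h q - h p) = d 0 + d 1 + d 2 := by
        simp only [hd]
        have h1 := heig q hqs
        have h2 := heig p hp
        rw [mul_sub, ← h1, ← h2]
        ring
      have hbound : ∀ i, |d i| ≤ M := by
        intro i
        simp only [hd, hq]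
        rw [avg_act (hswap c c' hcc)]
        refine avg_sub_abs_le hp (fun z hz => ?_)
        have := hM (z, c, c') (by
          simp only [hA, Finset.mem_filter, Finset.mem_product, Finset.mem_univ, and_true]
          exact ⟨hz, hcc⟩)
        exact this
      obtain ⟨k, hk⟩ := pt_agree (p c) (p c') (by rw [wt_of_mem hp, wt_of_mem hp, hcc])
      have hdk : d k = 0 := by
        simp only [hd]
        rw [sub_eq_zero]
        apply avg_congr
        funext x
        simp only [rowKey, hq, act, hσ]
        by_cases h1 : x = c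
        · subst h1; simpa using hk.symm
        · by_cases h2 : x = c'
          · subst h2; simpa using hk
          · rw [Equiv.swap_apply_of_ne_of_ne h1 h2]
      have := sum3_bound d M k hdk (fun i _ => hbound i)
      rw [← hsum, abs_mul, abs_of_pos hl0] at this
      exact this)
  have := key (p, c, c') (by
    simp only [hA, Finset.mem_filter, Finset.mem_product, Finset.mem_univ, and_true]
    exact ⟨hp, hcc⟩)
  simpa [sub_eq_zero] using this

/-- Step two: functions invariant under exchanging columns of equal sum only depend on the pattern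
counts. -/
theorem eq_of_patCount (hswap : ∀ p ∈ marginSet e r, ∀ c c', e c = e c' →
      h (act (Equiv.swap c c') p) = h p)
    {q : Mat3 C} (hq : q ∈ marginSet e r) (n : ℕ) :
    ∀ p ∈ marginSet e r, (univ.filter fun c => p c ≠ q c).card = n →
      (∀ v, (univ.filter fun c => p c = v).card = (univ.filter fun c => q c = v).card) →
      h p = h q := by
  classical
  induction n using Nat.strong_induction_on with
  | _ n ih =>
    intro p hp hn hv
    by_cases hpq : p = q
    · rw [hpq]
    · -- a column where they differ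
      have : ∃ c, p c ≠ q c := by
        by_contra hc
        push Not at hc
        exact hpq (funext hc)
      obtain ⟨c, hc⟩ := this
      -- a column where p has the pattern of q at c
      have : ∃ c', p c' = q c ∧ q c' ≠ q c := by
        by_contra hcon
        push Not at hcon
        have hsub : (univ.filter fun x => p x = q c) ⊂ (univ.filter fun x => q x = q c) := by
          refine Finset.ssubset_iff_of_subset (fun x hx => ?_) |>.2 ⟨c, ?_, ?_⟩
          · simp only [Finset.mem_filter, Finset.mem_univ, true_and] at hx ⊢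
            exact hcon x hx
          · simp
          · simpa using hc
        have := Finset.card_lt_card hsub
        rw [hv (q c)] at this
        exact lt_irrefl _ this
      obtain ⟨c', hc'1, hc'2⟩ := this
      have hcc : e c = e c' := by
        rw [← wt_of_mem hq c, ← hc'1, wt_of_mem hp c']
      have hsw : ∀ x, e (Equiv.swap c c' x) = e x := by
        intro x
        by_cases h1 : x = c
        · subst h1; simpa using hcc.symm
        · by_cases h2 : x = c'
          · subst h2; simpa using hcc
          · rw [Equiv.swap_apply_of_ne_of_ne h1 h2]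
      set p' := act (Equiv.swap c c') p with hp'
      have hp's : p' ∈ marginSet e r := act_mem hsw hp
      have hp'eq : h p' = h p := hswap p hp c c' hcc
      have hp'c : p' c = q c := by simp [hp', act, hc'1]
      have hlt : (univ.filter fun x => p' x ≠ q x).card < n := by
        rw [← hn]
        refine Finset.card_lt_card ((Finset.ssubset_iff_of_subset (fun x hx => ?_)).2 ⟨c, ?_, ?_⟩)
        · simp only [Finset.mem_filter, Finset.mem_univ, true_and] at hx ⊢
          by_cases h1 : x = c
          · subst h1; exact hc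
          · by_cases h2 : x = c'
            · subst h2
              rw [hc'1]
              exact fun h3 => hc'2 h3.symm
            · have : p' x = p x := by simp [hp', act, Equiv.swap_apply_of_ne_of_ne h1 h2]
              rwa [← this]
        · simpa using hc
        · simpa using hp'c
      rw [← hp'eq]
      refine ih _ hlt p' hp's rfl (fun v => ?_)
      rw [hp', patCount_act, hv]

theorem pt_cover : ∀ v : Fin 3 → Bool, (∀ u, wt u = wt v → wt v = 0 → u = v) ∧
    (∀ u, wt u = wt v → wt v = 3 → u = v) ∧ (wt v = 0 ∨ wt v = 3 ∨ (∃ i, v = pa i) ∨ ∃ i, v = pb i) := by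
  decide

/-- Two matrices of the same level have the same pattern counts. -/
theorem patCount_of_level {p q : Mat3 C} (hp : p ∈ marginSet e r) (hq : q ∈ marginSet e r)
    (hb : bOf p = bOf q) (v : Fin 3 → Bool) :
    (univ.filter fun c => p c = v).card = (univ.filter fun c => q c = v).card := by
  obtain ⟨h1, h3, hv⟩ := pt_cover v
  have hfix : ∀ (y : Mat3 C), y ∈ marginSet e r → (wt v = 0 ∨ wt v = 3) →
      (univ.filter fun c => y c = v).card = cnt e (wt v) := by
    intro y hy hvv
    unfold cnt
    congr 1
    ext c
    simp only [Finset.mem_filter, Finset.mem_univ, true_and]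
    constructor
    · intro hc
      rw [← hc, wt_of_mem hy]
    · intro hc
      have hw : wt (y c) = wt v := by rw [wt_of_mem hy, hc]
      rcases hvv with hvv | hvv
      · exact h1 _ hw hvv
      · exact h3 _ hw hvv
  rcases hv with hv | hv | ⟨i, rfl⟩ | ⟨i, rfl⟩
  · rw [hfix p hp (Or.inl hv), hfix q hq (Or.inl hv)]
  · rw [hfix p hp (Or.inr hv), hfix q hq (Or.inr hv)]
  · have h1 := a_rel hp i
    have h2 := a_rel hq i
    have h3 := congrFun hb i
    change aOf p i = aOf q i
    omega
  · exact congrFun hb i

/-- Levels differing by one unit moved between two rows. -/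
def LevAdj (z z' : Mat3 C) : Prop :=
  ∃ a c : Fin 3, a ≠ c ∧ bOf z' a = bOf z a + 1 ∧ bOf z c = bOf z' c + 1

theorem pt_others : ∀ i : Fin 3, ∃ j k : Fin 3, i ≠ j ∧ i ≠ k ∧ j ≠ k := by decide
theorem pt_third : ∀ a c : Fin 3, a ≠ c → ∃ d : Fin 3, a ≠ d ∧ c ≠ d := by decide

/-- The level of the third row. -/
def lev (i j : Fin 3) (u n t : ℕ) : Fin 3 → ℕ :=
  fun l => if l = i then u else if l = j then t else n - u - t

/-- The weights of the second-row level within a fibre. -/
def wtN (e : C → ℕ) (r : Fin 3 → ℕ) (y : Mat3 C) (i j : Fin 3) (t : ℕ) : ℕ :=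
  (F2 e y i).card.choose t * shiftChoose (cnt e 2 + cnt e 3) (r j) (F1 e y i).card t

theorem bOf_le {y : Mat3 C} (hy : y ∈ marginSet e r) (j : Fin 3) : bOf y j ≤ cnt e 2 := by
  have h1 := b_sum hy
  have : ∀ j : Fin 3, bOf y j ≤ bOf y 0 + bOf y 1 + bOf y 2 := by
    intro j
    fin_cases j <;> simp <;> omega
  exact (this j).trans h1.le

theorem level_in_fibre {y z : Mat3 C} (hy : y ∈ marginSet e r) (hz : z ∈ marginSet e r)
    {i j k : Fin 3} (hij : i ≠ j) (hik : i ≠ k) (hjk : j ≠ k)
    (hkey : rowKey i z = rowKey i y) {t : ℕ} (ht : bOf z j = t) :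
    bOf z = lev i j (bOf y i) (cnt e 2) t := by
  funext l
  unfold lev
  have hzi := bOf_eq_of_rowKey hy hz hkey
  rcases pt_triple i j k hij hik hjk l with rfl | rfl | rfl
  · simp [hzi]
  · simp [hij.symm, ht]
  · have h1 := b_sum hz
    rw [sum_three_of_distinct (bOf z) i j l hij hik hjk] at h1
    simp only [if_neg hik.symm, if_neg hjk.symm]
    omega

theorem sum_wtN_eq_card {y : Mat3 C} (hy : y ∈ marginSet e r) {i j k : Fin 3} (hij : i ≠ j)
    (hik : i ≠ k) (hjk : j ≠ k) :
    ∑ t ∈ range (cnt e 2 + 1), wtN e r y i j t = (fib (marginSet e r) (rowKey i) y).card := by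
  rw [Finset.card_eq_sum_card_fiberwise (f := fun z => bOf z j) (t := range (cnt e 2 + 1))]
  · exact Finset.sum_congr rfl (fun t _ => (card_fibre_level hy hij hik hjk t).symm)
  · intro z hz
    simp only [Finset.coe_range, Set.mem_Iio]
    exact Nat.lt_succ_of_le (bOf_le (mem_fib.1 hz).1 j)

/-- The average of a level function in terms of the weights. -/
theorem avg_formula {φ : (Fin 3 → ℕ) → ℝ} (hφ : ∀ z ∈ marginSet e r, h z = φ (bOf z))
    {y : Mat3 C} (hy : y ∈ marginSet e r) {i j k : Fin 3} (hij : i ≠ j) (hik : i ≠ k) (hjk : j ≠ k) :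
    avg (marginSet e r) (rowKey i) h y =
      (∑ t ∈ range (cnt e 2 + 1), (wtN e r y i j t : ℝ) * φ (lev i j (bOf y i) (cnt e 2) t)) /
        (∑ t ∈ range (cnt e 2 + 1), (wtN e r y i j t : ℝ)) := by
  unfold avg
  congr 1
  · rw [← Finset.sum_fiberwise_of_maps_to (s := fib (marginSet e r) (rowKey i) y)
      (t := range (cnt e 2 + 1)) (g := fun z => bOf z j)
      (fun z hz => Finset.mem_range.2 (Nat.lt_succ_of_le (bOf_le (mem_fib.1 hz).1 j)))]
    refine Finset.sum_congr rfl (fun t _ => ?_)
    have hconst : ∀ z ∈ (fib (marginSet e r) (rowKey i) y).filter (fun z => bOf z j = t),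
        h z = φ (lev i j (bOf y i) (cnt e 2) t) := by
      intro z hz
      rw [Finset.mem_filter, mem_fib] at hz
      rw [hφ z hz.1.1, level_in_fibre hy hz.1.1 hij hik hjk hz.1.2 hz.2]
    rw [Finset.sum_congr rfl hconst, Finset.sum_const, nsmul_eq_mul, card_fibre_level hy hij hik hjk t]
    simp only [wtN]
  · rw [← sum_wtN_eq_card hy hij hik hjk]
    push_cast
    rfl

/-- Rows with the same level have the same average. -/
theorem avg_eq_of_level {φ : (Fin 3 → ℕ) → ℝ} (hφ : ∀ z ∈ marginSet e r, h z = φ (bOf z))
    {p q : Mat3 C} (hp : p ∈ marginSet e r) (hq : q ∈ marginSet e r) {i : Fin 3}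
    (hb : bOf p i = bOf q i) :
    avg (marginSet e r) (rowKey i) h p = avg (marginSet e r) (rowKey i) h q := by
  obtain ⟨j, k, hij, hik, hjk⟩ := pt_others i
  rw [avg_formula hφ hp hij hik hjk, avg_formula hφ hq hij hik hjk, hb]
  have h1 : (F2 e p i).card = (F2 e q i).card := by
    have := card_F2 hp i
    have := card_F2 hq i
    omega
  have h2 : (F1 e p i).card = (F1 e q i).card := by
    have := card_F1 hp i
    have := card_F1 hq i
    have := a_rel hp i
    have := a_rel hq i
    omega
  have h3 : ∀ t, wtN e r p i j t = wtN e r q i j t := by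
    intro t
    unfold wtN
    rw [h1, h2]
  simp only [h3]

/-- The Lipschitz bound across levels of one row. -/
theorem level_lip {φ : (Fin 3 → ℕ) → ℝ} (hφ : ∀ z ∈ marginSet e r, h z = φ (bOf z)) {M : ℝ}
    (hM : ∀ z ∈ marginSet e r, ∀ z' ∈ marginSet e r, LevAdj z z' → |h z - h z'| ≤ M)
    {p q : Mat3 C} (hp : p ∈ marginSet e r) (hq : q ∈ marginSet e r) {i : Fin 3}
    (hpq : bOf q i = bOf p i + 1) :
    |avg (marginSet e r) (rowKey i) h p - avg (marginSet e r) (rowKey i) h q| ≤ M := by
  obtain ⟨j, k, hij, hik, hjk⟩ := pt_others i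
  rw [avg_formula hφ hp hij hik hjk, avg_formula hφ hq hij hik hjk]
  have hT : (F2 e p i).card = (F2 e q i).card + 1 := by
    have := card_F2 hp i
    have := card_F2 hq i
    omega
  have hT' : (F1 e p i).card = (F1 e q i).card + 1 := by
    have := card_F1 hp i
    have := card_F1 hq i
    have := a_rel hp i
    have := a_rel hq i
    omega
  have hpos : ∀ y ∈ marginSet e r, 0 < ∑ t ∈ range (cnt e 2 + 1), (wtN e r y i j t : ℝ) := by
    intro y hy
    have h1 := sum_wtN_eq_card hy hij hik hjk
    have h2 : 0 < (fib (marginSet e r) (rowKey i) y).card :=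
      Finset.card_pos.2 ⟨y, self_mem_fib hy⟩
    rw [← h1] at h2
    exact_mod_cast h2
  have hex : ∀ y ∈ marginSet e r, ∀ t, 0 < (wtN e r y i j t : ℝ) →
      ∃ z ∈ marginSet e r, rowKey i z = rowKey i y ∧ bOf z j = t ∧
        φ (lev i j (bOf y i) (cnt e 2) t) = h z := by
    intro y hy t ht
    have ht' : 0 < wtN e r y i j t := by exact_mod_cast ht
    unfold wtN at ht'
    rw [← card_fibre_level hy hij hik hjk t, Finset.card_pos] at ht'
    obtain ⟨z, hz⟩ := ht'
    rw [Finset.mem_filter, mem_fib] at hz
    refine ⟨z, hz.1.1, hz.1.2, hz.2, ?_⟩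
    rw [hφ z hz.1.1, level_in_fibre hy hz.1.1 hij hik hjk hz.1.2 hz.2]
  refine efron_bound (cnt e 2) _ _ _ _ M (fun _ => Nat.cast_nonneg _) (fun _ => Nat.cast_nonneg _)
    (hpos p hp) (hpos q hq) ?_ ?_ ?_ ?_
  · intro x y' hxy
    have h1 := choose_mlr_one (F2 e q i).card x y' hxy
    have h2 := shiftChoose_mlr_one (cnt e 2 + cnt e 3) (r j) (F1 e q i).card x y' hxy
    have h3 := Nat.mul_le_mul h1 h2
    simp only [wtN, hT, hT']
    have h4 : ((F2 e q i).card + 1).choose x * shiftChoose (cnt e 2 + cnt e 3) (r j) ((F1 e q i).card + 1) x *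
        ((F2 e q i).card.choose y' * shiftChoose (cnt e 2 + cnt e 3) (r j) (F1 e q i).card y') ≤
        ((F2 e q i).card + 1).choose y' * shiftChoose (cnt e 2 + cnt e 3) (r j) ((F1 e q i).card + 1) y' *
        ((F2 e q i).card.choose x * shiftChoose (cnt e 2 + cnt e 3) (r j) (F1 e q i).card x) := by
      calc _ = _ := by ring
        _ ≤ _ := h3
        _ = _ := by ring
    exact_mod_cast h4
  · intro x y' hxy
    have h1 := choose_mlr_two (F2 e q i).card x y' hxy
    have h2 := shiftChoose_mlr_two (cnt e 2 + cnt e 3) (r j) (F1 e q i).card x y' hxy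
    have h3 := Nat.mul_le_mul h1 h2
    simp only [wtN, hT, hT']
    have h4 : (F2 e q i).card.choose x * shiftChoose (cnt e 2 + cnt e 3) (r j) (F1 e q i).card x *
        (((F2 e q i).card + 1).choose (y' + 1) * shiftChoose (cnt e 2 + cnt e 3) (r j) ((F1 e q i).card + 1) (y' + 1)) ≤
        (F2 e q i).card.choose y' * shiftChoose (cnt e 2 + cnt e 3) (r j) (F1 e q i).card y' *
        (((F2 e q i).card + 1).choose (x + 1) * shiftChoose (cnt e 2 + cnt e 3) (r j) ((F1 e q i).card + 1) (x + 1)) := by
      calc _ = _ := by ring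
        _ ≤ _ := h3
        _ = _ := by ring
    exact_mod_cast h4
  · intro t _ h1 h2
    obtain ⟨z, hz, hzk, hzj, hzφ⟩ := hex p hp t h1
    obtain ⟨z', hz', hzk', hzj', hzφ'⟩ := hex q hq t h2
    rw [hzφ, hzφ']
    refine hM z hz z' hz' ⟨i, k, hik, ?_, ?_⟩
    · rw [bOf_eq_of_rowKey hq hz' hzk', bOf_eq_of_rowKey hp hz hzk, hpq]
    · have e1 := b_sum hz
      have e2 := b_sum hz'
      rw [sum_three_of_distinct (bOf z) i j k hij hik hjk] at e1
      rw [sum_three_of_distinct (bOf z') i j k hij hik hjk] at e2
      have e3 := bOf_eq_of_rowKey hq hz' hzk'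
      have e4 := bOf_eq_of_rowKey hp hz hzk
      omega
  · intro t _ h1 h2
    obtain ⟨z, hz, hzk, hzj, hzφ⟩ := hex p hp (t + 1) h1
    obtain ⟨z', hz', hzk', hzj', hzφ'⟩ := hex q hq t h2
    rw [hzφ, hzφ']
    refine hM z hz z' hz' ⟨i, j, hij, ?_, ?_⟩
    · rw [bOf_eq_of_rowKey hq hz' hzk', bOf_eq_of_rowKey hp hz hzk, hpq]
    · rw [hzj, hzj']

/-- Step three: the eigenfunction does not change across adjacent levels. -/
theorem step_level (hl : 2 < l)
    (heig : ∀ y ∈ marginSet e r,
      avg (marginSet e r) (rowKey 0) h y + avg (marginSet e r) (rowKey 1) h y +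
        avg (marginSet e r) (rowKey 2) h y = l * h y)
    {φ : (Fin 3 → ℕ) → ℝ} (hφ : ∀ z ∈ marginSet e r, h z = φ (bOf z))
    {p q : Mat3 C} (hp : p ∈ marginSet e r) (hq : q ∈ marginSet e r) (hadj : LevAdj p q) :
    h p = h q := by
  classical
  set A : Finset (Mat3 C × Mat3 C) :=
    ((marginSet e r) ×ˢ (marginSet e r)).filter (fun w => LevAdj w.1 w.2) with hA
  have key := max_contraction A (fun w => |h w.1 - h w.2|) (fun _ _ => abs_nonneg _) hl (by
    rintro M hM ⟨p, q⟩ hw
    simp only [hA, Finset.mem_filter, Finset.mem_product] at hw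
    obtain ⟨⟨hp, hq⟩, hadj⟩ := hw
    simp only
    have hM' : ∀ z ∈ marginSet e r, ∀ z' ∈ marginSet e r, LevAdj z z' → |h z - h z'| ≤ M := by
      intro z hz z' hz' hzz
      exact hM (z, z') (by
        simp only [hA, Finset.mem_filter, Finset.mem_product]
        exact ⟨⟨hz, hz'⟩, hzz⟩)
    have hl0 : 0 < l := by linarith
    obtain ⟨a, c, hac, h1, h2⟩ := hadj
    obtain ⟨d, had, hcd⟩ := pt_third a c hac
    set D : Fin 3 → ℝ := fun i =>
      avg (marginSet e r) (rowKey i) h p - avg (marginSet e r) (rowKey i) h q with hD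
    have hsum : l * (h p - h q) = D 0 + D 1 + D 2 := by
      simp only [hD]
      have h1 := heig q hq
      have h2 := heig p hp
      rw [mul_sub, ← h1, ← h2]
      ring
    have hDd : D d = 0 := by
      simp only [hD]
      rw [sub_eq_zero]
      refine avg_eq_of_level hφ hp hq ?_
      have e1 := b_sum hp
      have e2 := b_sum hq
      rw [sum_three_of_distinct (bOf p) a c d hac had hcd] at e1
      rw [sum_three_of_distinct (bOf q) a c d hac had hcd] at e2
      omega
    have hbound : ∀ i, i ≠ d → |D i| ≤ M := by
      intro i hi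
      rcases pt_triple a c d hac had hcd i with rfl | rfl | rfl
      · exact level_lip hφ hM' hp hq h1
      · simp only [hD]
        rw [abs_sub_comm]
        exact level_lip hφ hM' hq hp h2
      · exact absurd rfl hi
    have := sum3_bound D M d hDd hbound
    rw [← hsum, abs_mul, abs_of_pos hl0] at this
    exact this)
  have := key (p, q) (by
    simp only [hA, Finset.mem_filter, Finset.mem_product]
    exact ⟨⟨hp, hq⟩, hadj⟩)
  simpa [sub_eq_zero] using this

/-- Step four: connectivity through adjacent levels. -/
theorem eq_of_adj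
    (hadj : ∀ p ∈ marginSet e r, ∀ q ∈ marginSet e r, LevAdj p q → h p = h q)
    (hsame : ∀ p ∈ marginSet e r, ∀ q ∈ marginSet e r, bOf p = bOf q → h p = h q)
    {q : Mat3 C} (hq : q ∈ marginSet e r) (n : ℕ) :
    ∀ p ∈ marginSet e r,
      (bOf p 0 - bOf q 0) + (bOf p 1 - bOf q 1) + (bOf p 2 - bOf q 2) = n → h p = h q := by
  classical
  induction n using Nat.strong_induction_on with
  | _ n ih =>
    intro p hp hn
    have hsp := b_sum hp
    have hsq := b_sum hq
    by_cases hle : ∀ l, bOf p l = bOf q l
    · exact hsame p hp q hq (funext hle)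
    · -- a row where p is above q and a row where p is below q
      have hi : ∃ i, bOf q i < bOf p i := by
        by_contra hc
        push Not at hc
        apply hle
        intro l
        have h0 := hc 0
        have h1 := hc 1
        have h2 := hc 2
        fin_cases l <;> simp <;> omega
      have hj : ∃ j, bOf p j < bOf q j := by
        by_contra hc
        push Not at hc
        apply hle
        intro l
        have h0 := hc 0
        have h1 := hc 1
        have h2 := hc 2
        fin_cases l <;> simp <;> omega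
      obtain ⟨i, hi⟩ := hi
      obtain ⟨j, hj⟩ := hj
      have hij : i ≠ j := by
        rintro rfl
        omega
      obtain ⟨k, hik, hjk⟩ := pt_third i j hij
      -- the neighbouring matrix with the same row k
      have hcard : 0 < ((fib (marginSet e r) (rowKey k) p).filter
          (fun z => bOf z j = bOf p j + 1)).card := by
        rw [card_fibre_level hp hjk.symm hik.symm hij.symm]
        refine Nat.mul_pos (Nat.choose_pos ?_) ?_
        · have e1 := card_F2 hp k
          rw [sum_three_of_distinct (bOf p) i j k hij hik hjk] at hsp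
          omega
        · have e0 := a_rel hp j
          have e1 := a_rel hp i
          have e2 := a_rel hq i
          have e3 := card_F1 hp k
          have e4 := a_sum hp
          rw [sum_three_of_distinct (aOf p) i j k hij hik hjk] at e4
          unfold shiftChoose
          rw [if_pos (by omega)]
          exact Nat.choose_pos (by omega)
      obtain ⟨z, hz⟩ := Finset.card_pos.1 hcard
      rw [Finset.mem_filter, mem_fib] at hz
      obtain ⟨⟨hzs, hzk⟩, hzj⟩ := hz
      have hzkk := bOf_eq_of_rowKey hp hzs hzk
      have hsz := b_sum hzs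
      rw [sum_three_of_distinct (bOf z) i j k hij hik hjk] at hsz
      rw [sum_three_of_distinct (bOf p) i j k hij hik hjk] at hsp
      rw [sum_three_of_distinct (bOf q) i j k hij hik hjk] at hsq
      have hzi : bOf p i = bOf z i + 1 := by omega
      have hpz : h p = h z := hadj p hp z hzs ⟨j, i, hij.symm, hzj, hzi⟩
      rw [hpz]
      have hn' := sum_three_of_distinct (fun l => bOf p l - bOf q l) i j k hij hik hjk
      have hn'' := sum_three_of_distinct (fun l => bOf z l - bOf q l) i j k hij hik hjk
      beta_reduce at hn' hn''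
      refine ih _ ?_ z hzs rfl
      omega

/-- The main claim: an eigenfunction of the sum of the three conditional expectations with an
eigenvalue above `2` is constant. -/
theorem eig_const (hl : 2 < l)
    (heig : ∀ y ∈ marginSet e r,
      avg (marginSet e r) (rowKey 0) h y + avg (marginSet e r) (rowKey 1) h y +
        avg (marginSet e r) (rowKey 2) h y = l * h y) :
    ∀ p ∈ marginSet e r, ∀ q ∈ marginSet e r, h p = h q := by
  classical
  have hswap : ∀ p ∈ marginSet e r, ∀ c c', e c = e c' → h (act (Equiv.swap c c') p) = h p :=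
    fun p hp c c' hcc => step_swap hl heig hp hcc
  have hsame : ∀ p ∈ marginSet e r, ∀ q ∈ marginSet e r, bOf p = bOf q → h p = h q := by
    intro p hp q hq hb
    exact eq_of_patCount hswap hq _ p hp rfl (patCount_of_level hp hq hb)
  -- the level function
  let φ : (Fin 3 → ℕ) → ℝ := fun b =>
    if H : ∃ z, z ∈ marginSet e r ∧ bOf z = b then h H.choose else 0
  have hφ : ∀ z ∈ marginSet e r, h z = φ (bOf z) := by
    intro z hz
    have H : ∃ z', z' ∈ marginSet e r ∧ bOf z' = bOf z := ⟨z, hz, rfl⟩
    simp only [φ, dif_pos H]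
    exact hsame z hz _ H.choose_spec.1 H.choose_spec.2.symm
  have hadj : ∀ p ∈ marginSet e r, ∀ q ∈ marginSet e r, LevAdj p q → h p = h q :=
    fun p hp q hq hpq => step_level hl heig hφ hp hq hpq
  intro p hp q hq
  exact eq_of_adj hadj hsame hq _ p hp rfl

end eigen

/-- The three-row lemma. -/
theorem threeRow (C : Type*) [Fintype C] [DecidableEq C] : ThreeRowStmt C := by
  classical
  intro e r f
  set s := marginSet e r with hs
  set m := mean s f with hm
  set f₀ : Mat3 C → ℝ := fun y => f y - m with hf₀
  have hsum : ∑ y ∈ s, f₀ y = 0 := by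
    simp only [hf₀, Finset.sum_sub_distrib, Finset.sum_const, nsmul_eq_mul]
    rcases s.eq_empty_or_nonempty with h0 | h0
    · simp [h0]
    · have hc : (s.card : ℝ) ≠ 0 := by
        exact_mod_cast (Finset.card_pos.2 h0).ne'
      simp only [hm, mean]
      field_simp
      ring
  set T : (Mat3 C → ℝ) → (Mat3 C → ℝ) := fun h y =>
    avg s (rowKey 0) h y + avg s (rowKey 1) h y + avg s (rowKey 2) h y with hT
  have hbound := spectral_bound s T
    (by
      intro a b x _
      simp only [hT, avg_add_tr]
      ring)
    (by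
      intro c a x _
      simp only [hT, avg_smul_tr]
      ring)
    (by
      intro a b hab x _
      simp only [hT]
      rw [avg_congr_fun hab, avg_congr_fun hab, avg_congr_fun hab])
    (by
      intro a b
      simp only [hT]
      rw [dot_add_left, dot_add_left, dot_add_right, dot_add_right, dot_avg_comm, dot_avg_comm,
        dot_avg_comm])
    2
    (by
      intro h l hl heig
      exact eig_const hl heig)
    f₀ hsum
  have key := offdiag_of_bound s (fun i => rowKey i) f₀ hbound
  have hcongr : ∀ i : Fin 3, ∀ y ∈ s, f₀ y - avg s (rowKey i) f₀ y = f y - avg s (rowKey i) f y := by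
    intro i y hy
    simp only [hf₀]
    rw [avg_sub_const s _ f m hy]
    ring
  rw [dot_congr (hcongr 0) (hcongr 1), dot_congr (hcongr 0) (hcongr 2),
    dot_congr (hcongr 1) (hcongr 2)] at key
  exact key

end Vale.Agent.Lib.P335
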