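import Mathlib

/-!
The discrete transport bound behind the level estimate of the three-row lemma: two sequences of
weights whose cumulative distributions interlace can be coupled along neighbouring indices, and the
ratio conditions for products of binomial coefficients.
-/

namespace Vale.Agent.Lib.P335

open Finset

/-- The transport plan in terms of cumulative masses. -/
theorem plan_bound (m : ℕ) (q q' ψ ψ' : ℕ → ℝ) (M : ℝ) (A A' : ℕ → ℝ)
    (hA0 : A 0 = 0) (hA'0 : A' 0 = 0)
    (hq : ∀ t, q t = A (t + 1) - A t) (hq' : ∀ t, q' t = A' (t + 1) - A' t)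
    (hend : A (m + 1) = A' (m + 1))
    (hκ : ∀ t, t ≤ m → A' t ≤ A (t + 1)) (hκ' : ∀ t, t ≤ m → A (t + 1) ≤ A' (t + 1))
    (h1 : ∀ t, t ≤ m → 0 < q t → 0 < q' t → |ψ t - ψ' t| ≤ M)
    (h2 : ∀ t, t < m → 0 < q (t + 1) → 0 < q' t → |ψ (t + 1) - ψ' t| ≤ M) :
    |∑ t ∈ range (m + 1), q t * ψ t - ∑ t ∈ range (m + 1), q' t * ψ' t| ≤ M * A' (m + 1) := by
  set κ : ℕ → ℝ := fun t => A (t + 1) - A' t with hκdef
  set κ' : ℕ → ℝ := fun t => A' (t + 1) - A (t + 1) with hκ'def
  have hq0 : q 0 = κ 0 := by simp [hκdef, hq, hA0, hA'0]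
  have hqs : ∀ t, q (t + 1) = κ (t + 1) + κ' t := by
    intro t; simp only [hκdef, hκ'def, hq]; ring
  have hqt' : ∀ t, q' t = κ t + κ' t := by
    intro t; simp only [hκdef, hκ'def, hq']; ring
  have hκ'm : κ' m = 0 := by simp [hκ'def, hend]
  have hκnn : ∀ t, t ≤ m → 0 ≤ κ t := fun t ht => sub_nonneg.2 (hκ t ht)
  have hκ'nn : ∀ t, t ≤ m → 0 ≤ κ' t := fun t ht => sub_nonneg.2 (hκ' t ht)
  have e1 : ∑ t ∈ range (m + 1), q t * ψ t =
      ∑ t ∈ range (m + 1), κ t * ψ t + ∑ t ∈ range m, κ' t * ψ (t + 1) := by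
    rw [Finset.sum_range_succ', Finset.sum_range_succ' (fun t => κ t * ψ t), hq0]
    simp only [hqs, add_mul, Finset.sum_add_distrib]
    ring
  have e2 : ∑ t ∈ range (m + 1), q' t * ψ' t =
      ∑ t ∈ range (m + 1), κ t * ψ' t + ∑ t ∈ range m, κ' t * ψ' t := by
    simp only [hqt', add_mul, Finset.sum_add_distrib]
    rw [Finset.sum_range_succ (fun t => κ' t * ψ' t), hκ'm]
    ring
  have e3 : ∑ t ∈ range (m + 1), q t * ψ t - ∑ t ∈ range (m + 1), q' t * ψ' t =
      ∑ t ∈ range (m + 1), κ t * (ψ t - ψ' t) + ∑ t ∈ range m, κ' t * (ψ (t + 1) - ψ' t) := by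
    rw [e1, e2]
    simp only [mul_sub, Finset.sum_sub_distrib]
    ring
  have e4 : A' (m + 1) = ∑ t ∈ range (m + 1), κ t + ∑ t ∈ range m, κ' t := by
    have : ∑ t ∈ range (m + 1), q' t = A' (m + 1) := by
      simp only [hq']
      rw [Finset.sum_range_sub, hA'0, sub_zero]
    rw [← this]
    simp only [hqt', Finset.sum_add_distrib]
    rw [Finset.sum_range_succ κ', hκ'm, add_zero]
  rw [e3, e4, mul_add]
  refine (abs_add_le _ _).trans (add_le_add ?_ ?_)
  · refine (Finset.abs_sum_le_sum_abs _ _).trans ?_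
    rw [Finset.mul_sum]
    refine Finset.sum_le_sum (fun t ht => ?_)
    have ht' : t ≤ m := Nat.lt_succ_iff.1 (Finset.mem_range.1 ht)
    rw [abs_mul, abs_of_nonneg (hκnn t ht'), mul_comm M]
    rcases (hκnn t ht').eq_or_lt with h0 | hpos
    · simp [← h0]
    · refine mul_le_mul_of_nonneg_left (h1 t ht' ?_ ?_) hpos.le
      · cases t with
        | zero => rw [hq0]; exact hpos
        | succ t =>
          rw [hqs]
          have := hκ'nn t (by omega)
          linarith
      · rw [hqt']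
        have := hκ'nn t ht'
        linarith
  · refine (Finset.abs_sum_le_sum_abs _ _).trans ?_
    rw [Finset.mul_sum]
    refine Finset.sum_le_sum (fun t ht => ?_)
    have ht' : t < m := Finset.mem_range.1 ht
    rw [abs_mul, abs_of_nonneg (hκ'nn t ht'.le), mul_comm M]
    rcases (hκ'nn t ht'.le).eq_or_lt with h0 | hpos
    · simp [← h0]
    · refine mul_le_mul_of_nonneg_left (h2 t ht' ?_ ?_) hpos.le
      · rw [hqs]
        have := hκnn (t + 1) (by omega)
        linarith
      · rw [hqt']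
        have := hκnn t ht'.le
        linarith

/-- First interlacing inequality, cross-multiplied. -/
theorem cross_one (R n : ℕ) (hn : n ≤ R) (N N' : ℕ → ℝ)
    (mlr : ∀ x y, x < y → N x * N' y ≤ N y * N' x) :
    (∑ x ∈ range n, N x) * (∑ y ∈ range R, N' y) ≤ (∑ x ∈ range n, N' x) * (∑ y ∈ range R, N y) := by
  rw [← Finset.sum_range_add_sum_Ico N' hn, ← Finset.sum_range_add_sum_Ico N hn, mul_add, mul_add]
  have : (∑ x ∈ range n, N x) * ∑ y ∈ Ico n R, N' y ≤ (∑ x ∈ range n, N' x) * ∑ y ∈ Ico n R, N y := by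
    rw [Finset.sum_mul_sum, Finset.sum_mul_sum]
    refine Finset.sum_le_sum (fun x hx => Finset.sum_le_sum (fun y hy => ?_))
    have h := mlr x y (lt_of_lt_of_le (Finset.mem_range.1 hx) (Finset.mem_Ico.1 hy).1)
    nlinarith
  nlinarith

/-- Second interlacing inequality, cross-multiplied. -/
theorem cross_two (m t : ℕ) (ht : t ≤ m) (N N' : ℕ → ℝ) (hN : ∀ x, 0 ≤ N x) (hN' : ∀ x, 0 ≤ N' x)
    (mlr : ∀ x y, x < y → N' x * N (y + 1) ≤ N' y * N (x + 1)) :
    (∑ x ∈ range t, N' x) * (∑ y ∈ range (m + 1), N y) ≤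
      (∑ x ∈ range (t + 1), N x) * (∑ y ∈ range (m + 1), N' y) := by
  have hsplit : ∑ y ∈ range (m + 1), N y =
      ∑ x ∈ range (t + 1), N x + ∑ y ∈ Ico t m, N (y + 1) := by
    rw [← Finset.sum_range_add_sum_Ico N (show t + 1 ≤ m + 1 by omega)]
    congr 1
    exact (Finset.sum_Ico_add' N t m 1).symm ▸ rfl
  have hsplit' : ∑ y ∈ range (m + 1), N' y =
      ∑ x ∈ range t, N' x + ∑ y ∈ Ico t (m + 1), N' y := by
    rw [Finset.sum_range_add_sum_Ico N' (show t ≤ m + 1 by omega)]
  rw [hsplit, hsplit', mul_add, mul_add]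
  have h1 : (∑ x ∈ range t, N' x) * ∑ y ∈ Ico t m, N (y + 1) ≤
      (∑ x ∈ range t, N (x + 1)) * ∑ y ∈ Ico t m, N' y := by
    rw [Finset.sum_mul_sum, Finset.sum_mul_sum]
    refine Finset.sum_le_sum (fun x hx => Finset.sum_le_sum (fun y hy => ?_))
    have h := mlr x y (lt_of_lt_of_le (Finset.mem_range.1 hx) (Finset.mem_Ico.1 hy).1)
    nlinarith
  have h2 : ∑ x ∈ range t, N (x + 1) ≤ ∑ x ∈ range (t + 1), N x := by
    rw [Finset.sum_range_succ' N t]
    have := hN 0
    linarith
  have h3 : ∑ y ∈ Ico t m, N' y ≤ ∑ y ∈ Ico t (m + 1), N' y := by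
    refine Finset.sum_le_sum_of_subset_of_nonneg ?_ (fun y _ _ => hN' y)
    intro y hy
    rw [Finset.mem_Ico] at *
    omega
  have h4 : 0 ≤ ∑ y ∈ Ico t m, N' y := Finset.sum_nonneg (fun y _ => hN' y)
  have h5 : 0 ≤ ∑ x ∈ range (t + 1), N x := Finset.sum_nonneg (fun y _ => hN y)
  have h6 : (∑ x ∈ range t, N (x + 1)) * ∑ y ∈ Ico t m, N' y ≤
      (∑ x ∈ range (t + 1), N x) * ∑ y ∈ Ico t (m + 1), N' y :=
    mul_le_mul h2 h3 h4 h5
  nlinarith

/-- The coupling bound for two weight sequences with the ratio conditions. -/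
theorem efron_bound (m : ℕ) (N N' ψ ψ' : ℕ → ℝ) (M : ℝ) (hN : ∀ x, 0 ≤ N x) (hN' : ∀ x, 0 ≤ N' x)
    (hW : 0 < ∑ x ∈ range (m + 1), N x) (hW' : 0 < ∑ x ∈ range (m + 1), N' x)
    (mlr1 : ∀ x y, x < y → N x * N' y ≤ N y * N' x)
    (mlr2 : ∀ x y, x < y → N' x * N (y + 1) ≤ N' y * N (x + 1))
    (h1 : ∀ t, t ≤ m → 0 < N t → 0 < N' t → |ψ t - ψ' t| ≤ M)
    (h2 : ∀ t, t < m → 0 < N (t + 1) → 0 < N' t → |ψ (t + 1) - ψ' t| ≤ M) :
    |(∑ t ∈ range (m + 1), N t * ψ t) / (∑ x ∈ range (m + 1), N x) -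
      (∑ t ∈ range (m + 1), N' t * ψ' t) / (∑ x ∈ range (m + 1), N' x)| ≤ M := by
  set W := ∑ x ∈ range (m + 1), N x with hWdef
  set W' := ∑ x ∈ range (m + 1), N' x with hW'def
  have key := plan_bound m (fun t => N t / W) (fun t => N' t / W') ψ ψ' M
    (fun t => (∑ x ∈ range t, N x) / W) (fun t => (∑ x ∈ range t, N' x) / W')
    (by simp) (by simp)
    (by intro t; simp only [Finset.sum_range_succ]; ring)
    (by intro t; simp only [Finset.sum_range_succ]; ring)
    (by simp only [← hWdef, ← hW'def]; rw [div_self hW.ne', div_self hW'.ne'])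
    (by
      intro t ht
      rw [div_le_div_iff₀ hW' hW]
      exact cross_two m t ht N N' hN hN' mlr2)
    (by
      intro t ht
      rw [div_le_div_iff₀ hW hW']
      exact cross_one (m + 1) (t + 1) (by omega) N N' mlr1)
    (by
      intro t ht h h'
      exact h1 t ht ((div_pos_iff_of_pos_right hW).1 h) ((div_pos_iff_of_pos_right hW').1 h'))
    (by
      intro t ht h h'
      exact h2 t ht ((div_pos_iff_of_pos_right hW).1 h) ((div_pos_iff_of_pos_right hW').1 h'))
  simp only [← hW'def] at key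
  rw [div_self hW'.ne', mul_one] at key
  convert key using 2
  congr 1
  · rw [Finset.sum_div]
    exact Finset.sum_congr rfl (fun t _ => by ring)
  · rw [Finset.sum_div]
    exact Finset.sum_congr rfl (fun t _ => by ring)

/-- First ratio condition for binomial coefficients. -/
theorem choose_mlr_one (T x y : ℕ) (h : x < y) :
    (T + 1).choose x * T.choose y ≤ (T + 1).choose y * T.choose x := by
  by_cases hy : y ≤ T
  · have hx : x ≤ T := by omega
    have e1 := Nat.choose_mul_succ_eq T x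
    have e2 := Nat.choose_mul_succ_eq T y
    have hpos : 0 < (T + 1 - x) * (T + 1 - y) :=
      Nat.mul_pos (by omega) (by omega)
    refine Nat.le_of_mul_le_mul_right ?_ hpos
    have hle : T + 1 - y ≤ T + 1 - x := by omega
    calc (T + 1).choose x * T.choose y * ((T + 1 - x) * (T + 1 - y))
        = ((T + 1).choose x * (T + 1 - x)) * (T.choose y * (T + 1 - y)) := by ring
      _ = (T.choose x * (T + 1)) * (T.choose y * (T + 1 - y)) := by rw [e1]
      _ ≤ (T.choose x * (T + 1)) * (T.choose y * (T + 1 - x)) :=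
          Nat.mul_le_mul_left _ (Nat.mul_le_mul_left _ hle)
      _ = (T + 1).choose y * T.choose x * ((T + 1 - x) * (T + 1 - y)) := by
          have : (T.choose x * (T + 1)) * (T.choose y * (T + 1 - x)) =
              T.choose x * (T + 1 - x) * (T.choose y * (T + 1)) := by ring
          rw [this, e2]
          ring
  · rw [Nat.choose_eq_zero_of_lt (show T < y by omega)]
    simp

/-- Second ratio condition for binomial coefficients. -/
theorem choose_mlr_two (T x y : ℕ) (h : x < y) :
    T.choose x * (T + 1).choose (y + 1) ≤ T.choose y * (T + 1).choose (x + 1) := by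
  have e1 := Nat.add_one_mul_choose_eq T x
  have e2 := Nat.add_one_mul_choose_eq T y
  have hpos : 0 < (x + 1) * (y + 1) := by positivity
  refine Nat.le_of_mul_le_mul_right ?_ hpos
  calc T.choose x * (T + 1).choose (y + 1) * ((x + 1) * (y + 1))
      = T.choose x * (x + 1) * ((T + 1).choose (y + 1) * (y + 1)) := by ring
    _ = T.choose x * (x + 1) * ((T + 1) * T.choose y) := by rw [e2]
    _ ≤ T.choose x * (y + 1) * ((T + 1) * T.choose y) :=
        Nat.mul_le_mul_right _ (Nat.mul_le_mul_left _ (by omega))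
    _ = T.choose y * (T + 1).choose (x + 1) * ((x + 1) * (y + 1)) := by
        have : T.choose x * (y + 1) * ((T + 1) * T.choose y) =
            T.choose y * (y + 1) * ((T + 1) * T.choose x) := by ring
        rw [this, e1]
        ring

/-- The shifted binomial count: the number of subsets `X` of an `m`-set with
`|X| + α = t + β`. -/
def shiftChoose (α β m t : ℕ) : ℕ := if α ≤ t + β then m.choose (t + β - α) else 0

theorem shiftChoose_mlr_one (α β T x y : ℕ) (h : x < y) :
    shiftChoose α β (T + 1) x * shiftChoose α β T y ≤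
      shiftChoose α β (T + 1) y * shiftChoose α β T x := by
  unfold shiftChoose
  by_cases hx : α ≤ x + β
  · have hy : α ≤ y + β := by omega
    rw [if_pos hx, if_pos hy, if_pos hx, if_pos hy]
    exact choose_mlr_one T _ _ (by omega)
  · rw [if_neg hx, if_neg hx]
    simp

theorem shiftChoose_mlr_two (α β T x y : ℕ) (h : x < y) :
    shiftChoose α β T x * shiftChoose α β (T + 1) (y + 1) ≤
      shiftChoose α β T y * shiftChoose α β (T + 1) (x + 1) := by
  unfold shiftChoose
  by_cases hx : α ≤ x + β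
  · have hy : α ≤ y + β := by omega
    rw [if_pos hx, if_pos hy, if_pos (show α ≤ y + 1 + β by omega),
      if_pos (show α ≤ x + 1 + β by omega)]
    have e1 : y + 1 + β - α = y + β - α + 1 := by omega
    have e2 : x + 1 + β - α = x + β - α + 1 := by omega
    rw [e1, e2]
    exact choose_mlr_two T _ _ (by omega)
  · rw [if_neg hx]
    simp

end Vale.Agent.Lib.P335
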