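import Vale.Agent.Lib.P335.Mat3
import Vale.Agent.Lib.P335.ThreeRowEfron

/-!
Column patterns of three-row matrices, the level of a matrix, and the count of the matrices with a
given row and a given level of a second row.
-/

set_option linter.unusedSectionVars false

namespace Vale.Agent.Lib.P335

open Finset

variable {C : Type*} [Fintype C] [DecidableEq C]

/-- The weight of a column pattern. -/
def wt (v : Fin 3 → Bool) : ℕ := (univ.filter fun i => v i = true).card

/-- The pattern with a single `1`. -/
def pa (i : Fin 3) : Fin 3 → Bool := fun l => decide (l = i)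

/-- The pattern with a single `0`. -/
def pb (i : Fin 3) : Fin 3 → Bool := fun l => decide (l ≠ i)

theorem colSum_eq_wt (y : Mat3 C) (c : C) : colSum y c = wt (y c) := rfl

/-- Number of columns equal to the pattern `pa i`. -/
def aOf (y : Mat3 C) (i : Fin 3) : ℕ := (univ.filter fun c => y c = pa i).card

/-- Number of columns equal to the pattern `pb i`: the level of row `i`. -/
def bOf (y : Mat3 C) (i : Fin 3) : ℕ := (univ.filter fun c => y c = pb i).card

/-- Number of columns with prescribed sum. -/
def cnt (e : C → ℕ) (k : ℕ) : ℕ := (univ.filter fun c => e c = k).card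

theorem pt_row : ∀ (i : Fin 3) (v : Fin 3 → Bool),
    (if v i = true then 1 else 0) + (if v = pb i then 1 else 0) =
      (if v = pa i then 1 else 0) + (if wt v = 2 then 1 else 0) + (if wt v = 3 then 1 else 0) := by
  decide

theorem pt_sumb : ∀ (v : Fin 3 → Bool),
    (if wt v = 2 then 1 else 0) =
      (if v = pb 0 then 1 else 0) + (if v = pb 1 then 1 else 0) + (if v = pb 2 then 1 else 0) := by
  decide

theorem pt_suma : ∀ (v : Fin 3 → Bool),
    (if wt v = 1 then 1 else 0) =
      (if v = pa 0 then 1 else 0) + (if v = pa 1 then 1 else 0) + (if v = pa 2 then 1 else 0) := by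
  decide

theorem pt_wt : ∀ (v : Fin 3 → Bool),
    wt v = (if v 0 = true then 1 else 0) + (if v 1 = true then 1 else 0) +
      (if v 2 = true then 1 else 0) := by
  decide

theorem pt_F2 : ∀ (i : Fin 3) (v : Fin 3 → Bool),
    (if wt v = 2 ∧ v i = true then 1 else 0) + (if v = pb i then 1 else 0) =
      (if wt v = 2 then 1 else 0) := by
  decide

theorem pt_F1 : ∀ (i : Fin 3) (v : Fin 3 → Bool),
    (if wt v = 1 ∧ v i = false then 1 else 0) + (if v = pa i then 1 else 0) =
      (if wt v = 1 then 1 else 0) := by
  decide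

theorem wt_pa : ∀ i : Fin 3, wt (pa i) = 1 := by decide
theorem wt_pb : ∀ i : Fin 3, wt (pb i) = 2 := by decide
theorem pa_self : ∀ i : Fin 3, pa i i = true := by decide
theorem pb_self : ∀ i : Fin 3, pb i i = false := by decide
theorem pa_ne_apply : ∀ i j : Fin 3, i ≠ j → pa j i = false := by decide
theorem pb_ne_apply : ∀ i j : Fin 3, i ≠ j → pb j i = true := by decide
theorem pa_ne_pb : ∀ i j : Fin 3, pa i ≠ pb j := by decide
theorem pa_inj : ∀ i j : Fin 3, i ≠ j → pa i ≠ pa j := by decide
theorem pb_inj : ∀ i j : Fin 3, i ≠ j → pb i ≠ pb j := by decide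

/-- Patterns of weight one with a `0` in row `i`. -/
theorem pt_wt1 : ∀ (i j k : Fin 3) (v : Fin 3 → Bool), i ≠ j → i ≠ k → j ≠ k →
    wt v = 1 → v i = false → v = pa j ∨ v = pa k := by
  decide

theorem pt_wt2 : ∀ (i j k : Fin 3) (v : Fin 3 → Bool), i ≠ j → i ≠ k → j ≠ k →
    wt v = 2 → v i = true → v = pb j ∨ v = pb k := by
  decide

/-- Reconstruction of a column from row `i`, its weight and the two marks. -/
theorem pt_inj_aux : ∀ (i j k : Fin 3), i ≠ j → i ≠ k → j ≠ k → ∀ (u v : Fin 3 → Bool),
    (wt u = wt v ∧ u i = v i ∧ (decide (u = pa j) = decide (v = pa j)) ∧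
      (decide (u = pb j) = decide (v = pb j))) → u = v := by
  decide

theorem pt_inj (i j k : Fin 3) (u v : Fin 3 → Bool) (hij : i ≠ j) (hik : i ≠ k) (hjk : j ≠ k)
    (h1 : wt u = wt v) (h2 : u i = v i) (h3 : u = pa j ↔ v = pa j) (h4 : u = pb j ↔ v = pb j) :
    u = v :=
  pt_inj_aux i j k hij hik hjk u v ⟨h1, h2, decide_eq_decide.2 h3, decide_eq_decide.2 h4⟩

/-- Two columns of equal sum agree in some row. -/
theorem pt_agree : ∀ (u v : Fin 3 → Bool), wt u = wt v → ∃ k, u k = v k := by
  decide

theorem pt_triple : ∀ (i j k : Fin 3), i ≠ j → i ≠ k → j ≠ k → ∀ l : Fin 3, l = i ∨ l = j ∨ l = k := by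
  decide

theorem sum_three_of_distinct (g : Fin 3 → ℕ) : ∀ (i j k : Fin 3), i ≠ j → i ≠ k → j ≠ k →
    g 0 + g 1 + g 2 = g i + g j + g k := by
  intro i j k hij hik hjk
  fin_cases i <;> fin_cases j <;> fin_cases k <;> simp_all <;> omega

theorem real_sum_three_of_distinct (g : Fin 3 → ℝ) : ∀ (i j k : Fin 3), i ≠ j → i ≠ k → j ≠ k →
    g 0 + g 1 + g 2 = g i + g j + g k := by
  intro i j k hij hik hjk
  fin_cases i <;> fin_cases j <;> fin_cases k <;> simp_all <;> ring

/-- The relation between the sum of a row and the counts of its patterns. -/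
theorem rowSum_add_bOf (y : Mat3 C) (i : Fin 3) :
    rowSum y i + bOf y i = aOf y i + (univ.filter fun c => wt (y c) = 2).card +
      (univ.filter fun c => wt (y c) = 3).card := by
  unfold rowSum bOf aOf
  simp only [Finset.card_filter]
  rw [← Finset.sum_add_distrib, ← Finset.sum_add_distrib, ← Finset.sum_add_distrib]
  exact Finset.sum_congr rfl (fun c _ => pt_row i (y c))

theorem sum_bOf (y : Mat3 C) : bOf y 0 + bOf y 1 + bOf y 2 = (univ.filter fun c => wt (y c) = 2).card := by
  unfold bOf
  simp only [Finset.card_filter]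
  rw [← Finset.sum_add_distrib, ← Finset.sum_add_distrib]
  exact Finset.sum_congr rfl (fun c _ => (pt_sumb (y c)).symm)

theorem sum_aOf (y : Mat3 C) : aOf y 0 + aOf y 1 + aOf y 2 = (univ.filter fun c => wt (y c) = 1).card := by
  unfold aOf
  simp only [Finset.card_filter]
  rw [← Finset.sum_add_distrib, ← Finset.sum_add_distrib]
  exact Finset.sum_congr rfl (fun c _ => (pt_suma (y c)).symm)

theorem sum_rowSum (y : Mat3 C) : rowSum y 0 + rowSum y 1 + rowSum y 2 = ∑ c, wt (y c) := by
  unfold rowSum
  simp only [Finset.card_filter]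
  rw [← Finset.sum_add_distrib, ← Finset.sum_add_distrib]
  exact Finset.sum_congr rfl (fun c _ => (pt_wt (y c)).symm)

section margins

variable {e : C → ℕ} {r : Fin 3 → ℕ} {y z : Mat3 C}

theorem mem_marginSet : y ∈ marginSet e r ↔ (∀ c, colSum y c = e c) ∧ ∀ i, rowSum y i = r i := by
  simp [marginSet]

theorem wt_of_mem (hy : y ∈ marginSet e r) (c : C) : wt (y c) = e c := (mem_marginSet.1 hy).1 c

theorem rowSum_of_mem (hy : y ∈ marginSet e r) (i : Fin 3) : rowSum y i = r i :=
  (mem_marginSet.1 hy).2 i

theorem filter_wt_of_cols (hy : ∀ c, wt (y c) = e c) (k : ℕ) :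
    (univ.filter fun c => wt (y c) = k).card = cnt e k := by
  unfold cnt
  congr 1
  ext c
  simp [hy c]

/-- The fundamental relation on the margin set. -/
theorem a_rel (hy : y ∈ marginSet e r) (i : Fin 3) :
    aOf y i + (cnt e 2 + cnt e 3) = bOf y i + r i := by
  have h := rowSum_add_bOf y i
  rw [rowSum_of_mem hy, filter_wt_of_cols (wt_of_mem hy), filter_wt_of_cols (wt_of_mem hy)] at h
  omega

theorem b_sum (hy : y ∈ marginSet e r) : bOf y 0 + bOf y 1 + bOf y 2 = cnt e 2 := by
  rw [sum_bOf, filter_wt_of_cols (wt_of_mem hy)]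

theorem a_sum (hy : y ∈ marginSet e r) : aOf y 0 + aOf y 1 + aOf y 2 = cnt e 1 := by
  rw [sum_aOf, filter_wt_of_cols (wt_of_mem hy)]

/-- The free columns of weight one for row `i`. -/
def F1 (e : C → ℕ) (y : Mat3 C) (i : Fin 3) : Finset C :=
  univ.filter fun c => e c = 1 ∧ y c i = false

/-- The free columns of weight two for row `i`. -/
def F2 (e : C → ℕ) (y : Mat3 C) (i : Fin 3) : Finset C :=
  univ.filter fun c => e c = 2 ∧ y c i = true

theorem card_F2 (hy : y ∈ marginSet e r) (i : Fin 3) : (F2 e y i).card + bOf y i = cnt e 2 := by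
  unfold F2 bOf cnt
  simp only [Finset.card_filter]
  rw [← Finset.sum_add_distrib]
  refine Finset.sum_congr rfl (fun c _ => ?_)
  rw [← wt_of_mem hy c]
  exact pt_F2 i (y c)

theorem card_F1 (hy : y ∈ marginSet e r) (i : Fin 3) : (F1 e y i).card + aOf y i = cnt e 1 := by
  unfold F1 aOf cnt
  simp only [Finset.card_filter]
  rw [← Finset.sum_add_distrib]
  refine Finset.sum_congr rfl (fun c _ => ?_)
  rw [← wt_of_mem hy c]
  exact pt_F1 i (y c)

/-- Rows determine their own level. -/
theorem bOf_eq_of_rowKey (hy : y ∈ marginSet e r) (hz : z ∈ marginSet e r) {i : Fin 3}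
    (h : rowKey i z = rowKey i y) : bOf z i = bOf y i := by
  have h1 := card_F2 hy i
  have h2 := card_F2 hz i
  have : F2 e z i = F2 e y i := by
    unfold F2
    ext c
    have := congrFun h c
    simp only [rowKey] at this
    simp [this]
  rw [this] at h2
  omega

theorem aOf_eq_of_rowKey (hy : y ∈ marginSet e r) (hz : z ∈ marginSet e r) {i : Fin 3}
    (h : rowKey i z = rowKey i y) : aOf z i = aOf y i := by
  have h1 := a_rel hy i
  have h2 := a_rel hz i
  have := bOf_eq_of_rowKey hy hz h
  omega

/-- The matrix rebuilt from a matrix `y` and the two marks `X`, `Y` in row `j`. -/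
def rebuild (e : C → ℕ) (y : Mat3 C) (i j k : Fin 3) (X Y : Finset C) : Mat3 C :=
  fun c => if c ∈ X then pa j else if c ∈ Y then pb j else
    if c ∈ F1 e y i then pa k else if c ∈ F2 e y i then pb k else y c

section rebuild

variable {i j k : Fin 3} {X Y : Finset C}

theorem rebuild_wt (hy : y ∈ marginSet e r) (hX : X ⊆ F1 e y i) (hY : Y ⊆ F2 e y i) (c : C) :
    wt (rebuild e y i j k X Y c) = e c := by
  unfold rebuild
  split_ifs with h1 h2 h3 h4
  · rw [wt_pa]; exact (Finset.mem_filter.1 (hX h1)).2.1.symm
  · rw [wt_pb]; exact (Finset.mem_filter.1 (hY h2)).2.1.symm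
  · rw [wt_pa]; exact (Finset.mem_filter.1 h3).2.1.symm
  · rw [wt_pb]; exact (Finset.mem_filter.1 h4).2.1.symm
  · exact wt_of_mem hy c

theorem rebuild_row (hij : i ≠ j) (hik : i ≠ k) (hX : X ⊆ F1 e y i) (hY : Y ⊆ F2 e y i) (c : C) :
    rebuild e y i j k X Y c i = y c i := by
  unfold rebuild
  split_ifs with h1 h2 h3 h4
  · rw [pa_ne_apply i j hij]; exact (Finset.mem_filter.1 (hX h1)).2.2.symm
  · rw [pb_ne_apply i j hij]; exact (Finset.mem_filter.1 (hY h2)).2.2.symm
  · rw [pa_ne_apply i k hik]; exact (Finset.mem_filter.1 h3).2.2.symm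
  · rw [pb_ne_apply i k hik]; exact (Finset.mem_filter.1 h4).2.2.symm
  · rfl

theorem rebuild_pa (hy : y ∈ marginSet e r) (hij : i ≠ j) (hjk : j ≠ k) (c : C) :
    rebuild e y i j k X Y c = pa j ↔ c ∈ X := by
  unfold rebuild
  constructor
  · intro h
    by_contra hc
    simp only [if_neg hc] at h
    split_ifs at h with h2 h3 h4
    · exact pa_ne_pb j j h.symm
    · exact pa_inj k j hjk.symm h
    · exact pa_ne_pb j k h.symm
    · have h5 : wt (y c) = 1 := by rw [h, wt_pa]
      have h6 : y c i = false := by rw [h, pa_ne_apply i j hij]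
      exact h3 (Finset.mem_filter.2 ⟨Finset.mem_univ _, (wt_of_mem hy c).symm.trans h5, h6⟩)
  · intro h
    simp [h]

theorem rebuild_pb (hy : y ∈ marginSet e r) (hij : i ≠ j) (hjk : j ≠ k) (hX : X ⊆ F1 e y i)
    (hY : Y ⊆ F2 e y i) (c : C) : rebuild e y i j k X Y c = pb j ↔ c ∈ Y := by
  unfold rebuild
  constructor
  · intro h
    by_contra hc
    simp only [if_neg hc] at h
    split_ifs at h with h1 h3 h4
    · exact pa_ne_pb j j h
    · exact pa_ne_pb k j h
    · exact pb_inj k j hjk.symm h
    · have h5 : wt (y c) = 2 := by rw [h, wt_pb]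
      have h6 : y c i = true := by rw [h, pb_ne_apply i j hij]
      exact h4 (Finset.mem_filter.2 ⟨Finset.mem_univ _, (wt_of_mem hy c).symm.trans h5, h6⟩)
  · intro h
    have h1 : c ∉ X := by
      intro hcX
      have h1 := Finset.mem_filter.1 (hX hcX)
      have h2 := Finset.mem_filter.1 (hY h)
      rw [h2.2.1] at h1
      exact absurd h1.2.1 (by norm_num)
    simp [h, h1]

end rebuild

/-- The count of the matrices with a given row and given level of a second row. -/
theorem card_fibre_level (hy : y ∈ marginSet e r) {i j k : Fin 3} (hij : i ≠ j) (hik : i ≠ k)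
    (hjk : j ≠ k) (t : ℕ) :
    ((fib (marginSet e r) (rowKey i) y).filter (fun z => bOf z j = t)).card =
      (F2 e y i).card.choose t * shiftChoose (cnt e 2 + cnt e 3) (r j) (F1 e y i).card t := by
  classical
  by_cases hα : cnt e 2 + cnt e 3 ≤ t + r j
  · set a := t + r j - (cnt e 2 + cnt e 3) with ha
    have hshift : shiftChoose (cnt e 2 + cnt e 3) (r j) (F1 e y i).card t =
        (F1 e y i).card.choose a := by
      unfold shiftChoose
      rw [if_pos hα]
    rw [hshift, mul_comm, ← Finset.card_powersetCard a (F1 e y i),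
      ← Finset.card_powersetCard t (F2 e y i), ← Finset.card_product]
    refine Finset.card_bij
      (fun z _ => ((univ.filter fun c => z c = pa j), (univ.filter fun c => z c = pb j))) ?_ ?_ ?_
    · -- maps to
      intro z hz
      rw [Finset.mem_filter, mem_fib] at hz
      obtain ⟨⟨hzs, hkey⟩, hzt⟩ := hz
      have hrow : ∀ c, z c i = y c i := fun c => congrFun hkey c
      rw [Finset.mem_product, Finset.mem_powersetCard, Finset.mem_powersetCard]
      refine ⟨⟨?_, ?_⟩, ?_, ?_⟩
      · intro c hc
        have hc' : z c = pa j := (Finset.mem_filter.1 hc).2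
        refine Finset.mem_filter.2 ⟨Finset.mem_univ _, ?_, ?_⟩
        · rw [← wt_of_mem hzs c, hc', wt_pa]
        · rw [← hrow c, hc', pa_ne_apply i j hij]
      · have := a_rel hzs j
        change aOf z j = a
        omega
      · intro c hc
        have hc' : z c = pb j := (Finset.mem_filter.1 hc).2
        refine Finset.mem_filter.2 ⟨Finset.mem_univ _, ?_, ?_⟩
        · rw [← wt_of_mem hzs c, hc', wt_pb]
        · rw [← hrow c, hc', pb_ne_apply i j hij]
      · exact hzt
    · -- injective
      intro z hz z' hz' heq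
      rw [Finset.mem_filter, mem_fib] at hz hz'
      obtain ⟨⟨hzs, hkey⟩, -⟩ := hz
      obtain ⟨⟨hzs', hkey'⟩, -⟩ := hz'
      have h1 : (univ.filter fun c => z c = pa j) = (univ.filter fun c => z' c = pa j) :=
        congrArg Prod.fst heq
      have h2 : (univ.filter fun c => z c = pb j) = (univ.filter fun c => z' c = pb j) :=
        congrArg Prod.snd heq
      funext c
      refine pt_inj i j k (z c) (z' c) hij hik hjk ?_ ?_ ?_ ?_
      · rw [wt_of_mem hzs, wt_of_mem hzs']
      · exact (congrFun hkey c).trans (congrFun hkey' c).symm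
      · have := Finset.ext_iff.1 h1 c
        simpa using this
      · have := Finset.ext_iff.1 h2 c
        simpa using this
    · -- surjective
      rintro ⟨X, Y⟩ hXY
      rw [Finset.mem_product, Finset.mem_powersetCard, Finset.mem_powersetCard] at hXY
      obtain ⟨⟨hX, hXc⟩, hY, hYc⟩ := hXY
      simp only at hX hXc hY hYc
      set z := rebuild e y i j k X Y with hz
      have hzwt : ∀ c, wt (z c) = e c := rebuild_wt hy hX hY
      have hzrow : ∀ c, z c i = y c i := rebuild_row hij hik hX hY
      have hzpa : (univ.filter fun c => z c = pa j) = X := by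
        ext c
        simp [hz, rebuild_pa hy hij hjk c]
      have hzpb : (univ.filter fun c => z c = pb j) = Y := by
        ext c
        simp [hz, rebuild_pb hy hij hjk hX hY c]
      have hri : rowSum z i = r i := by
        rw [← rowSum_of_mem hy i]
        unfold rowSum
        congr 1
        ext c
        simp [hzrow c]
      have hrj : rowSum z j = r j := by
        have h := rowSum_add_bOf z j
        rw [filter_wt_of_cols hzwt, filter_wt_of_cols hzwt] at h
        have h1 : aOf z j = a := by
          unfold aOf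
          rw [hzpa, hXc]
        have h2 : bOf z j = t := by
          unfold bOf
          rw [hzpb, hYc]
        rw [h1, h2] at h
        omega
      have hrk : rowSum z k = r k := by
        have h1 := sum_rowSum z
        have h2 := sum_rowSum y
        have h3 : ∑ c, wt (z c) = ∑ c, wt (y c) :=
          Finset.sum_congr rfl (fun c _ => by rw [hzwt c, wt_of_mem hy c])
        rw [sum_three_of_distinct (rowSum z) i j k hij hik hjk] at h1
        rw [sum_three_of_distinct (rowSum y) i j k hij hik hjk] at h2
        rw [rowSum_of_mem hy, rowSum_of_mem hy, rowSum_of_mem hy] at h2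
        omega
      have hzmem : z ∈ marginSet e r := by
        refine mem_marginSet.2 ⟨hzwt, fun l => ?_⟩
        rcases pt_triple i j k hij hik hjk l with rfl | rfl | rfl
        · exact hri
        · exact hrj
        · exact hrk
      refine ⟨z, ?_, ?_⟩
      · rw [Finset.mem_filter, mem_fib]
        refine ⟨⟨hzmem, ?_⟩, ?_⟩
        · funext c
          exact hzrow c
        · unfold bOf
          rw [hzpb, hYc]
      · rw [hzpa, hzpb]
  · have hshift : shiftChoose (cnt e 2 + cnt e 3) (r j) (F1 e y i).card t = 0 := by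
      unfold shiftChoose
      rw [if_neg hα]
    rw [hshift, mul_zero, Finset.card_eq_zero, Finset.filter_eq_empty_iff]
    intro z hz hzt
    have := a_rel (mem_fib.1 hz).1 j
    omega

end margins

end Vale.Agent.Lib.P335
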